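import Vale.Agent.P205.S.YB

/-!
Compositions, inverses, roots, the weight.
Y.comp: norm_iteratedFDerivWithin_comp_le with s = Om and the open set T; the inner derivatives of
order 1 ≤ k ≤ j are at most D^k with D = (C + 1) τ^m μ. Y.comp_bdd: T = univ, the derivatives of g
are bounded on the compact ball. Y.inv0, Y.sqrt0: T = Ioi 0, iteratedDeriv of x⁻¹ (iter_deriv_inv or
iteratedDeriv of zpow) and of sqrt = rpow (1/2) (Real.iter_deriv_rpow_const), u ≥ c τ^(-m) and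
u ≤ C τ^m. Y.wt: w = s0 exp(-1/ρ) with ρ = 1 - |z|^2 ∈ Y 0 1, 1/ρ ∈ Y 0 1 (ρ τ = Λ ≥ 1). For
f = exp ∘ g with g ∈ Y 0 1 use norm_iteratedFDerivWithin_comp_le with outer bound exp (g p): this
gives both w ∈ Y 1 1 and w⁻¹ ∈ Y (-1) 1. Y.inv: u * w^(-a) ∈ Y 0 1 has a lower bound.
-/

open scoped Manifold ContDiff Topology RealInnerProductSpace
open Set Filter Metric Function

noncomputable section

namespace Vale.Agent.P205

variable {ι : Type} {P : Par ι} {V : Type} [NormedAddCommGroup V] [NormedSpace ℝ V]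
  {V₂ : Type} [NormedAddCommGroup V₂] [NormedSpace ℝ V₂]
  {V₃ : Type} [NormedAddCommGroup V₃] [NormedSpace ℝ V₃]
  {a b : ℤ} {t t' : ι → ℝ}

theorem yc_upto {g : ι → V → V₂} {u : ι → E3 → V} {W : ι → E3 → ℝ}
    (hW : ∀ i, ∀ p ∈ Om, 0 ≤ W i p)
    (hb : ∀ j : ℕ, ∃ (C : ℝ) (m : ℕ), ∀ i, ∀ p ∈ Om,
      ‖iteratedFDeriv ℝ j (g i) (u i p)‖ ≤ C * P.tau i p ^ m * W i p) (n : ℕ) :
    ∃ (C : ℝ) (m : ℕ), 0 ≤ C ∧ ∀ k ≤ n, ∀ i, ∀ p ∈ Om,
      ‖iteratedFDeriv ℝ k (g i) (u i p)‖ ≤ C * P.tau i p ^ m * W i p := by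
  choose C m h using hb
  refine ⟨∑ k ∈ Finset.range (n + 1), |C k|, ∑ k ∈ Finset.range (n + 1), m k,
    Finset.sum_nonneg fun _ _ => abs_nonneg _, fun k hk i p hp => (h k i p hp).trans ?_⟩
  have hk' : k ∈ Finset.range (n + 1) := Finset.mem_range.2 (Nat.lt_succ_of_le hk)
  have h1 := P.one_le_tau i hp
  have h2 : C k ≤ ∑ k ∈ Finset.range (n + 1), |C k| :=
    (le_abs_self _).trans
      (Finset.single_le_sum (f := fun k => |C k|) (fun _ _ => abs_nonneg _) hk')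
  have h3 : m k ≤ ∑ k ∈ Finset.range (n + 1), m k :=
    Finset.single_le_sum (f := m) (fun _ _ => Nat.zero_le _) hk'
  have h4 : P.tau i p ^ m k ≤ P.tau i p ^ (∑ k ∈ Finset.range (n + 1), m k) :=
    pow_le_pow_right₀ h1 h3
  have h5 : 0 ≤ P.tau i p ^ m k := pow_nonneg (by linarith) _
  refine mul_le_mul_of_nonneg_right ?_ (hW i p hp)
  exact mul_le_mul h2 h4 h5 (Finset.sum_nonneg fun _ _ => abs_nonneg _)

theorem yc_comp {u : ι → E3 → V} (hu : Y P 0 1 u) {g : ι → V → V₂} {T : Set V} (hT : IsOpen T)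
    (hg : ∀ i, ContDiffOn ℝ ∞ (g i) T) (hm : ∀ i, ∀ p ∈ Om, u i p ∈ T)
    (hb : ∀ j : ℕ, ∃ (C : ℝ) (m : ℕ), ∀ i, ∀ p ∈ Om,
      ‖iteratedFDeriv ℝ j (g i) (u i p)‖ ≤ C * P.tau i p ^ m * P.w i p ^ a) :
    Y P a 1 (fun i p => g i (u i p)) := by
  refine ⟨fun _ => zero_le_one, fun i => (hg i).comp (hu.2.1 i) (fun p hp => hm i p hp),
    fun j => ?_⟩
  obtain ⟨C, m, hC, h1⟩ := yc_upto (P := P) (W := fun i p => P.w i p ^ a)
    (fun i p hp => (zpow_pos (P.w_pos i hp) a).le) hb j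
  obtain ⟨C', m', hC', h2⟩ := hu.upto j
  refine ⟨(j.factorial : ℝ) * C * (C' + 1) ^ j, m + m' * j, by positivity, fun i p hp => ?_⟩
  have hτ := P.one_le_tau i hp
  have hμ := P.hμ i
  have hτ0 : 0 < P.tau i p := by linarith
  have hμ0 : 0 < P.μ i := by linarith
  have hA : 1 ≤ (C' + 1) * P.tau i p ^ m' :=
    one_le_mul_of_one_le_of_one_le (by linarith) (one_le_pow₀ hτ)
  have key := norm_iteratedFDerivWithin_comp_le (𝕜 := ℝ) (n := j) (hg i) (hu.2.1 i)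
    (by exact_mod_cast le_top) hT.uniqueDiffOn isOpen_Om.uniqueDiffOn (fun p hp => hm i p hp) hp
    (C := C * P.tau i p ^ m * P.w i p ^ a) (D := (C' + 1) * P.tau i p ^ m' * P.μ i)
    (fun k hk => by
      rw [iteratedFDerivWithin_of_isOpen k hT (hm i p hp)]
      exact h1 k hk i p hp)
    (fun k hk1 hk => by
      rw [iteratedFDerivWithin_of_isOpen k isOpen_Om hp]
      refine (h2 k hk i p hp).trans ?_
      simp only [zpow_zero, Pi.one_apply, mul_one]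
      rw [mul_pow]
      refine mul_le_mul_of_nonneg_right ?_ (pow_nonneg hμ0.le _)
      calc C' * P.tau i p ^ m' ≤ (C' + 1) * P.tau i p ^ m' :=
            mul_le_mul_of_nonneg_right (by linarith) (pow_nonneg hτ0.le _)
        _ ≤ ((C' + 1) * P.tau i p ^ m') ^ k := le_self_pow₀ hA (by omega))
  rw [iteratedFDerivWithin_of_isOpen j isOpen_Om hp] at key
  refine key.trans (le_of_eq ?_)
  simp only [Pi.one_apply, mul_pow, pow_add, pow_mul]
  ring

theorem yc_pos {u : ι → E3 → ℝ} (hl : LB P a u) (i : ι) {p : E3} (hp : p ∈ Om) : 0 < u i p := by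
  obtain ⟨c, m, hc, h⟩ := hl
  have h1 := h i p hp
  have h2 : 0 < c * P.w i p ^ a := mul_pos hc (zpow_pos (P.w_pos i hp) a)
  have h3 : 0 < P.tau i p ^ m := pow_pos (by linarith [P.one_le_tau i hp]) _
  exact (pos_iff_pos_of_mul_pos (h2.trans_le h1)).2 h3

theorem yc_rpow_le {x s : ℝ} (hx : 0 < x) {N : ℕ} (hN : |s| ≤ N) : x ^ s ≤ x ^ N + x⁻¹ ^ N := by
  have h1 : 0 ≤ x ^ N := pow_nonneg hx.le _
  have h2 : 0 ≤ x⁻¹ ^ N := pow_nonneg (inv_pos.2 hx).le _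
  rcases le_total 1 x with h | h
  · have : x ^ s ≤ x ^ (N : ℝ) :=
      Real.rpow_le_rpow_of_exponent_le h ((le_abs_self s).trans hN)
    rw [Real.rpow_natCast] at this
    linarith
  · have : x ^ s ≤ x ^ (-(N : ℝ)) :=
      Real.rpow_le_rpow_of_exponent_ge hx h (by linarith [neg_abs_le s])
    rw [Real.rpow_neg hx.le, Real.rpow_natCast, ← inv_pow] at this
    linarith

theorem yc_rpow {u : ι → E3 → ℝ} (hu : Y P 0 1 u) (hl : LB P 0 u) (r : ℝ) :
    Y P 0 1 (fun i p => u i p ^ r) := by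
  refine yc_comp hu (g := fun _ x => x ^ r) (T := Ioi 0) isOpen_Ioi
    (fun _ x hx => (Real.contDiffAt_rpow_const_of_ne (ne_of_gt hx)).contDiffWithinAt)
    (fun i p hp => yc_pos hl i hp) (fun j => ?_)
  obtain ⟨C, m, hC, h1⟩ := hu.2.2 0
  have hl' := hl
  obtain ⟨c, m', hc, h2⟩ := hl'
  obtain ⟨N, hN⟩ := exists_nat_ge |r - j|
  refine ⟨|(descPochhammer ℝ j).eval r| * (C ^ N + c⁻¹ ^ N), (m + m') * N, fun i p hp => ?_⟩
  have hx := yc_pos hl i hp
  have hτ := P.one_le_tau i hp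
  have hτ0 : 0 < P.tau i p := by linarith
  have a1 : u i p ≤ C * P.tau i p ^ (m + m') := by
    have := h1 i p hp
    simp only [norm_iteratedFDeriv_zero, zpow_zero, Pi.one_apply, pow_zero, mul_one,
      Real.norm_eq_abs] at this
    exact (le_abs_self _).trans (this.trans
      (mul_le_mul_of_nonneg_left (pow_le_pow_right₀ hτ (Nat.le_add_right _ _)) hC))
  have a2 : (u i p)⁻¹ ≤ c⁻¹ * P.tau i p ^ (m + m') := by
    have := h2 i p hp
    simp only [zpow_zero, mul_one] at this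
    have h3 : c ≤ u i p * P.tau i p ^ (m + m') :=
      this.trans (mul_le_mul_of_nonneg_left (pow_le_pow_right₀ hτ (Nat.le_add_left _ _)) hx.le)
    rw [inv_mul_eq_div, le_div_iff₀ hc, inv_mul_le_iff₀ hx]
    exact h3
  rw [norm_iteratedFDeriv_eq_norm_iteratedDeriv, iteratedDeriv_eq_iterate,
    Real.iter_deriv_rpow_const, norm_mul, Real.norm_eq_abs, Real.norm_eq_abs,
    abs_of_pos (Real.rpow_pos_of_pos hx _), zpow_zero, mul_one, mul_assoc]
  refine mul_le_mul_of_nonneg_left ((yc_rpow_le hx hN).trans ?_) (abs_nonneg _)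
  rw [add_mul, pow_mul, ← mul_pow, ← mul_pow]
  exact add_le_add (pow_le_pow_left₀ hx.le a1 _) (pow_le_pow_left₀ (inv_pos.2 hx).le a2 _)

theorem yc_fst : Y P 0 1 (fun (_ : ι) (p : E3) => p.1) := by
  refine ⟨fun _ => zero_le_one, fun _ => contDiff_fst.contDiffOn, fun j => ?_⟩
  refine ⟨1 + ‖ContinuousLinearMap.fst ℝ E2 ℝ‖, 0, by positivity, fun i p hp => ?_⟩
  have h0 := norm_nonneg (ContinuousLinearMap.fst ℝ E2 ℝ)
  have hb : ‖iteratedFDeriv ℝ j (fun p : E3 => p.1) p‖ ≤ 1 + ‖ContinuousLinearMap.fst ℝ E2 ℝ‖ := by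
    cases j with
    | zero =>
      rw [norm_iteratedFDeriv_zero]
      have : ‖p.1‖ < 1 := hp
      linarith
    | succ j =>
      rw [← norm_iteratedFDeriv_fderiv]
      have e : fderiv ℝ (fun p : E3 => p.1) = fun _ => ContinuousLinearMap.fst ℝ E2 ℝ := by
        funext q
        exact (ContinuousLinearMap.fst ℝ E2 ℝ).fderiv
      rw [e]
      cases j with
      | zero =>
        rw [norm_iteratedFDeriv_zero]
        linarith
      | succ j =>
        rw [iteratedFDeriv_const_of_ne (Nat.succ_ne_zero j)]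
        simp only [Pi.zero_apply, norm_zero]
        linarith
  simp only [pow_zero, zpow_zero, Pi.one_apply, mul_one]
  exact hb.trans (le_mul_of_one_le_right (by linarith) (one_le_pow₀ (P.hμ i)))

theorem yc_rho_pos {p : E3} (hp : p ∈ Om) : 0 < 1 - ‖p.1‖ ^ 2 := by
  have h : ‖p.1‖ < 1 := hp
  have := norm_nonneg p.1
  nlinarith

theorem Y.comp {u : ι → E3 → V} (hu : Y P 0 1 u) {g : V → V₂} {T : Set V} (hT : IsOpen T)
    (hg : ContDiffOn ℝ ∞ g T) (hm : ∀ i, ∀ p ∈ Om, u i p ∈ T)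
    (hb : ∀ j : ℕ, ∃ (C : ℝ) (m : ℕ), ∀ i, ∀ p ∈ Om,
      ‖iteratedFDeriv ℝ j g (u i p)‖ ≤ C * P.tau i p ^ m) :
    Y P 0 1 (fun i p => g (u i p)) := by
  refine yc_comp hu (g := fun _ => g) hT (fun _ => hg) hm (fun j => ?_)
  obtain ⟨C, m, h⟩ := hb j
  exact ⟨C, m, fun i p hp => by simpa using h i p hp⟩

theorem Y.comp_bdd [FiniteDimensional ℝ V] {u : ι → E3 → V} (hu : Y P 0 1 u) {g : V → V₂}
    (hg : ContDiff ℝ ∞ g) (B : ℝ) (hm : ∀ i, ∀ p ∈ Om, ‖u i p‖ ≤ B) :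
    Y P 0 1 (fun i p => g (u i p)) := by
  refine hu.comp isOpen_univ hg.contDiffOn (fun _ _ _ => mem_univ _) (fun j => ?_)
  have : ProperSpace V := FiniteDimensional.proper ℝ V
  obtain ⟨C, hC⟩ := (isCompact_closedBall (0 : V) B).exists_bound_of_continuousOn
    (hg.continuous_iteratedFDeriv (m := j) (by exact_mod_cast le_top)).continuousOn
  refine ⟨C, 0, fun i p hp => ?_⟩
  simpa using hC (u i p) (by simpa using hm i p hp)

theorem Y.inv0 {u : ι → E3 → ℝ} (hu : Y P 0 1 u) (hl : LB P 0 u) :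
    Y P 0 1 (fun i p => (u i p)⁻¹) := by
  refine (yc_rpow hu hl (-1)).congr (fun i p _ => ?_)
  exact (Real.rpow_neg_one _).symm

theorem Y.sqrt0 {u : ι → E3 → ℝ} (hu : Y P 0 1 u) (hl : LB P 0 u) :
    Y P 0 1 (fun i p => √(u i p)) := by
  refine (yc_rpow hu hl (1 / 2)).congr (fun i p _ => ?_)
  exact Real.sqrt_eq_rpow _

theorem yc_rho : Y P 0 1 (fun (_ : ι) (p : E3) => 1 - ‖p.1‖ ^ 2) :=
  yc_fst.comp_bdd (g := fun z : E2 => 1 - ‖z‖ ^ 2)
    (contDiff_const.sub (contDiff_norm_sq ℝ)) 1 (fun _ _ hp => le_of_lt hp)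

theorem yc_rho_lb : LB P 0 (fun (_ : ι) (p : E3) => 1 - ‖p.1‖ ^ 2) := by
  refine ⟨1, 1, one_pos, fun i p hp => ?_⟩
  have h := yc_rho_pos hp
  simp only [zpow_zero, mul_one, pow_one, Par.tau]
  rw [mul_div_cancel₀ _ h.ne']
  exact P.hΛ i

theorem yc_w_eq (a : ℤ) (i : ι) {p : E3} (hp : p ∈ Om) :
    P.w i p ^ a = P.s0 i ^ a * Real.exp (-(a : ℝ) * (1 - ‖p.1‖ ^ 2)⁻¹) := by
  have h := yc_rho_pos hp
  simp only [Par.w, wt, expNegInvGlue, if_neg (not_le.2 h), mul_zpow]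
  congr 1
  rw [← Real.rpow_intCast, ← Real.exp_mul]
  congr 1
  ring

theorem yc_wt (a : ℤ) : Y P a 1 (fun i p => P.w i p ^ a) := by
  refine (yc_comp (a := a) (yc_rho.inv0 yc_rho_lb)
    (g := fun i x => P.s0 i ^ a * Real.exp (-(a : ℝ) * x)) isOpen_univ
    (fun i => (contDiff_const.mul (Real.contDiff_exp.comp
      (contDiff_const.mul contDiff_id))).contDiffOn)
    (fun _ _ _ => mem_univ _) (fun j => ?_)).congr (fun i p hp => yc_w_eq a i hp)
  refine ⟨|(a : ℝ)| ^ j, 0, fun i p hp => ?_⟩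
  rw [norm_iteratedFDeriv_eq_norm_iteratedDeriv, iteratedDeriv_const_mul_field,
    iteratedDeriv_exp_const_mul, yc_w_eq a i hp]
  have h1 : 0 < P.s0 i ^ a := zpow_pos (P.hs0 i) a
  simp only [norm_mul, norm_pow, norm_neg, Real.norm_eq_abs, abs_of_pos h1, Real.abs_exp]
  exact le_of_eq (by ring)

theorem Y.wt : Y P 1 1 P.w := by
  exact (yc_wt 1).congr (fun i p _ => (zpow_one _).symm)

theorem Y.wt_inv : Y P (-1) 1 (fun i p => (P.w i p)⁻¹) := by
  exact (yc_wt (-1)).congr (fun i p _ => (zpow_neg_one _).symm)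

theorem Y.wt_zpow (a : ℤ) : Y P a 1 (fun i p => P.w i p ^ a) := by
  exact yc_wt a

theorem Y.inv {u : ι → E3 → ℝ} (hu : Y P a 1 u) (hl : LB P a u) :
    Y P (-a) 1 (fun i p => (u i p)⁻¹) := by
  have h1 : Y P 0 1 (fun i p => u i p * P.w i p ^ (-a)) := by
    have := hu.mul (Y.wt_zpow (P := P) (-a))
    rw [add_neg_cancel] at this
    exact this.mono le_rfl 1 (fun _ => zero_le_one) (fun i => by simp)
  have h2 : LB P 0 (fun i p => u i p * P.w i p ^ (-a)) := by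
    obtain ⟨c, m, hc, h⟩ := hl
    refine ⟨c, m, hc, fun i p hp => ?_⟩
    have hw : 0 < P.w i p ^ a := zpow_pos (P.w_pos i hp) a
    have h3 := mul_le_mul_of_nonneg_right (h i p hp) (inv_pos.2 hw).le
    rw [mul_assoc, mul_inv_cancel₀ hw.ne'] at h3
    simp only [zpow_zero, zpow_neg]
    calc c * 1 ≤ u i p * P.tau i p ^ m * (P.w i p ^ a)⁻¹ := h3
      _ = _ := by ring
  refine ((h1.inv0 h2).mul0 (Y.wt_zpow (-a))).congr (fun i p hp => ?_)
  have hw : P.w i p ^ (-a) ≠ 0 := (zpow_pos (P.w_pos i hp) _).ne'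
  show (u i p)⁻¹ = (u i p * P.w i p ^ (-a))⁻¹ * P.w i p ^ (-a)
  rw [mul_inv, mul_assoc, inv_mul_cancel₀ hw, mul_one]

/-- The norm of a field bounded below. -/
theorem Y.norm0 {u : ι → E3 → E4} (hu : Y P 0 1 u) (hl : LB P 0 (fun i p => ‖u i p‖)) :
    Y P 0 1 (fun i p => ‖u i p‖) := by
  have h1 : LB P 0 (fun i p => ⟪u i p, u i p⟫) := by
    obtain ⟨c, m, hc, h⟩ := hl
    refine ⟨c ^ 2, m * 2, pow_pos hc 2, fun i p hp => ?_⟩
    have h3 := h i p hp
    simp only [zpow_zero, mul_one] at h3 ⊢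
    rw [real_inner_self_eq_norm_sq, pow_mul, ← mul_pow]
    exact pow_le_pow_left₀ hc.le h3 2
  refine ((hu.inner0 hu).sqrt0 h1).congr (fun i p _ => ?_)
  show ‖u i p‖ = √⟪u i p, u i p⟫
  rw [real_inner_self_eq_norm_sq, Real.sqrt_sq (norm_nonneg _)]

end Vale.Agent.P205
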