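import Vale.Agent.P205.S.Mean
import Vale.Agent.P205.S.YC

/-!
Expansion of the errors and the class of the basic fields.
Use dd_add, inner_add_left/right, real_inner_comm, ring. T = FX + dθ W0, DX U = dθ U + η dX U.
T_Wtt: differentiate hT in θ (dd_inner; FX and a are slow). mean_T_Wt: hT gives
⟪T, dθ W0⟫ = a^2 - ⟪FX, dθ W0⟫, and mean_inner_left, mean_dd_vt.
-/

open scoped Manifold ContDiff Topology RealInnerProductSpace
open Set Filter Metric Function

noncomputable section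

namespace Vale.Agent.P205

variable {ι : Type} {P : Par ι} {K : Prop} (D : PreDat P K) {W U : ι → E3 → E4}
  {e s s' u t t' : ι → ℝ}

/-- The leading part of GX. -/
def PreDat.T : ι → E3 → E4 := fun i p => D.FX i p + dd vt D.W0 i p

/-- The total X derivative of a correction. -/
def DX (P : Par ι) (U : ι → E3 → E4) : ι → E3 → E4 :=
  fun i p => dd vt U i p + P.η i • dd (vX P.q) U i p

theorem PreDat.exp_GX_add (hW : So W) (hU : So U) (i : ι) {p : E3} (hp : p ∈ Om) :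
    D.GX (fun i p => W i p + U i p) i p = D.GX W i p + DX P U i p := by
  simp only [PreDat.GX, DX, dd_add hW hU _ i p hp, smul_add]
  abel

theorem PreDat.exp_Gy_add (hW : So W) (hU : So U) (i : ι) {p : E3} (hp : p ∈ Om) :
    D.Gy (fun i p => W i p + U i p) i p = D.Gy W i p + P.η i • dd vy U i p := by
  simp only [PreDat.Gy, dd_add hW hU _ i p hp, smul_add]
  abel

theorem exp_alg1 (G T b c : E4) (η : ℝ) : ⟪G + (b + η • c), G + (b + η • c)⟫ =
    ⟪G, G⟫ + 2 * ⟪T, b⟫ + 2 * ⟪G - T, b⟫ + 2 * (η * ⟪G, c⟫) + ⟪b + η • c, b + η • c⟫ := by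
  simp only [inner_add_left, inner_add_right, inner_sub_left, real_inner_smul_left,
    real_inner_smul_right, real_inner_comm G b, real_inner_comm G c]
  ring

theorem exp_alg2 (G F w b c d : E4) (η : ℝ) : ⟪G + (b + η • c), F + η • w + η • d⟫ =
    ⟪G, F + η • w⟫ + ⟪F, b⟫ + η * ⟪G, d⟫ + η * ⟪b, w⟫ + η * ⟪F + η • w, c⟫
      + η * ⟪b + η • c, d⟫ := by
  simp only [inner_add_left, inner_add_right, real_inner_smul_left,
    real_inner_smul_right, real_inner_comm F b, real_inner_comm F c, real_inner_comm w c]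
  ring

theorem exp_alg3 (F w d : E4) (η : ℝ) : ⟪F + η • w + η • d, F + η • w + η • d⟫ =
    ⟪F + η • w, F + η • w⟫ + 2 * (η * ⟪F, d⟫) + 2 * (η ^ 2 * ⟪w, d⟫) + η ^ 2 * ⟪d, d⟫ := by
  simp only [inner_add_left, inner_add_right, real_inner_smul_left,
    real_inner_smul_right, real_inner_comm F d, real_inner_comm w d]
  ring

theorem exp_μ_pos (P : Par ι) (i : ι) : 0 < P.μ i := lt_of_lt_of_le one_pos (P.hμ i)

theorem PreDat.eXX_add (hW : So W) (hU : So U) : Eo (D.eXX fun i p => W i p + U i p)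
    (fun i p => D.eXX W i p + 2 * ⟪D.T i p, dd vt U i p⟫
      + 2 * ⟪D.GX W i p - D.T i p, dd vt U i p⟫
      + 2 * (P.η i * ⟪D.GX W i p, dd (vX P.q) U i p⟫) + ⟪DX P U i p, DX P U i p⟫) := by
  intro i p hp
  simp only [PreDat.eXX, D.exp_GX_add hW hU i hp]
  simp only [DX]
  rw [exp_alg1 _ (D.T i p)]
  ring

theorem PreDat.eXy_add (hW : So W) (hU : So U) : Eo (D.eXy fun i p => W i p + U i p)
    (fun i p => D.eXy W i p + ⟪D.Fy i p, dd vt U i p⟫ + P.η i * ⟪D.GX W i p, dd vy U i p⟫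
      + P.η i * ⟪dd vt U i p, dd vy W i p⟫ + P.η i * ⟪D.Gy W i p, dd (vX P.q) U i p⟫
      + P.η i * ⟪DX P U i p, dd vy U i p⟫) := by
  intro i p hp
  simp only [PreDat.eXy, D.exp_GX_add hW hU i hp, D.exp_Gy_add hW hU i hp]
  simp only [DX, PreDat.Gy]
  rw [exp_alg2]
  ring

theorem PreDat.eyy_add (hW : So W) (hU : So U) : Eo (D.eyy fun i p => W i p + U i p)
    (fun i p => D.eyy W i p + 2 * (P.η i * ⟪D.Fy i p, dd vy U i p⟫)
      + 2 * (P.η i ^ 2 * ⟪dd vy W i p, dd vy U i p⟫)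
      + P.η i ^ 2 * ⟪dd vy U i p, dd vy U i p⟫) := by
  intro i p hp
  simp only [PreDat.eyy, D.exp_Gy_add hW hU i hp]
  simp only [PreDat.Gy]
  rw [exp_alg3]
  ring

theorem PreDat.Near.yW {D : PreDat P K} (h : D.Near W e) (he : ∀ i, e i ≤ 1) : Y P 1 1 W := by
  have h1 : Y P 1 1 (fun i p => W i p - D.W0 i p) :=
    h.2.mono le_rfl 1 (fun _ => zero_le_one) (fun i => by simpa using he i)
  exact (h1.add D.yW).congr (fun i p _ => by simp)

theorem PreDat.Near.yR {D : PreDat P K} (h : D.Near W e) (he : ∀ i, P.η i ≤ e i ∧ e i ≤ 1) :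
    Y P 1 (fun i => P.μ i * e i) (fun i p => D.GX W i p - D.T i p) := by
  have hW := h.yW (fun i => (he i).2)
  have h1 := h.2.dd vt
  have h2 : Y P 1 (fun i => P.μ i * e i) (fun i p => P.η i • dd (vX P.q) W i p) :=
    ((hW.dd (vX P.q)).csmul (fun i => (P.η_pos i).le)).mono le_rfl 1 h1.1 (fun i => by
      have := (he i).1
      have := exp_μ_pos P i
      simp only [Pi.one_apply]
      nlinarith)
  refine (h1.add h2).congr (fun i p hp => ?_)
  simp only [PreDat.GX, PreDat.T, dd_sub hW.so D.yW.so _ i p hp]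
  abel

theorem PreDat.yGXF (hW : Y P 1 1 W) : Y P 1 P.μ (fun i p => D.GX W i p - D.FX i p) := by
  have h1 : Y P 1 P.μ (dd vt W) :=
    (hW.dd vt).mono le_rfl 1 (fun i => (exp_μ_pos P i).le) (fun i => by simp)
  have h2 : Y P 1 P.μ (fun i p => P.η i • dd (vX P.q) W i p) :=
    ((hW.dd (vX P.q)).csmul (fun i => (P.η_pos i).le)).mono le_rfl 1 h1.1 (fun i => by
      have := P.η_le_one i
      have := exp_μ_pos P i
      simp only [Pi.one_apply]
      nlinarith)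
  refine (h1.add h2).congr (fun i p _ => ?_)
  simp only [PreDat.GX]
  abel

theorem PreDat.yGX (hW : Y P 1 1 W) : Y P 0 P.μ (D.GX W) := by
  have h0 : ∀ i, 0 ≤ P.μ i := fun i => (exp_μ_pos P i).le
  have h1 : Y P 0 P.μ (fun i p => D.GX W i p - D.FX i p) :=
    (D.yGXF hW).mono (by norm_num) 1 h0 (fun i => by simp)
  have h2 : Y P 0 P.μ D.FX := D.yFX.mono le_rfl 1 h0 (fun i => by simpa using P.hμ i)
  exact (h1.add h2).congr (fun i p _ => by simp)

theorem PreDat.yGyF (hW : Y P 1 1 W) :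
    Y P 1 (fun i => P.η i * P.μ i) (fun i p => D.Gy W i p - D.Fy i p) := by
  have h2 : Y P 1 (fun i => P.η i * P.μ i) (fun i p => P.η i • dd vy W i p) :=
    ((hW.dd vy).csmul (fun i => (P.η_pos i).le)).mono le_rfl 1
      (fun i => (mul_pos (P.η_pos i) (exp_μ_pos P i)).le) (fun i => by simp)
  exact h2.congr (fun i p _ => by simp [PreDat.Gy])

theorem PreDat.yGy (hW : Y P 1 1 W) : Y P 0 P.μ (D.Gy W) := by
  have h0 : ∀ i, 0 ≤ P.μ i := fun i => (exp_μ_pos P i).le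
  have h1 : Y P 0 P.μ (fun i p => D.Gy W i p - D.Fy i p) :=
    (D.yGyF hW).mono (by norm_num) 1 h0 (fun i => by
      have := P.η_le_one i
      have := exp_μ_pos P i
      nlinarith)
  have h2 : Y P 0 P.μ D.Fy := D.yFy.mono le_rfl 1 h0 (fun i => by simpa using P.hμ i)
  exact (h1.add h2).congr (fun i p _ => by simp)

theorem yDX (hU : Y P 1 t U) : Y P 1 (fun i => P.μ i * t i) (DX P U) := by
  have h1 := hU.dd vt
  have h2 : Y P 1 (fun i => P.μ i * t i) (fun i p => P.η i • dd (vX P.q) U i p) :=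
    ((hU.dd (vX P.q)).csmul (fun i => (P.η_pos i).le)).mono le_rfl 1 h1.1 (fun i => by
      have := P.η_le_one i
      have := h1.1 i
      nlinarith)
  exact h1.add h2

theorem PreDat.per_eXX (hW : Per W) : Per (D.eXX W) := by
  intro i p hp
  simp only [PreDat.eXX, PreDat.GX, hW.dd _ i p hp, D.sFX.per i p hp, D.sa.per i p hp]

theorem PreDat.per_eXy (hW : Per W) : Per (D.eXy W) := by
  intro i p hp
  simp only [PreDat.eXy, PreDat.GX, PreDat.Gy, hW.dd _ i p hp, D.sFX.per i p hp,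
    D.sFy.per i p hp]

theorem PreDat.per_eyy (hW : Per W) : Per (D.eyy W) := by
  intro i p hp
  simp only [PreDat.eyy, PreDat.Gy, hW.dd _ i p hp, D.sFy.per i p hp]

theorem PreDat.y_eyy (hW : Y P 1 1 W) :
    Y P 1 (fun i => P.η i * P.μ i ^ 2) (D.eyy W) := by
  have h0 : ∀ i, 0 ≤ P.η i * P.μ i ^ 2 := fun i => by
    have := P.η_pos i
    positivity
  have hG := D.yGyF hW
  have h1 : Y P 1 (fun i => P.η i * P.μ i ^ 2) (fun i p => ⟪D.Fy i p, D.Gy W i p - D.Fy i p⟫) :=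
    (D.yFy.inner0 hG).mono le_rfl 1 h0 (fun i => by
      have := P.η_pos i
      have := P.hμ i
      have : P.μ i ≤ P.μ i ^ 2 := by nlinarith
      nlinarith)
  have h2 : Y P 1 (fun i => P.η i * P.μ i ^ 2)
      (fun i p => ⟪D.Gy W i p - D.Fy i p, D.Gy W i p - D.Fy i p⟫) :=
    (hG.inner hG).mono (by norm_num) 1 h0 (fun i => by
      have := P.η_le_one i
      have := h0 i
      nlinarith)
  refine ((h1.mul_const 2).add h2).congr (fun i p _ => ?_)
  simp only [PreDat.eyy, inner_sub_left, inner_sub_right, real_inner_comm (D.Fy i p) (D.Gy W i p)]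
  ring

/-- The mean of ⟪G, dv U⟫ when G is a slow field F plus a field of weight one. -/
theorem y_mean_inner {G F : ι → E3 → E4} (hF : Y P 0 1 F) (sF : Slow F)
    (hG : Y P 1 P.μ (fun i p => G i p - F i p)) (hU : Y P 1 t U) (hm : Y P 2 t (mean U))
    (v : E3) : Y P 2 (fun i => P.μ i ^ 2 * t i) (mean fun i p => ⟪G i p, dd v U i p⟫) := by
  have h0 : ∀ i, 0 ≤ P.μ i ^ 2 * t i := fun i => mul_nonneg (sq_nonneg _) (hU.1 i)
  have h1 : Y P 2 (fun i => P.μ i ^ 2 * t i) (fun i p => ⟪F i p, dd v (mean U) i p⟫) :=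
    (hF.inner0 (hm.dd v)).mono le_rfl 1 h0 (fun i => by
      have := hU.1 i
      have := P.hμ i
      have : P.μ i ≤ P.μ i ^ 2 := by nlinarith
      nlinarith)
  have h2 : Y P 2 (fun i => P.μ i ^ 2 * t i)
      (mean fun i p => ⟪G i p - F i p, dd v U i p⟫) :=
    (hG.inner (hU.dd v)).mean.mono (by norm_num) 1 h0 (fun i => by
      apply le_of_eq; ring)
  refine (h1.add h2).congr (fun i p hp => ?_)
  have e1 : Eo (fun i p => ⟪G i p, dd v U i p⟫)
      (fun i p => ⟪F i p, dd v U i p⟫ + ⟪G i p - F i p, dd v U i p⟫) := fun i p _ => by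
    simp only [inner_sub_left]; ring
  rw [mean_congr e1 i p hp, mean_add (hF.so.inner (hU.so.dd v)) (hG.so.inner (hU.so.dd v)) i p hp]
  simp only [mean_inner_left sF (hU.so.dd v) i p hp, dd_mean hU.so v i p hp]

theorem PreDat.Fy_Wt (i : ι) {p : E3} (hp : p ∈ Om) : ⟪D.Fy i p, dd vt D.W0 i p⟫ = 0 := by
  have h1 := dd_zero (u := fun i p => ⟪D.Fy i p, D.W0 i p⟫) D.hy vt i p hp
  rw [dd_inner D.yFy.so D.yW.so vt i p hp] at h1
  simpa [D.sFy.dd_vt i p hp] using h1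

theorem PreDat.Fyy_Wt (hK : K) (i : ι) {p : E3} (hp : p ∈ Om) :
    ⟪dd vy D.Fy i p, dd vt D.W0 i p⟫ = 0 := by
  have h1 := dd_zero (u := fun i p => ⟪dd vy D.Fy i p, D.W0 i p⟫) (D.hyy hK) vt i p hp
  rw [dd_inner (D.yFy.so.dd vy) D.yW.so vt i p hp] at h1
  simpa [(D.sFy.dd vy).dd_vt i p hp] using h1

theorem PreDat.T_Wtt (i : ι) {p : E3} (hp : p ∈ Om) :
    ⟪D.T i p, dd vt (dd vt D.W0) i p⟫ = 0 := by
  have sT : So D.T := D.yFX.so.add (D.yW.so.dd vt)
  have e1 : Eo (fun i p => ⟪D.T i p, D.T i p⟫) (fun i p => ‖D.FX i p‖ ^ 2 + D.a i p ^ 2) :=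
    fun i p hp => by
      simp only [real_inner_self_eq_norm_sq]
      exact D.hT i p hp
  have s1 : Slow (fun i p => ‖D.FX i p‖ ^ 2 + D.a i p ^ 2) :=
    D.sFX.map₂ D.sa (fun _ x y => ‖x‖ ^ 2 + y ^ 2)
  have h1 := (dd_congr e1 vt i p hp).trans (s1.dd_vt i p hp)
  rw [dd_inner sT sT vt i p hp] at h1
  have h2 : dd vt D.T i p = dd vt (dd vt D.W0) i p := by
    have := dd_add D.yFX.so (D.yW.so.dd vt) vt i p hp
    simp only [D.sFX.dd_vt i p hp, Pi.zero_apply, zero_add] at this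
    exact this
  simp only [h2, real_inner_comm (D.T i p) (dd vt (dd vt D.W0) i p), Pi.zero_apply] at h1
  linarith

theorem PreDat.exp_mean_FW : Eo (mean fun i p => ⟪D.FX i p, dd vt D.W0 i p⟫) 0 := fun i p hp => by
  rw [mean_inner_left D.sFX (D.yW.so.dd vt) i p hp]
  simp [mean_dd_vt D.yW.so D.pW i p hp]

theorem PreDat.exp_soa : So (fun i p => D.a i p ^ 2) := fun i => (D.ya.so i).pow 2

theorem PreDat.exp_hT (i : ι) {p : E3} (hp : p ∈ Om) :
    ⟪dd vt D.W0 i p, dd vt D.W0 i p⟫ + 2 * ⟪D.FX i p, dd vt D.W0 i p⟫ = D.a i p ^ 2 := by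
  have h := D.hT i p hp
  rw [norm_add_sq_real] at h
  rw [real_inner_self_eq_norm_sq]
  linarith

theorem PreDat.mean_T_Wt :
    Eo (mean fun i p => ⟪D.T i p, dd vt D.W0 i p⟫) (fun i p => D.a i p ^ 2) := by
  intro i p hp
  have e1 : Eo (fun i p => ⟪D.T i p, dd vt D.W0 i p⟫)
      (fun i p => D.a i p ^ 2 - ⟪D.FX i p, dd vt D.W0 i p⟫) := fun i p hp => by
    have := D.exp_hT i hp
    simp only [PreDat.T, inner_add_left]
    linarith
  rw [mean_congr e1 i p hp, mean_sub D.exp_soa (D.yFX.so.inner (D.yW.so.dd vt)) i p hp]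
  simp only [D.exp_mean_FW i p hp, (D.sa.map (fun _ x => x ^ 2)).mean_eq i p hp, Pi.zero_apply,
    sub_zero]

theorem PreDat.mean_Wt_Wt :
    Eo (mean fun i p => ⟪dd vt D.W0 i p, dd vt D.W0 i p⟫) (fun i p => D.a i p ^ 2) := by
  intro i p hp
  have e1 : Eo (fun i p => ⟪dd vt D.W0 i p, dd vt D.W0 i p⟫)
      (fun i p => ⟪D.T i p, dd vt D.W0 i p⟫ - ⟪D.FX i p, dd vt D.W0 i p⟫) := fun i p _ => by
    simp only [PreDat.T, inner_add_left]
    ring
  have sT : So D.T := D.yFX.so.add (D.yW.so.dd vt)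
  rw [mean_congr e1 i p hp,
    mean_sub (sT.inner (D.yW.so.dd vt)) (D.yFX.so.inner (D.yW.so.dd vt)) i p hp]
  simp only [D.exp_mean_FW i p hp, D.mean_T_Wt i p hp, Pi.zero_apply, sub_zero]

theorem PreDat.y_inv_sq : Y P (-2) 1 (fun i p => (D.a i p ^ 2)⁻¹) := by
  have h := D.ya.inv D.la
  exact ((h.mul h).mono (by norm_num) 1 (fun _ => zero_le_one) (fun i => by simp)).congr
    (fun i p _ => by simp only [sq, mul_inv])

theorem PreDat.Err.mono {D : PreDat P K} (h : D.Err W s s') (C : ℝ) (h0 : ∀ i, 0 ≤ t i)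
    (h0' : ∀ i, 0 ≤ t' i) (hs : ∀ i, s i ≤ C * t i) (hs' : ∀ i, s' i ≤ C * t' i) :
    D.Err W t t' := by
  obtain ⟨h1, h2, h3, h4, h5⟩ := h
  have k0 : ∀ i, 0 ≤ P.η i * t i := fun i => mul_nonneg (P.η_pos i).le (h0 i)
  have k1 : ∀ i, P.η i * s i ≤ C * (P.η i * t i) := fun i => by
    have := mul_le_mul_of_nonneg_left (hs i) (P.η_pos i).le
    linarith
  exact ⟨h1.mono le_rfl C h0 hs, h2.mono le_rfl C h0 hs, h3.mono le_rfl C h0 hs,
    h4.mono le_rfl C h0' hs',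
    fun hK => ⟨(h5 hK).1.mono le_rfl C k0 k1, (h5 hK).2.mono le_rfl C k0 k1⟩⟩

end Vale.Agent.P205
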