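import Vale.Agent.P205.S.GS

/-!
Frames from a map F with a good direction.
Fields: FX p = fderiv F p.1 X with X = ex + q ey, Fy p = fderiv F p.1 ey (Y.lift then Y.clm with
ContinuousLinearMap.apply), dd vy Fy p = D2 F p.1 ey (dd_lift), amplitude w * a (Y.wt, LB.wt,
LB.of_lam). The hypothesis of gram_schmidt comes from IndQ with ξ = x X + y ey (|x| + |y| ≤ C ‖ξ‖,
Λ ≤ τ). frmK: gram_schmidt Fy Fyy FX, e1 = b2, e0 = b3, e2 = b4, Bd = ⟪Fyy, b2⟫⁻¹ • b2,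
Bc = ⟪Fy, b1⟫⁻¹ • (b1 - ⟪Fyy, b1⟫ • Bd). frmH: gram_schmidt Fy FX FXX, e0 = b2, e1 = b3, e2 = b4,
Bc = ⟪Fy, b1⟫⁻¹ • b1, Bd = 0.
-/

open scoped Manifold ContDiff Topology RealInnerProductSpace
open Set Filter Metric Function

noncomputable section

namespace Vale.Agent.P205

variable {ι : Type} {P : Par ι} {F : ι → E2 → E4} {a : ι → E2 → ℝ}

theorem mkA_apply (q : ℝ) (T Fy : E4) (ξ : E2) :
    mkA q T Fy ξ = ξ 0 • T + (ξ 1 - q * ξ 0) • Fy := by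
  change ξ 0 • (T - q • Fy) + ξ 1 • Fy = _
  module

theorem mkA_eq (q : ℝ) (A : E2 →L[ℝ] E4) : mkA q (A (ex + q • ey)) (A ey) = A := by
  refine ContinuousLinearMap.ext fun ξ => ?_
  rw [mkA_apply, ← map_smul, ← map_smul, ← map_add]
  congr 1
  ext j
  fin_cases j <;> simp [ex, ey]
  ring

theorem norm_mkA_sub (q : ℝ) (T Fy T' Fy' : E4) :
    ‖mkA q T' Fy' - mkA q T Fy‖ ≤ ‖T' - T‖ + (1 + |q|) * ‖Fy' - Fy‖ := by
  refine ContinuousLinearMap.opNorm_le_bound _ (by positivity) fun ξ => ?_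
  have e : (mkA q T' Fy' - mkA q T Fy) ξ = ξ 0 • (T' - T) + (ξ 1 - q * ξ 0) • (Fy' - Fy) := by
    rw [ContinuousLinearMap.sub_apply, mkA_apply, mkA_apply]
    module
  have h0 : |ξ 0| ≤ ‖ξ‖ := PiLp.norm_apply_le ξ 0
  have h1 : |ξ 1| ≤ ‖ξ‖ := PiLp.norm_apply_le ξ 1
  have h2 : |ξ 1 - q * ξ 0| ≤ (1 + |q|) * ‖ξ‖ := by
    have := abs_sub (ξ 1) (q * ξ 0)
    rw [abs_mul] at this
    nlinarith [mul_le_mul_of_nonneg_left h0 (abs_nonneg q)]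
  rw [e]
  refine (norm_add_le _ _).trans ?_
  rw [norm_smul, norm_smul, Real.norm_eq_abs, Real.norm_eq_abs]
  nlinarith [mul_le_mul_of_nonneg_right h0 (norm_nonneg (T' - T)),
    mul_le_mul_of_nonneg_right h2 (norm_nonneg (Fy' - Fy))]

theorem frm_key {c q Λ τ : ℝ} {m : ℕ} (hc : 0 < c) (hΛ : 1 ≤ Λ) (hτ : Λ ≤ τ) {A : E2 →L[ℝ] E4}
    {v : E4} (h : IndQ (c / Λ ^ m) A v) (x y t : ℝ) : c / (2 + |q|) * (|x| + |y| + |t|) ≤
      ‖x • A (ex + q • ey) + y • A ey + t • v‖ * τ ^ m := by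
  have h1 := h (x • (ex + q • ey) + y • ey) t
  set ξ : E2 := x • (ex + q • ey) + y • ey with hξ
  have e : A ξ = x • A (ex + q • ey) + y • A ey := by rw [hξ, map_add, map_smul, map_smul]
  rw [e] at h1
  have a0 : |ξ 0| ≤ ‖ξ‖ := PiLp.norm_apply_le ξ 0
  have a1 : |ξ 1| ≤ ‖ξ‖ := PiLp.norm_apply_le ξ 1
  have b0 : ξ 0 = x := by simp [hξ, ex, ey]
  have b1 : ξ 1 = x * q + y := by simp [hξ, ex, ey]
  rw [b0] at a0
  have a2 : |y| ≤ ‖ξ‖ + |q| * ‖ξ‖ := by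
    have := abs_sub (ξ 1) (q * x)
    rw [abs_mul, show ξ 1 - q * x = y by rw [b1]; ring] at this
    nlinarith [mul_le_mul_of_nonneg_left a0 (abs_nonneg q)]
  have hq : 0 < 2 + |q| := by positivity
  have hL : 0 < Λ ^ m := by positivity
  have a3 : |x| + |y| + |t| ≤ (2 + |q|) * (‖ξ‖ + |t|) := by
    nlinarith [abs_nonneg t, abs_nonneg q, mul_nonneg (abs_nonneg q) (abs_nonneg t)]
  rw [div_mul_eq_mul_div, div_le_iff₀ hL] at h1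
  calc c / (2 + |q|) * (|x| + |y| + |t|) ≤ c / (2 + |q|) * ((2 + |q|) * (‖ξ‖ + |t|)) := by gcongr
    _ = c * (‖ξ‖ + |t|) := by field_simp
    _ ≤ _ := h1
    _ ≤ _ := by gcongr

theorem frm_dd (hs : ∀ i, ContDiff ℝ ∞ (F i)) (i : ι) (p : E3) :
    dd vy (fun i p => fderiv ℝ (F i) p.1 ey) i p = D2 (F i) p.1 ey := by
  have h1 : ∀ i, ContDiff ℝ ∞ (fderiv ℝ (F i)) := fun i => (hs i).fderiv_right (by simp)
  rw [dd_lift (u := fun i z => fderiv ℝ (F i) z ey) (fun i => (h1 i).clm_apply contDiff_const),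
    fderiv_clm_apply ((h1 i).differentiable (by simp) _) (differentiableAt_const _)]
  simp [D2, vy]

theorem frm_y1 (hs : ∀ i, ContDiff ℝ ∞ (F i)) (h1 : PB P.Λ P.μ (fun i => fderiv ℝ (F i)))
    (v : E2) : Y P 0 1 (fun i p => fderiv ℝ (F i) p.1 v) :=
  (Y.lift (fun i => (hs i).fderiv_right (by simp)) h1).clm (ContinuousLinearMap.apply ℝ E4 v)

theorem frm_y2 (hs : ∀ i, ContDiff ℝ ∞ (F i))
    (h2 : PB P.Λ P.μ (fun i => fderiv ℝ (fderiv ℝ (F i)))) (v : E2) :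
    Y P 0 1 (fun i p => D2 (F i) p.1 v) :=
  ((Y.lift (fun i => ((hs i).fderiv_right (m := ∞) (by simp)).fderiv_right (by simp)) h2).clm
    (ContinuousLinearMap.apply ℝ (E2 →L[ℝ] E4) v)).clm (ContinuousLinearMap.apply ℝ E4 v)

theorem frm_la {c : ℝ} {m : ℕ} (hc : 0 < c)
    (h : ∀ i, ∀ z ∈ ball (0 : E2) 1, c / P.Λ i ^ m ≤ a i z) :
    LB P 1 (fun i p => P.w i p * a i p.1) :=
  ((LB.of_lam (u := fun i p => a i p.1) hc fun i p hp =>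
    h i p.1 (mem_ball_zero_iff.2 hp)).mul0 LB.wt).mono fun _ _ _ => (mul_comm _ _).le

theorem frmK {L : Loop} (hL : L.g1 = 0) (hs : ∀ i, ContDiff ℝ ∞ (F i) ∧ ContDiff ℝ ∞ (a i))
    (h1 : PB P.Λ P.μ (fun i => fderiv ℝ (F i)))
    (h2 : PB P.Λ P.μ (fun i => fderiv ℝ (fderiv ℝ (F i)))) (ha : PB P.Λ P.μ a)
    (hl : ∃ (c : ℝ) (m : ℕ), 0 < c ∧ ∀ i, ∀ z ∈ ball (0 : E2) 1, c / P.Λ i ^ m ≤ a i z ∧
      IndQ (c / P.Λ i ^ m) (fderiv ℝ (F i) z) (D2 (F i) z ey)) :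
    ∃ R : Frm P True L, R.FX = (fun i p => fderiv ℝ (F i) p.1 (ex + P.q • ey)) ∧
      R.Fy = (fun i p => fderiv ℝ (F i) p.1 ey) ∧ R.a = (fun i p => P.w i p * a i p.1) := by
  obtain ⟨c, m, hc, hl⟩ := hl
  have sF : ∀ i, ContDiff ℝ ∞ (F i) := fun i => (hs i).1
  have yX := frm_y1 sF h1 (ex + P.q • ey)
  have yy := frm_y1 sF h1 ey
  have yyy := frm_y2 sF h2 ey
  obtain ⟨b1, b2, b3, b4, ⟨y1, y2, y3, y4⟩, ⟨s1, s2, s3, s4⟩, ho, hA, l1, l2, l3⟩ :=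
    gram_schmidt yy yyy yX (fun _ _ _ _ => rfl) (fun _ _ _ _ => rfl) (fun _ _ _ _ => rfl)
      ⟨c / (2 + |P.q|), m, by positivity, fun i p hp x y z => by
        have := frm_key (q := P.q) hc (P.hΛ i) (yl_lam P i hp)
          (hl i p.1 (mem_ball_zero_iff.2 hp)).2 z x y
        rwa [add_rotate |z|, add_rotate (z • _)] at this⟩
  have yd := ((yyy.inner0 y2).inv0 l2).smul0 y2
  have yc := ((yy.inner0 y1).inv0 l1).smul0 (y1.sub ((yyy.inner0 y1).smul0 yd))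
  refine ⟨⟨_, _, b3, b2, b4, _, _, _, yX, yy, y3, y2, y4, yc, yd, fun _ _ _ _ => rfl,
    fun _ _ _ _ => rfl, s3, s2, s4, fun i p hp θ => ?_, fun i p hp θ => ?_,
    Y.wt.smul1 (Y.lift (fun i => (hs i).2) ha), fun _ _ _ _ => rfl,
    frm_la hc fun i z hz => (hl i z hz).1, fun i p hp => ?_, l3, fun i p hp => (hA i p hp).2.2.2.2.2,
    Or.inl hL, fun i p hp => ?_, fun _ => ⟨hL, fun i p hp => ?_⟩, fun i p hp => ?_,
    fun _ i p hp => ?_⟩, rfl, rfl, rfl⟩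
  · simp only [s1 i p hp θ, s2 i p hp θ]
  · simp only [s2 i p hp θ]
  · obtain ⟨-, a2, a3, a4, -, -, -, a8, a9, a10⟩ := ho i p hp
    exact ⟨a3, a2, a4, by rw [real_inner_comm]; exact a8, a10, a9⟩
  · obtain ⟨a1, a2, a3, -⟩ := hA i p hp
    exact ⟨a2, a1, a3⟩
  · rw [frm_dd sF]
    exact ⟨(hA i p hp).2.2.2.1, (hA i p hp).2.2.2.2.1⟩
  · have := (l1.pos i hp).ne'
    simp only [real_inner_smul_right, inner_sub_right, (hA i p hp).1, mul_zero, sub_zero, and_true]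
    exact inv_mul_cancel₀ this
  · have := (l2.pos i hp).ne'
    rw [frm_dd sF]
    simp only [real_inner_smul_right, inner_sub_right, inv_mul_cancel₀ this, mul_one, sub_self,
      mul_zero, and_self]

theorem frmH (L : Loop) (hs : ∀ i, ContDiff ℝ ∞ (F i) ∧ ContDiff ℝ ∞ (a i))
    (h1 : PB P.Λ P.μ (fun i => fderiv ℝ (F i)))
    (h2 : PB P.Λ P.μ (fun i => fderiv ℝ (fderiv ℝ (F i)))) (ha : PB P.Λ P.μ a)
    (hl : ∃ (c : ℝ) (m : ℕ), 0 < c ∧ ∀ i, ∀ z ∈ ball (0 : E2) 1, c / P.Λ i ^ m ≤ a i z ∧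
      IndQ (c / P.Λ i ^ m) (fderiv ℝ (F i) z) (D2 (F i) z (ex + P.q • ey))) :
    ∃ R : Frm P False L, R.FX = (fun i p => fderiv ℝ (F i) p.1 (ex + P.q • ey)) ∧
      R.Fy = (fun i p => fderiv ℝ (F i) p.1 ey) ∧ R.a = (fun i p => P.w i p * a i p.1) ∧
      ∀ i, ∀ p ∈ Om, ⟪R.FX i p, R.e1 i p⟫ = 0 ∧
        0 < ⟪D2 (F i) p.1 (ex + P.q • ey), R.e1 i p⟫ ∧
        ⟪D2 (F i) p.1 (ex + P.q • ey), R.e2 i p⟫ = 0 := by
  obtain ⟨c, m, hc, hl⟩ := hl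
  have sF : ∀ i, ContDiff ℝ ∞ (F i) := fun i => (hs i).1
  have yX := frm_y1 sF h1 (ex + P.q • ey)
  have yy := frm_y1 sF h1 ey
  have yXX := frm_y2 sF h2 (ex + P.q • ey)
  obtain ⟨b1, b2, b3, b4, ⟨y1, y2, y3, y4⟩, ⟨s1, s2, s3, s4⟩, ho, hA, l1, l2, l3⟩ :=
    gram_schmidt yy yX yXX (fun _ _ _ _ => rfl) (fun _ _ _ _ => rfl) (fun _ _ _ _ => rfl)
      ⟨c / (2 + |P.q|), m, by positivity, fun i p hp x y z => by
        have := frm_key (q := P.q) hc (P.hΛ i) (yl_lam P i hp)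
          (hl i p.1 (mem_ball_zero_iff.2 hp)).2 y x z
        rwa [add_comm |y|, add_comm (y • _)] at this⟩
  have yc := ((yy.inner0 y1).inv0 l1).smul0 y1
  refine ⟨⟨_, _, b2, b3, b4, _, fun _ _ => 0, _, yX, yy, y2, y3, y4, yc, Y.const 0,
    fun _ _ _ _ => rfl, fun _ _ _ _ => rfl, s2, s3, s4, fun i p hp θ => ?_, fun _ _ _ _ => rfl,
    Y.wt.smul1 (Y.lift (fun i => (hs i).2) ha), fun _ _ _ _ => rfl,
    frm_la hc fun i z hz => (hl i z hz).1, fun i p hp => ?_, l2,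
    fun i p hp => (hA i p hp).2.2.2.2.1, Or.inr fun i p hp => (hA i p hp).2.2.2.1,
    fun i p hp => ?_, False.elim, fun i p hp => ?_, False.elim⟩, rfl, rfl, rfl, fun i p hp =>
    ⟨(hA i p hp).2.2.2.1, l3.pos i hp, (hA i p hp).2.2.2.2.2⟩⟩
  · simp only [s1 i p hp θ]
  · obtain ⟨-, a2, a3, a4, -, -, -, a8, a9, a10⟩ := ho i p hp
    exact ⟨a2, a3, a4, a8, a9, a10⟩
  · obtain ⟨a1, a2, a3, -⟩ := hA i p hp
    exact ⟨a1, a2, a3⟩
  · have := (l1.pos i hp).ne'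
    simp only [real_inner_smul_right, inner_zero_right, and_true]
    exact inv_mul_cancel₀ this

theorem dd_vy_Fy (hs : ∀ i, ContDiff ℝ ∞ (F i)) (i : ι) (p : E3) :
    dd vy (fun i p => fderiv ℝ (F i) p.1 ey) i p = D2 (F i) p.1 ey := by
  exact frm_dd hs i p

end Vale.Agent.P205
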