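import Vale.Agent.P205.S.Ext
import Vale.Agent.P205.S.Exp
import Vale.Agent.P205.S.Frms

/-!
Derivatives of the evaluated correction U = corr P W.
On the ball ev W = W ∘ ℓ near z, ℓ z = (z, lam z0) linear; chain rule. D2_ev: fderiv (ev W) · v =
(dd (ℓ v) W) ∘ ℓ near z; D2 u z v = fderiv (fun x => fderiv u x v) z v (fderiv_clm_apply).
ℓ v = v0 • vX q + (v1 - q v0) • vy + (lam v0) • vt, ℓ ey = vy, ℓ X = vX q + lam • vt, η lam = 1.
out_metric: on the ball expand ‖v0 • GX + σ • Gy‖^2 (mkA_apply, mkA_eq) to get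
v0^2 eXX + 2 v0 σ eXy + σ^2 eyy, use Y.sup, s0 ≤ 1, |σ| ≤ (1 + |q|) ‖v‖. Off the ball
fderiv_zero_off, wt z = 0, ev = 0.
-/

open scoped Manifold ContDiff Topology RealInnerProductSpace
open Set Filter Metric Function

noncomputable section

namespace Vale.Agent.P205

variable {ι : Type} {P : Par ι} {V : Type} [NormedAddCommGroup V] [NormedSpace ℝ V]
  {K : Prop} {F : ι → E2 → E4} {W : ι → E3 → E4}

/-- The point (z, lam x). -/
def Par.pt (P : Par ι) (i : ι) (z : E2) : E3 := (z, P.lam i * z 0)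

/-- The correction added to F. -/
def corr (P : Par ι) (W : ι → E3 → E4) : ι → E2 → E4 := ev P (fun i p => P.η i • W i p)

theorem pt_mem (i : ι) {z : E2} (hz : z ∈ ball (0 : E2) 1) : P.pt i z ∈ Om := by
  simpa [Par.pt, Om] using hz

/-- The linear map z ↦ (z, c x). -/
def evL (c : ℝ) : E2 →L[ℝ] E3 :=
  (ContinuousLinearMap.id ℝ E2).prod (c • (EuclideanSpace.proj (0 : Fin 2) : E2 →L[ℝ] ℝ))

theorem evL_apply (c : ℝ) (v : E2) : evL c v = (v, c * v 0) := rfl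

omit [NormedSpace ℝ V] in
theorem ev_of_mem (u : ι → E3 → V) (i : ι) {z : E2} (hz : z ∈ ball (0 : E2) 1) :
    ev P u i z = u i (P.pt i z) := by
  simp only [ev, mem_ball_zero_iff.1 hz, if_true]; rfl

omit [NormedSpace ℝ V] in
theorem ev_evtl (u : ι → E3 → V) (i : ι) {z : E2} (hz : z ∈ ball (0 : E2) 1) :
    ev P u i =ᶠ[𝓝 z] u i ∘ evL (P.lam i) := by
  filter_upwards [isOpen_ball.mem_nhds hz] with x hx
  rw [ev_of_mem u i hx]; rfl

theorem ev_at {u : ι → E3 → V} (hu : So u) (i : ι) {z : E2} (hz : z ∈ ball (0 : E2) 1) :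
    ContDiffAt ℝ ∞ (ev P u i) z := by
  have h1 : ContDiffAt ℝ ∞ (u i) (evL (P.lam i) z) :=
    (hu i).contDiffAt (isOpen_Om.mem_nhds (pt_mem i hz))
  exact (h1.comp z (evL _).contDiff.contDiffAt).congr_of_eventuallyEq (ev_evtl u i hz)

theorem D2_eq_fderiv {u : E2 → V} {z : E2} (h : ContDiffAt ℝ ∞ u z) (v : E2) :
    D2 u z v = fderiv ℝ (fun x => fderiv ℝ u x v) z v := by
  have h1 : DifferentiableAt ℝ (fderiv ℝ u) z :=
    (h.fderiv_right (m := ∞) le_rfl).differentiableAt (by simp)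
  rw [fderiv_clm_apply h1 (differentiableAt_const v)]
  simp [D2]

theorem dd_lin (u : ι → E3 → V) (i : ι) (p : E3) (q c : ℝ) (v : E2) :
    dd (v, c * v 0) u i p =
      v 0 • dd (vX q) u i p + (v 1 - q * v 0) • dd vy u i p + (c * v 0) • dd vt u i p := by
  have e : ((v, c * v 0) : E3) = v 0 • vX q + (v 1 - q * v 0) • vy + (c * v 0) • vt := by
    refine Prod.ext ?_ (by simp [vX, vy, vt])
    simp only [vX, vy, vt, Prod.fst_add, Prod.smul_fst, smul_zero, add_zero]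
    conv_lhs => rw [eq_ex_ey v]
    module
  unfold dd
  rw [e]
  simp only [map_add, map_smul]

theorem fderiv_ev {u : ι → E3 → V} (hu : So u) (i : ι) {z : E2} (hz : z ∈ ball (0 : E2) 1)
    (v : E2) : fderiv ℝ (ev P u i) z v = dd (v, P.lam i * v 0) u i (P.pt i z) := by
  have hd : DifferentiableAt ℝ (u i) (evL (P.lam i) z) := hu.diff i (pt_mem i hz)
  rw [(ev_evtl u i hz).fderiv_eq, fderiv_comp z hd (evL _).differentiableAt,
    ContinuousLinearMap.fderiv]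
  rfl

theorem D2_ev {u : ι → E3 → V} (hu : So u) (i : ι) {z : E2} (hz : z ∈ ball (0 : E2) 1)
    (v : E2) : D2 (ev P u i) z v =
      dd (v, P.lam i * v 0) (dd (v, P.lam i * v 0) u) i (P.pt i z) := by
  rw [D2_eq_fderiv (ev_at hu i hz)]
  have e : (fun x => fderiv ℝ (ev P u i) x v) =ᶠ[𝓝 z] ev P (dd (v, P.lam i * v 0) u) i := by
    filter_upwards [isOpen_ball.mem_nhds hz] with x hx
    rw [fderiv_ev hu i hx, ev_of_mem _ i hx]
  rw [e.fderiv_eq, fderiv_ev (hu.dd _) i hz]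

theorem corr_y (hW : Y P 1 1 W) : Y P 1 1 (fun i p => P.η i • W i p) := by
  exact (hW.csmul (fun i => (P.η_pos i).le)).mono le_rfl 1 (fun _ => zero_le_one)
    (fun i => by simpa using P.η_le_one i)

theorem eta_lam (i : ι) : P.η i * P.lam i = 1 :=
  inv_mul_cancel₀ (lt_of_lt_of_le one_pos (P.hlam i)).ne'

theorem ex_coord (q : ℝ) : (ex + q • ey) 0 = 1 ∧ (ex + q • ey) 1 = q := by
  simp [ex, ey]

theorem ey_coord : ey 0 = 0 ∧ ey 1 = 1 := by
  simp [ey]

theorem D2_corr (hW : Y P 1 1 W) (i : ι) {z : E2} (hz : z ∈ ball (0 : E2) 1) (v : E2) :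
    D2 (corr P W i) z v =
      P.η i • dd (v, P.lam i * v 0) (dd (v, P.lam i * v 0) W) i (P.pt i z) := by
  have hp := pt_mem (P := P) i hz
  unfold corr
  rw [D2_ev (corr_y hW).so i hz, dd_congr (dd_csmul hW.so P.η _) _ i _ hp,
    dd_csmul (hW.so.dd _) P.η _ i _ hp]

theorem fderiv_corr (D : PreDat P K) (hF : ∀ i, ContDiff ℝ ∞ (F i))
    (hX : D.FX = fun i p => fderiv ℝ (F i) p.1 (ex + P.q • ey))
    (hy : D.Fy = fun i p => fderiv ℝ (F i) p.1 ey) (hW : Y P 1 1 W) (i : ι) {z : E2}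
    (hz : z ∈ ball (0 : E2) 1) : fderiv ℝ (F i + corr P W i) z =
      mkA P.q (D.GX W i (P.pt i z)) (D.Gy W i (P.pt i z)) := by
  have hp := pt_mem (P := P) i hz
  ext1 v
  have d1 : DifferentiableAt ℝ (F i) z := (hF i).differentiable (by simp) z
  have d2 : DifferentiableAt ℝ (corr P W i) z :=
    (ev_at (corr_y hW).so i hz).differentiableAt (by simp)
  rw [fderiv_add d1 d2, ContinuousLinearMap.add_apply, mkA_apply]
  unfold corr
  rw [fderiv_ev (corr_y hW).so i hz, dd_csmul hW.so P.η _ i _ hp]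
  beta_reduce
  rw [dd_lin W i _ P.q, ← mkA_eq P.q (fderiv ℝ (F i) z), mkA_apply]
  simp only [PreDat.GX, PreDat.Gy, hX, hy, smul_add, smul_smul]
  rw [← mul_assoc, eta_lam, one_mul, mul_comm (P.η i) (v 0), mul_comm (P.η i) (v 1 - _)]
  simp only [Par.pt]
  abel

theorem D2_corr_y (hF : ∀ i, ContDiff ℝ ∞ (F i)) (hW : Y P 1 1 W) (i : ι) {z : E2}
    (hz : z ∈ ball (0 : E2) 1) : D2 (F i + corr P W i) z ey =
      D2 (F i) z ey + P.η i • dd vy (dd vy W) i (P.pt i z) := by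
  rw [D2_add (u' := corr P W i) (hF i).contDiffAt (ev_at (corr_y hW).so i hz), D2_corr hW i hz, ey_coord.1,
    mul_zero]
  rfl

theorem D2_corr_X (hF : ∀ i, ContDiff ℝ ∞ (F i)) (hW : Y P 1 1 W) (i : ι) {z : E2}
    (hz : z ∈ ball (0 : E2) 1) : D2 (F i + corr P W i) z (ex + P.q • ey) =
      D2 (F i) z (ex + P.q • ey) + (P.η i • dd (vX P.q) (dd (vX P.q) W) i (P.pt i z)
        + dd (vX P.q) (dd vt W) i (P.pt i z) + dd vt (dd (vX P.q) W) i (P.pt i z)
        + P.lam i • dd vt (dd vt W) i (P.pt i z)) := by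
  have hp := pt_mem (P := P) i hz
  rw [D2_add (u' := corr P W i) (hF i).contDiffAt (ev_at (corr_y hW).so i hz), D2_corr hW i hz]
  congr 1
  have l1 : ∀ (u : ι → E3 → E4) (j : ι) (p : E3),
      dd (ex + P.q • ey, P.lam i * (ex + P.q • ey) 0) u j p =
        dd (vX P.q) u j p + P.lam i • dd vt u j p := fun u j p => by
    rw [dd_lin u j p P.q, (ex_coord _).1, (ex_coord _).2]; simp
  have l2 : Eo (dd (ex + P.q • ey, P.lam i * (ex + P.q • ey) 0) W)
      (fun j p => dd (vX P.q) W j p + (fun _ => P.lam i) j • dd vt W j p) := fun j p _ => l1 W j p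
  have s1 := hW.so.dd (vX P.q)
  have s2 := hW.so.dd vt
  have l3 : ∀ x : E3, dd x (dd (ex + P.q • ey, P.lam i * (ex + P.q • ey) 0) W) i (P.pt i z) =
      dd x (dd (vX P.q) W) i (P.pt i z) + P.lam i • dd x (dd vt W) i (P.pt i z) := fun x => by
    rw [dd_congr l2 x i _ hp, dd_add s1 (s2.csmul _) x i _ hp]
    beta_reduce
    rw [dd_csmul s2 (fun _ => P.lam i) x i _ hp]
  rw [l1, l3, l3]
  simp only [smul_add, smul_smul, ← mul_assoc, eta_lam, one_smul, one_mul]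
  abel

theorem out_metric (D : PreDat P K) {a : ι → E2 → ℝ} (hF : ∀ i, ContDiff ℝ ∞ (F i))
    (hX : D.FX = fun i p => fderiv ℝ (F i) p.1 (ex + P.q • ey))
    (hy : D.Fy = fun i p => fderiv ℝ (F i) p.1 ey) (ha : D.a = fun i p => P.w i p * a i p.1)
    (hW : Y P 1 1 W) {s : ι → ℝ} (h1 : Y P 1 s (D.eXX W)) (h2 : Y P 1 s (D.eXy W)) :
    ∃ (C : ℝ) (m : ℕ), 0 ≤ C ∧ ∀ i z v,
      |‖fderiv ℝ (F i + corr P W i) z v‖ ^ 2 - ‖fderiv ℝ (F i) z v‖ ^ 2
        - (P.s0 i * wt z * a i z) ^ 2 * v 0 ^ 2 - ev P (D.eyy W) i z * (v 1 - P.q * v 0) ^ 2|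
        ≤ C * P.Λ i ^ m * s i * ‖v‖ ^ 2 := by
  obtain ⟨C1, m1, hC1, k1⟩ := h1.sup
  obtain ⟨C2, m2, hC2, k2⟩ := h2.sup
  refine ⟨C1 + 2 * (1 + |P.q|) * C2, max m1 m2, by positivity, fun i z v => ?_⟩
  have hs := h1.1 i
  have hΛ : 0 ≤ P.Λ i := zero_le_one.trans (P.hΛ i)
  by_cases hz : z ∈ ball (0 : E2) 1
  · have hp := pt_mem (P := P) i hz
    have e0 : fderiv ℝ (F i) z v =
        v 0 • D.FX i (P.pt i z) + (v 1 - P.q * v 0) • D.Fy i (P.pt i z) := by
      rw [← mkA_eq P.q (fderiv ℝ (F i) z), mkA_apply, hX, hy]; rfl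
    have e1 : P.s0 i * wt z * a i z = D.a i (P.pt i z) := by rw [ha]; rfl
    rw [fderiv_corr D hF hX hy hW i hz, mkA_apply, e0, e1, ev_of_mem _ i hz]
    have e2 : ∀ (x y : ℝ) (A B : E4), ‖x • A + y • B‖ ^ 2 =
        x ^ 2 * ⟪A, A⟫ + 2 * x * y * ⟪A, B⟫ + y ^ 2 * ⟪B, B⟫ := fun x y A B => by
      rw [← real_inner_self_eq_norm_sq]
      simp only [inner_add_left, inner_add_right, real_inner_smul_left, real_inner_smul_right,
        real_inner_comm A B]
      ring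
    have e3 : ‖v 0 • D.GX W i (P.pt i z) + (v 1 - P.q * v 0) • D.Gy W i (P.pt i z)‖ ^ 2 -
        ‖v 0 • D.FX i (P.pt i z) + (v 1 - P.q * v 0) • D.Fy i (P.pt i z)‖ ^ 2 -
        D.a i (P.pt i z) ^ 2 * v 0 ^ 2 - D.eyy W i (P.pt i z) * (v 1 - P.q * v 0) ^ 2 =
        v 0 ^ 2 * D.eXX W i (P.pt i z) +
          2 * (v 0 * (v 1 - P.q * v 0)) * D.eXy W i (P.pt i z) := by
      rw [e2, e2]; simp only [PreDat.eXX, PreDat.eXy, PreDat.eyy]; ring
    rw [e3]
    have b0 : |v 0| ≤ ‖v‖ := by simpa using PiLp.norm_apply_le v 0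
    have b1 : |v 1| ≤ ‖v‖ := by simpa using PiLp.norm_apply_le v 1
    have b2 : |v 1 - P.q * v 0| ≤ (1 + |P.q|) * ‖v‖ := by
      refine (abs_sub _ _).trans ?_
      rw [abs_mul, add_mul, one_mul]
      exact add_le_add b1 (mul_le_mul_of_nonneg_left b0 (abs_nonneg _))
    have c0 : ∀ (C : ℝ) (m : ℕ), 0 ≤ C → m ≤ max m1 m2 →
        C * P.Λ i ^ m * P.s0 i * s i ≤ C * (P.Λ i ^ max m1 m2 * s i) := fun C m hC hm => by
      have := pow_le_pow_right₀ (P.hΛ i) hm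
      calc C * P.Λ i ^ m * P.s0 i * s i ≤ C * P.Λ i ^ max m1 m2 * 1 * s i := by
            gcongr
            · exact (P.hs0 i).le
            · exact P.hs1 i
        _ = _ := by ring
    have c1 := (k1 i _ hp).trans (c0 C1 m1 hC1 (le_max_left _ _))
    have c2 := (k2 i _ hp).trans (c0 C2 m2 hC2 (le_max_right _ _))
    rw [Real.norm_eq_abs] at c1 c2
    have hG : 0 ≤ P.Λ i ^ max m1 m2 * s i := by positivity
    refine (abs_add_le _ _).trans ?_
    rw [abs_mul, abs_mul, abs_mul, abs_mul, abs_pow, abs_two]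
    calc |v 0| ^ 2 * |D.eXX W i (P.pt i z)| +
          2 * (|v 0| * |v 1 - P.q * v 0|) * |D.eXy W i (P.pt i z)|
        ≤ ‖v‖ ^ 2 * (C1 * (P.Λ i ^ max m1 m2 * s i)) +
          2 * (‖v‖ * ((1 + |P.q|) * ‖v‖)) * (C2 * (P.Λ i ^ max m1 m2 * s i)) := by gcongr
      _ = _ := by ring
  · have hz1 : 1 ≤ ‖z‖ := by simpa using hz
    have sm := ev_smooth (corr_y hW) i
    have d1 : DifferentiableAt ℝ (F i) z := (hF i).differentiable (by simp) z
    have d2 : DifferentiableAt ℝ (corr P W i) z := sm.differentiable (by simp) z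
    have z1 : fderiv ℝ (corr P W i) z = 0 := fderiv_zero_off sm (ev_support _ i) hz1
    have z2 : wt z = 0 := expNegInvGlue.zero_of_nonpos (by nlinarith)
    have z3 : ev P (D.eyy W) i z = 0 := by simp [ev, not_lt.2 hz1]
    rw [fderiv_add d1 d2, z1, z2, z3, add_zero]
    simp only [sub_self, mul_zero, zero_mul, ne_eq, OfNat.ofNat_ne_zero, not_false_eq_true,
      zero_pow, abs_zero]
    positivity

end Vale.Agent.P205
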