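import Vale.Agent.P205.S.MainU

/-!
The main step: new errors.
Take U from mainU, rewrite with eXX_add, eXy_add, eyy_add; the old errors cancel (up to
mean eXy, which is slow: Per.slow_mean, Slow.mean_eq). Each remaining term is estimated by
Y.inner, Y.cmul, Y.mono (sizes: R = GX - T is μ e, dv U is μ^3 s, DX U is μ^3 s, GX, Gy, dy W are
μ; η ≤ e). For the means of η ⟪GX, dX U⟫, η ⟪GX, dy U⟫, η ⟪Gy, dX U⟫ use y_mean_inner; all other
terms already have weight 2 (Y.mean). mean_add, mean_csmul split the mean.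
-/

open scoped Manifold ContDiff Topology RealInnerProductSpace
open Set Filter Metric Function

noncomputable section

namespace Vale.Agent.P205

variable {ι : Type} {P : Par ι} {K : Prop} (D : PreDat P K) {W U : ι → E3 → E4}
  {e s s' u t t' : ι → ℝ}

/-- size r, with mean of weight two -/
def mainS_M (P : Par ι) (r : ι → ℝ) (f : ι → E3 → ℝ) : Prop := Y P 1 r f ∧ Y P 2 r (mean f)

theorem mainS_M.mono {f : ι → E3 → ℝ} (h : mainS_M P t f) (h0 : ∀ i, 0 ≤ t' i)
    (ht : ∀ i, t i ≤ t' i) : mainS_M P t' f :=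
  ⟨h.1.mono le_rfl 1 h0 fun i => by simpa using ht i,
    h.2.mono le_rfl 1 h0 fun i => by simpa using ht i⟩

theorem mainS_two {f : ι → E3 → ℝ} (h : Y P 2 t f) : mainS_M P t f :=
  ⟨h.mono (by norm_num) 1 h.1 fun i => by simp, h.mean⟩

theorem mainS_M.add {f g : ι → E3 → ℝ} (hf : mainS_M P t f) (hg : mainS_M P t g) :
    mainS_M P t (fun i p => f i p + g i p) :=
  ⟨hf.1.add hg.1, (hf.2.add hg.2).congr (mean_add hf.1.so hg.1.so)⟩

theorem mainS_M.congr {f g : ι → E3 → ℝ} (hf : mainS_M P t f) (e : Eo g f) : mainS_M P t g :=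
  ⟨hf.1.congr e, hf.2.congr (mean_congr e)⟩

theorem mainS_M.cmul {f : ι → E3 → ℝ} (hf : mainS_M P t f) {c : ι → ℝ} (hc : ∀ i, 0 ≤ c i) :
    mainS_M P (fun i => c i * t i) (fun i p => c i * f i p) :=
  ⟨hf.1.cmul hc, (hf.2.cmul hc).congr (mean_csmul f c)⟩

theorem mainS_M.two_mul {f : ι → E3 → ℝ} (hf : mainS_M P t f) :
    mainS_M P t (fun i p => 2 * f i p) :=
  (hf.add hf).congr fun _ _ _ => _root_.two_mul _

theorem mainS_in {u v : ι → E3 → E4} (hu : Y P 1 t u) (hv : Y P 1 t' v) :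
    mainS_M P (fun i => t i * t' i) (fun i p => ⟪u i p, v i p⟫) :=
  mainS_two (hu.inner hv)

theorem mainS_G {G F : ι → E3 → E4} (hF : Y P 0 1 F) (sF : Slow F) (hG0 : Y P 0 P.μ G)
    (hG : Y P 1 P.μ (fun i p => G i p - F i p)) (hU : Y P 1 t U) (hm : Y P 2 t (mean U)) (v : E3) :
    mainS_M P (fun i => P.μ i ^ 2 * t i) (fun i p => ⟪G i p, dd v U i p⟫) := by
  have h := y_mean_inner hF sF hG hU hm v
  refine ⟨(hG0.inner (hU.dd v)).mono (by norm_num) 1 h.1 fun i => le_of_eq ?_, h⟩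
  ring

theorem PreDat.mainStep (he : ∀ i, P.η i ≤ e i ∧ e i ≤ 1) (hN : D.Near W e)
    (hE : D.Err W s s') : ∃ U : ι → E3 → E4, Per U ∧ Y P 1 (fun i => P.μ i ^ 2 * s i) U ∧
      D.Err (fun i p => W i p + U i p) (fun i => P.μ i ^ 6 * (e i + s i) * s i + s' i)
        (fun i => P.μ i ^ 6 * (e i + s i) * s i + s' i) := by
  obtain ⟨U, pU, yU, mU, h1, h2, h3⟩ := D.mainU hN.1 hE
  refine ⟨U, pU, yU, ?_⟩
  have hs : ∀ i, 0 ≤ s i := hE.1.1
  have hs' : ∀ i, 0 ≤ s' i := hE.2.2.2.1.1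
  have hη : ∀ i, 0 ≤ P.η i := fun i => (P.η_pos i).le
  have hW := hN.yW fun i => (he i).2
  obtain ⟨r, hr⟩ : ∃ r : ι → ℝ, r = fun i => P.μ i ^ 6 * (e i + s i) * s i + s' i := ⟨_, rfl⟩
  rw [← hr]
  have key : ∀ i, P.μ i ^ 4 * e i * s i ≤ r i ∧ P.μ i ^ 6 * s i ^ 2 ≤ r i ∧ s' i ≤ r i := by
    intro i
    have a1 := hs i
    have a2 := hs' i
    have a3 : 0 ≤ e i := (hη i).trans (he i).1
    have a4 := P.hμ i
    have a5 : P.μ i ^ 4 * e i * s i ≤ P.μ i ^ 6 * e i * s i := by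
      have := pow_le_pow_right₀ a4 (show 4 ≤ 6 by norm_num)
      gcongr
    have a6 : 0 ≤ P.μ i ^ 6 * e i * s i := by positivity
    have a7 : 0 ≤ P.μ i ^ 6 * s i ^ 2 := by positivity
    rw [hr]
    refine ⟨?_, ?_, ?_⟩ <;> (beta_reduce; linarith)
  have r0 : ∀ i, 0 ≤ r i := fun i => (hs' i).trans (key i).2.2
  have k1 : ∀ i, P.η i * (P.μ i ^ 4 * s i) ≤ r i := fun i => by
    have a1 := hs i
    have a4 := P.hμ i
    have := mul_le_mul_of_nonneg_right (he i).1 (show 0 ≤ P.μ i ^ 4 * s i by positivity)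
    linarith [(key i).1]
  have k2 : ∀ i, P.η i * (P.μ i ^ 6 * s i ^ 2) ≤ r i := fun i => by
    have a4 := P.hμ i
    have := mul_le_mul_of_nonneg_right (P.η_le_one i) (show 0 ≤ P.μ i ^ 6 * s i ^ 2 by positivity)
    linarith [(key i).2.1]
  have gX := fun v => ((mainS_G D.yFX D.sFX (D.yGX hW) (D.yGXF hW) yU mU v).cmul hη).mono r0
    fun i => by linarith [k1 i]
  have gy := ((mainS_G D.yFy D.sFy (D.yGy hW) ((D.yGyF hW).mono le_rfl 1
    (fun i => (exp_μ_pos P i).le) fun i => mul_le_mul_of_nonneg_right (P.η_le_one i)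
      (exp_μ_pos P i).le) yU mU (vX P.q)).cmul hη).mono r0 fun i => by linarith [k1 i]
  have eXX : mainS_M P r (D.eXX fun i p => W i p + U i p) := by
    have t1 := ((mainS_in (hN.yR he) (yU.dd vt)).mono r0 fun i => by linarith [(key i).1]).two_mul
    have t3 := (mainS_in (yDX yU) (yDX yU)).mono r0 fun i => by linarith [(key i).2.1]
    refine ((t1.add (gX (vX P.q)).two_mul).add t3).congr fun i p hp => ?_
    rw [D.eXX_add hW.so yU.so i p hp]
    beta_reduce
    linarith [h1 i p hp]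
  have eXy : mainS_M P r (D.eXy fun i p => W i p + U i p) := by
    have t1 := (mainS_two hE.2.2.2.1).mono r0 fun i => (key i).2.2
    have t2 := ((mainS_in (yU.dd vt) (hW.dd vy)).cmul hη).mono r0 fun i => by
      rw [Pi.one_apply]; linarith [k1 i]
    have t3 := ((mainS_in (yDX yU) (yU.dd vy)).cmul hη).mono r0 fun i => by linarith [k2 i]
    refine ((((t1.add (gX vy)).add t2).add gy).add t3).congr fun i p hp => ?_
    rw [D.eXy_add hW.so yU.so i p hp]
    beta_reduce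
    linarith [h2 i p hp]
  refine ⟨eXX.1, eXy.1, eXX.2, eXy.2, fun hK => ?_⟩
  have t1 := (((mainS_in (hW.dd vy) (yU.dd vy)).cmul hη).mono r0 fun i => by
    rw [Pi.one_apply]; linarith [k1 i]).two_mul
  have t2 := ((mainS_in (yU.dd vy) (yU.dd vy)).cmul hη).mono r0 fun i => by linarith [k2 i]
  refine ((t1.add t2).cmul hη).congr fun i p hp => ?_
  rw [D.eyy_add hW.so yU.so i p hp]
  beta_reduce
  linarith [h3 hK i p hp]

end Vale.Agent.P205
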