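import Vale.Agent.P205.S.PhaseU

/-!
The phase step: new errors.
U = D.ph φ with φ from exists_phase. Rewrite with eXX_add, eXy_add, eyy_add; ph_T, ph_Fy, ph_Fyy
kill the leading terms. Sizes: dv U and DX U are μ^2 u, R = GX - T is μ e, GX, Gy, dy W are μ,
η ≤ e. Mean of η ⟪GX, dX U⟫: y_mean_inner with ph_mean. Mean of the new eXy: it equals
eXy + η M + rest, M the expression of phase_mean, rest = η ⟪R, dy U⟫ + η ⟪dθ U, dy (W - W0)⟫ +
η^2 ⟪dy W, dX U⟫ + η ⟪DX U, dy U⟫ of weight 2; mean (eXy + η M) = 0 by the choice of φ.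
-/

open scoped Manifold ContDiff Topology RealInnerProductSpace
open Set Filter Metric Function

noncomputable section

namespace Vale.Agent.P205

variable {ι : Type} {P : Par ι} {K : Prop} (D : PreDat P K) {W U : ι → E3 → E4}
  {e s s' u t t' : ι → ℝ}

theorem sizes_PhaseS {η μ e u : ℝ} (h0 : 0 < η) (h1 : η ≤ e) (hμ : 1 ≤ μ) (hu : 0 ≤ u) :
    μ ^ 3 * e * u ≤ η * u + μ ^ 4 * (e + u) * u ∧ η * μ ^ 3 * u ≤ η * u + μ ^ 4 * (e + u) * u ∧
      μ ^ 4 * u ^ 2 ≤ η * u + μ ^ 4 * (e + u) * u ∧ η * u ≤ η * u + μ ^ 4 * (e + u) * u := by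
  have he : 0 ≤ e := h0.le.trans h1
  have h3 : μ ^ 3 ≤ μ ^ 4 := pow_le_pow_right₀ hμ (by norm_num)
  have hμ0 : 0 ≤ μ := by linarith
  have a1 : μ ^ 3 * e * u ≤ μ ^ 4 * e * u := by gcongr
  have a2 : η * μ ^ 3 * u ≤ e * μ ^ 3 * u := by gcongr
  have a3 : 0 ≤ η * u := by positivity
  have a4 : 0 ≤ μ ^ 4 * u ^ 2 := by positivity
  have a5 : 0 ≤ μ ^ 4 * e * u := by positivity
  refine ⟨?_, ?_, ?_, ?_⟩ <;> nlinarith

theorem Y.le_PhaseS {a b : ℤ} {f : ι → E3 → ℝ} (h : Y P a t f) (hb : b ≤ a) {x : ι → ℝ}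
    (h1 : ∀ i, t i = x i) (h2 : ∀ i, x i ≤ s i) : Y P b s f :=
  h.mono hb 1 (fun i => ((h.1 i).trans_eq (h1 i)).trans (h2 i)) fun i => by
    rw [one_mul, h1]
    exact h2 i

theorem PreDat.phaseStep (he : ∀ i, P.η i ≤ e i ∧ e i ≤ 1) (hu : ∀ i, 0 ≤ u i)
    (hN : D.Near W e) (hE : D.Err W (fun i => P.η i * u i) (fun i => P.η i * u i)) :
    ∃ U : ι → E3 → E4, Per U ∧ Y P 1 (fun i => P.μ i * u i) U ∧
      D.Err (fun i p => W i p + U i p)
        (fun i => P.η i * u i + P.μ i ^ 4 * (e i + u i) * u i)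
        (fun i => P.η i * (P.η i * u i + P.μ i ^ 4 * (e i + u i) * u i)) := by
  obtain ⟨h1, h2, h3, h4, h5⟩ := hE
  obtain ⟨φ, sφ, yφ, hφ⟩ := D.exists_phase hN.1 h4 hu
  have hU := D.ph_y yφ
  have hW := hN.yW fun i => (he i).2
  have hR := hN.yR he
  have hη : ∀ i, 0 ≤ P.η i := fun i => (P.η_pos i).le
  have sz := fun i => sizes_PhaseS (P.η_pos i) (he i).1 (P.hμ i) (hu i)
  generalize hS : (fun i => P.η i * u i + P.μ i ^ 4 * (e i + u i) * u i) = S
  have z1 : ∀ i, P.μ i ^ 3 * e i * u i ≤ S i := fun i => hS ▸ (sz i).1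
  have z2 : ∀ i, P.η i * P.μ i ^ 3 * u i ≤ S i := fun i => hS ▸ (sz i).2.1
  have z3 : ∀ i, P.μ i ^ 4 * u i ^ 2 ≤ S i := fun i => hS ▸ (sz i).2.2.1
  have z4 : ∀ i, P.η i * u i ≤ S i := fun i => hS ▸ (sz i).2.2.2
  have z5 : ∀ i, P.η i * (P.μ i ^ 4 * u i ^ 2) ≤ S i := fun i =>
    (mul_le_of_le_one_left (by positivity) (P.η_le_one i)).trans (z3 i)
  have eS : (fun i => P.η i * (P.η i * u i + P.μ i ^ 4 * (e i + u i) * u i)) =
      fun i => P.η i * S i := by rw [← hS]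
  rw [eS]
  refine ⟨D.ph φ, D.ph_per sφ, hU, ?_⟩
  have mT := fun i p hp => D.ph_T sφ yφ.so i (p := p) hp
  have mF := fun i p hp => D.ph_Fy yφ.so i (p := p) hp
  have mY := fun hK i p hp => D.ph_Fyy hK yφ.so i (p := p) hp
  have mM := D.phase_mean sφ yφ.so
  have m0 : Y P 2 (fun i => P.μ i * u i) (mean (D.ph φ)) := Y.of_eo_zero hU.1 (D.ph_mean sφ)
  generalize D.ph φ = U at *
  have hX := yDX hU
  have a1 : Y P 2 S fun i p => ⟪D.GX W i p - D.T i p, dd vt U i p⟫ :=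
    (hR.inner (hU.dd vt)).le_PhaseS (by norm_num) (fun i => by ring) z1
  have a2 : ∀ v, Y P 1 S fun i p => P.η i * ⟪D.GX W i p, dd v U i p⟫ := fun v =>
    (((D.yGX hW).inner (hU.dd v)).cmul hη).le_PhaseS (by norm_num) (fun i => by ring) z2
  have a3 : Y P 2 S fun i p => ⟪DX P U i p, DX P U i p⟫ :=
    (hX.inner hX).le_PhaseS (by norm_num) (fun i => by ring) z3
  have a13 := (a1.mul_const 2).add a3
  have w1 : ∀ {f : ι → E3 → ℝ} {x : ι → ℝ}, Y P 2 x f → Y P 1 x f := fun h =>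
    h.le_PhaseS (by norm_num) (fun _ => rfl) fun _ => le_rfl
  have eX : Eo (D.eXX fun i p => W i p + U i p) fun i p => D.eXX W i p +
      (2 * P.η i) • ⟪D.GX W i p, dd (vX P.q) U i p⟫ +
      (2 * ⟪D.GX W i p - D.T i p, dd vt U i p⟫ + ⟪DX P U i p, DX P U i p⟫) := fun i p hp => by
    rw [D.eXX_add hW.so hU.so i p hp]
    simp only [mT i p hp, smul_eq_mul]
    ring
  have b1 : Y P 2 S fun i p => ⟪D.GX W i p - D.T i p, dd vy U i p⟫ :=
    (hR.inner (hU.dd vy)).le_PhaseS (by norm_num) (fun i => by ring) z1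
  have b2 : Y P 2 S fun i p => ⟪dd vt U i p, dd vy (fun i p => W i p - D.W0 i p) i p⟫ :=
    ((hU.dd vt).inner (hN.2.dd vy)).le_PhaseS (by norm_num) (fun i => by ring) z1
  have b3 : ∀ v, Y P 2 S fun i p => P.η i * ⟪dd vy W i p, dd v U i p⟫ := fun v =>
    (((hW.dd vy).inner (hU.dd v)).cmul hη).le_PhaseS (by norm_num)
      (fun i => by simp only [Pi.one_apply]; ring) z2
  have b4 : Y P 2 S fun i p => ⟪DX P U i p, dd vy U i p⟫ :=
    (hX.inner (hU.dd vy)).le_PhaseS (by norm_num) (fun i => by ring) z3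
  have b := (((b1.add b2).add (b3 (vX P.q))).add b4).cmul hη
  have sT : So D.T := D.yFX.so.add (D.yW.so.dd vt)
  have sM : So fun i p => ⟪D.T i p, dd vy U i p⟫ + ⟪dd vt U i p, dd vy D.W0 i p⟫ +
      ⟪D.Fy i p, dd (vX P.q) U i p⟫ :=
    ((sT.inner (hU.so.dd vy)).add ((hU.so.dd vt).inner (D.yW.so.dd vy))).add
      (D.yFy.so.inner (hU.so.dd _))
  refine ⟨?_, ?_, ?_, ?_, fun hK => ?_⟩
  · refine (((h1.le_PhaseS le_rfl (fun _ => rfl) z4).add ((a2 (vX P.q)).mul_const 2)).add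
      (w1 a13)).congr fun i p hp => ?_
    rw [eX i p hp]
    simp only [smul_eq_mul]
    ring
  · have c1 : Y P 1 S fun i p => P.η i * ⟪dd vt U i p, dd vy W i p⟫ :=
      (((hU.dd vt).inner (hW.dd vy)).cmul hη).le_PhaseS (by norm_num)
        (fun i => by simp only [Pi.one_apply]; ring) z2
    have c2 : Y P 1 S fun i p => P.η i * ⟪D.Gy W i p, dd (vX P.q) U i p⟫ :=
      (((D.yGy hW).inner (hU.dd _)).cmul hη).le_PhaseS (by norm_num) (fun i => by ring) z2
    have c3 : Y P 1 S fun i p => P.η i * ⟪DX P U i p, dd vy U i p⟫ :=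
      ((hX.inner (hU.dd vy)).cmul hη).le_PhaseS (by norm_num) (fun i => by ring) z5
    refine (((((h2.le_PhaseS le_rfl (fun _ => rfl) z4).add (a2 vy)).add c1).add c2).add
      c3).congr fun i p hp => ?_
    rw [D.eXy_add hW.so hU.so i p hp]
    simp only [mF i p hp, add_zero]
  · have c1 := ((y_mean_inner D.yFX D.sFX (D.yGXF hW) hU m0 (vX P.q)).cmul hη).le_PhaseS le_rfl
      (fun i => by ring) z2
    have sG := (D.yGX hW).so.inner (hU.so.dd (vX P.q))
    refine (((h3.le_PhaseS le_rfl (fun _ => rfl) z4).add (c1.mul_const 2)).add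
      a13.mean).congr fun i p hp => ?_
    rw [mean_congr eX i p hp, mean_add (h1.so.add (sG.csmul _)) a13.so i p hp]
    beta_reduce
    rw [mean_add h1.so (sG.csmul fun i => 2 * P.η i) i p hp]
    beta_reduce
    rw [mean_csmul _ (fun i => 2 * P.η i) i p hp]
    simp only [smul_eq_mul]
    ring
  · have eY : Eo (D.eXy fun i p => W i p + U i p) fun i p => D.eXy W i p +
        P.η i • (⟪D.T i p, dd vy U i p⟫ + ⟪dd vt U i p, dd vy D.W0 i p⟫ +
          ⟪D.Fy i p, dd (vX P.q) U i p⟫) +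
        P.η i * (⟪D.GX W i p - D.T i p, dd vy U i p⟫ +
          ⟪dd vt U i p, dd vy (fun i p => W i p - D.W0 i p) i p⟫ +
          P.η i * ⟪dd vy W i p, dd (vX P.q) U i p⟫ + ⟪DX P U i p, dd vy U i p⟫) :=
      fun i p hp => by
        rw [D.eXy_add hW.so hU.so i p hp]
        simp only [mF i p hp, dd_sub hW.so D.yW.so vy i p hp, PreDat.Gy, inner_sub_left,
          inner_sub_right, inner_add_left, real_inner_smul_left, smul_eq_mul]
        ring
    refine b.mean.congr fun i p hp => ?_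
    rw [mean_congr eY i p hp, mean_add (h2.so.add (sM.csmul _)) b.so i p hp]
    beta_reduce
    rw [mean_add h2.so (sM.csmul P.η) i p hp]
    beta_reduce
    rw [mean_csmul _ P.η i p hp]
    beta_reduce
    rw [mM i p hp]
    simp only [smul_eq_mul, hφ i p hp]
    ring
  · have c1 : Y P 2 S fun i p => P.η i * ⟪dd vy U i p, dd vy U i p⟫ :=
      (((hU.dd vy).inner (hU.dd vy)).cmul hη).le_PhaseS (by norm_num) (fun i => by ring) z5
    have c := (((b3 vy).mul_const 2).add c1).cmul hη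
    have z6 : ∀ i, P.η i * (P.η i * u i) ≤ P.η i * S i := fun i =>
      mul_le_mul_of_nonneg_left (z4 i) (hη i)
    have eY : Eo (D.eyy fun i p => W i p + U i p) fun i p => D.eyy W i p +
        P.η i * (2 * (P.η i * ⟪dd vy W i p, dd vy U i p⟫) +
          P.η i * ⟪dd vy U i p, dd vy U i p⟫) := fun i p hp => by
      rw [D.eyy_add hW.so hU.so i p hp]
      simp only [mY hK i p hp]
      ring
    refine ⟨(((h5 hK).1.le_PhaseS le_rfl (fun _ => rfl) z6).add (w1 c)).congr eY,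
      (((h5 hK).2.le_PhaseS le_rfl (fun _ => rfl) z6).add c.mean).congr fun i p hp => ?_⟩
    rw [mean_congr eY i p hp, mean_add (h5 hK).1.so c.so i p hp]

end Vale.Agent.P205
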