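import Vale.Agent.P205.S.Init
import Vale.Agent.P205.S.MainS
import Vale.Agent.P205.S.PhaseS

/-!
The recursion. ε = μ^32 / lam = η μ^32 ≤ 1, e = η μ^11, u n = η μ^10 ε^n.
Claim n: there is W with Near W e and Err W (η u n) (η u n). n = 0: init and mainStep with
e := η (W0 - W0 = 0), s = η μ^2, s' = η^2 μ^2; new size ≤ 3 η^2 μ^10, U has size η μ^4.
Step: phaseStep gives s1 ≤ 3 η μ^15 u (first Err.mono to (η μ^15 u, η^2 μ^15 u)), U1 of size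
μ u ≤ e; mainStep gives μ^6 (e + s1) s1 + η s1 ≤ 3 η ε u since s1 ≤ e, U2 of size μ^2 s1 ≤ e.
For the inequalities write η μ^k ≤ η μ^32 ≤ 1 for k ≤ 32 (pow_le_pow_right₀).
-/

open scoped Manifold ContDiff Topology RealInnerProductSpace
open Set Filter Metric Function

noncomputable section

namespace Vale.Agent.P205

variable {ι : Type} {P : Par ι} {K : Prop} (D : PreDat P K) {W U : ι → E3 → E4}
  {e s s' u t t' : ι → ℝ}

theorem rec_k {h m : ℝ} (h0 : 0 < h) (hm : 1 ≤ m) (h1 : h * m ^ 32 ≤ 1) {k : ℕ} (hk : k ≤ 32) :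
    h * m ^ k ≤ 1 :=
  (mul_le_mul_of_nonneg_left (pow_le_pow_right₀ hm hk) h0.le).trans h1

theorem rec_mono {c m : ℝ} (h0 : 0 ≤ c) (hm : 1 ≤ m) {k l : ℕ} (hk : k ≤ l) :
    c * m ^ k ≤ c * m ^ l :=
  mul_le_mul_of_nonneg_left (pow_le_pow_right₀ hm hk) h0

theorem rec_init {h m : ℝ} (hm : 1 ≤ m) :
    m ^ 6 * (h + h * m ^ 2) * (h * m ^ 2) + h ^ 2 * m ^ 2 ≤ 3 * (h * (h * m ^ 10 * 1)) := by
  have a1 := rec_mono (sq_nonneg h) hm (by norm_num : 8 ≤ 10)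
  have a2 := rec_mono (sq_nonneg h) hm (by norm_num : 2 ≤ 10)
  nlinarith

theorem rec_phase {h m u : ℝ} (h0 : 0 < h) (hm : 1 ≤ m) (hu : 0 ≤ u) (hue : u ≤ h * m ^ 11) :
    h * u + m ^ 4 * (h * m ^ 11 + u) * u ≤ 3 * (h * m ^ 15 * u) := by
  have a1 := rec_mono (mul_nonneg h0.le hu) hm (by norm_num : 0 ≤ 15)
  have a2 : m ^ 4 * u * u ≤ m ^ 4 * (h * m ^ 11) * u := by gcongr
  nlinarith

theorem rec_main {h m u : ℝ} (h0 : 0 < h) (hm : 1 ≤ m) (hu : 0 ≤ u)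
    (hs : h * m ^ 15 * u ≤ h * m ^ 11) :
    m ^ 6 * (h * m ^ 11 + h * m ^ 15 * u) * (h * m ^ 15 * u) + h * (h * m ^ 15 * u) ≤
      3 * (h * (h * m ^ 32 * u)) := by
  have a1 := rec_mono (mul_nonneg (sq_nonneg h) hu) hm (by norm_num : 15 ≤ 32)
  have a2 : m ^ 6 * (h * m ^ 15 * u) * (h * m ^ 15 * u) ≤
      m ^ 6 * (h * m ^ 11) * (h * m ^ 15 * u) := by gcongr
  nlinarith

theorem rec_small {h m x : ℝ} (h0 : 0 < h) (hm : 1 ≤ m) (h1 : h * m ^ 32 ≤ 1) (hx0 : 0 ≤ x)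
    (hx : x ≤ 1) {k : ℕ} (hk : k ≤ 32) : h * m ^ k * x * (h * m ^ 11) ≤ h * m ^ 11 :=
  mul_le_of_le_one_left (by positivity) (mul_le_one₀ (rec_k h0 hm h1 hk) hx0 hx)

theorem PreDat.Near.rec_add {D : PreDat P K} (hN : D.Near W e) (hp : Per U) (hU : Y P 1 t U)
    (h : ∀ i, t i ≤ e i) : D.Near (fun i p => W i p + U i p) e :=
  ⟨hN.1.map₂ hp fun _ a b => a + b,
    (hN.2.add (hU.mono le_rfl 1 hN.2.1 fun i => by rw [one_mul]; exact h i)).congr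
      fun _ _ _ => add_sub_right_comm _ _ _⟩

theorem PreDat.rec_aux (hM : D.Mix) (hk : ∀ i, P.η i * P.μ i ^ 32 ≤ 1) (n : ℕ) :
    ∃ W : ι → E3 → E4, D.Near W (fun i => P.η i * P.μ i ^ 11) ∧
      D.Err W (fun i => P.η i * (P.η i * P.μ i ^ 10 * (P.η i * P.μ i ^ 32) ^ n))
        (fun i => P.η i * (P.η i * P.μ i ^ 10 * (P.η i * P.μ i ^ 32) ^ n)) := by
  have h0 := P.η_pos
  have hm := P.hμ
  have hm0 : ∀ i, 0 < P.μ i := fun i => lt_of_lt_of_le one_pos (hm i)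
  have hz : ∀ e : ι → ℝ, (∀ i, 0 ≤ e i) → D.Near D.W0 e := fun e he =>
    ⟨D.pW, Y.of_eo_zero he fun i p _ => sub_self _⟩
  have he : ∀ i, P.η i ≤ P.η i * P.μ i ^ 11 ∧ P.η i * P.μ i ^ 11 ≤ 1 := fun i =>
    ⟨le_mul_of_one_le_right (h0 i).le (one_le_pow₀ (hm i)), rec_k (h0 i) (hm i) (hk i) (by norm_num)⟩
  induction n with
  | zero =>
    obtain ⟨U, hp, hU, hE⟩ := D.mainStep (e := P.η) (fun i => ⟨le_rfl, P.η_le_one i⟩)
      (hz _ fun i => (h0 i).le) (D.init hM)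
    refine ⟨_, (hz _ fun i => (h0 i).le.trans (he i).1).rec_add hp hU fun i => ?_, ?_⟩
    · have := rec_mono (h0 i).le (hm i) (by norm_num : 4 ≤ 11)
      linarith
    · simp only [pow_zero]
      have hn : ∀ i, 0 ≤ P.η i * (P.η i * P.μ i ^ 10 * 1) := fun i => by
        have := h0 i
        have := hm0 i
        positivity
      exact hE.mono 3 hn hn (fun i => rec_init (hm i)) fun i => rec_init (hm i)
  | succ n ih =>
    obtain ⟨W, hN, hE⟩ := ih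
    have hx0 : ∀ i, 0 ≤ (P.η i * P.μ i ^ 32) ^ n := fun i => by
      have := h0 i
      have := hm0 i
      positivity
    have hx1 : ∀ i, (P.η i * P.μ i ^ 32) ^ n ≤ 1 := fun i =>
      pow_le_one₀ (mul_pos (h0 i) (pow_pos (hm0 i) _)).le (hk i)
    have hu0 : ∀ i, 0 ≤ P.η i * P.μ i ^ 10 * (P.η i * P.μ i ^ 32) ^ n := fun i =>
      mul_nonneg (mul_pos (h0 i) (pow_pos (hm0 i) _)).le (hx0 i)
    have hmu : ∀ i, P.μ i * (P.η i * P.μ i ^ 10 * (P.η i * P.μ i ^ 32) ^ n) ≤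
        P.η i * P.μ i ^ 11 := fun i => by
      have := mul_le_of_le_one_right (mul_pos (h0 i) (pow_pos (hm0 i) 11)).le (hx1 i)
      linarith
    have hue : ∀ i, P.η i * P.μ i ^ 10 * (P.η i * P.μ i ^ 32) ^ n ≤ P.η i * P.μ i ^ 11 :=
      fun i => (le_mul_of_one_le_left (hu0 i) (hm i)).trans (hmu i)
    obtain ⟨U, hp, hU, hE1⟩ := D.phaseStep he hu0 hN hE
    have hs0 : ∀ i, 0 ≤ P.η i * P.μ i ^ 15 * (P.η i * P.μ i ^ 10 * (P.η i * P.μ i ^ 32) ^ n) :=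
      fun i => mul_nonneg (mul_pos (h0 i) (pow_pos (hm0 i) _)).le (hu0 i)
    have hE2 := hE1.mono 3 hs0 (fun i => mul_nonneg (h0 i).le (hs0 i))
      (fun i => rec_phase (h0 i) (hm i) (hu0 i) (hue i)) fun i => by
        have := mul_le_mul_of_nonneg_left (rec_phase (h0 i) (hm i) (hu0 i) (hue i)) (h0 i).le
        linarith
    have hN1 := hN.rec_add hp hU hmu
    obtain ⟨U', hp', hU', hE3⟩ := D.mainStep he hN1 hE2
    refine ⟨_, hN1.rec_add hp' hU' fun i => ?_, ?_⟩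
    · have := rec_small (h0 i) (hm i) (hk i) (hx0 i) (hx1 i) (by norm_num : 16 ≤ 32)
      linarith
    · have hn : ∀ i, 0 ≤ P.η i * (P.η i * P.μ i ^ 10 * (P.η i * P.μ i ^ 32) ^ (n + 1)) :=
        fun i => by
          have := h0 i
          have := hm0 i
          positivity
      have hf : ∀ i, _ ≤ 3 * (P.η i * (P.η i * P.μ i ^ 10 * (P.η i * P.μ i ^ 32) ^ (n + 1))) :=
        fun i => (rec_main (h0 i) (hm i) (hu0 i) (by
          have := rec_small (h0 i) (hm i) (hk i) (hx0 i) (hx1 i) (by norm_num : 14 ≤ 32)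
          linarith)).trans (le_of_eq (by ring))
      exact hE3.mono 3 hn hn hf hf

theorem PreDat.recur (hM : D.Mix) (hk : ∀ i, P.μ i ^ 32 ≤ P.lam i) (n : ℕ) :
    ∃ W : ι → E3 → E4, D.Near W (fun i => P.η i * P.μ i ^ 11) ∧
      D.Err W (fun i => (P.μ i ^ 32 / P.lam i) ^ n) (fun i => (P.μ i ^ 32 / P.lam i) ^ n) := by
  have e1 : ∀ i, P.μ i ^ 32 / P.lam i = P.η i * P.μ i ^ 32 := fun i => by
    rw [div_eq_inv_mul]
    rfl
  have hk' : ∀ i, P.η i * P.μ i ^ 32 ≤ 1 := fun i => by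
    rw [← e1]
    exact div_le_one_of_le₀ (hk i) (zero_le_one.trans (P.hlam i))
  obtain ⟨W, hN, hE⟩ := D.rec_aux hM hk' n
  simp only [e1]
  have hx0 : ∀ i, 0 ≤ (P.η i * P.μ i ^ 32) ^ n := fun i =>
    pow_nonneg (mul_nonneg (P.η_pos i).le (pow_nonneg (zero_le_one.trans (P.hμ i)) _)) n
  have hf : ∀ i, P.η i * (P.η i * P.μ i ^ 10 * (P.η i * P.μ i ^ 32) ^ n) ≤
      1 * (P.η i * P.μ i ^ 32) ^ n := fun i => by
    rw [← mul_assoc]
    exact mul_le_mul_of_nonneg_right (mul_le_one₀ (P.η_le_one i)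
      (mul_nonneg (P.η_pos i).le (pow_nonneg (zero_le_one.trans (P.hμ i)) _))
      (rec_k (P.η_pos i) (P.hμ i) (hk' i) (by norm_num))) (hx0 i)
  exact ⟨W, hN, hE.mono 1 hx0 hx0 hf hf⟩

end Vale.Agent.P205
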