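import Vale.Agent.P205.S.CoreH0
import Vale.Agent.P205.S.Ev
import Vale.Agent.P205.S.Rec

/-!
The H step. D from coreH0, W from D.recur, U = corr P W, e = ev P (D.eyy W) (y_eyy, size η;
ev_smooth, ev_bound). Metric: out_metric. Independence on the ball at p = pt z: fderiv_corr,
norm_mkA_sub with Near.yR, yGyF, Y.sup (size η tends to 0). By D2_corr_X the second derivative is
D2 F X + lam dθ dθ W0 + E with E = η dX dX W + dX dθ W + dθ dX W + lam dθ dθ (W - W0) ∈ Y 1 1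
(lam η = 1); the order zero bound of E and small_wt (a ≥ c on the ball) give
‖E‖ ≤ (κ / 2) (1 + lam D.a p). IndQ.perturb for the rescaled vector, IndQ.smul to scale back,
indQ_closure.
-/

open scoped Manifold ContDiff Topology RealInnerProductSpace
open Set Filter Metric Function

noncomputable section

namespace Vale.Agent.P205

variable {ι : Type} {P : Par ι} {F : E2 → E4} {a : E2 → ℝ}

theorem ch_sup {V : Type} [NormedAddCommGroup V] [NormedSpace ℝ V] (hΛ : ∀ i, P.Λ i = 1)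
    (hs0 : ∀ i, P.s0 i = 1) {l : Filter ι} (hl : Tendsto P.lam l atTop) {u : ι → E3 → V}
    (hu : Y P 1 P.η u) {δ : ℝ} (hδ : 0 < δ) : ∀ᶠ i in l, ∀ p ∈ Om, ‖u i p‖ ≤ δ := by
  obtain ⟨C, m, hC, h⟩ := hu.sup
  filter_upwards [hl.eventually_ge_atTop (C / δ)] with i hi p hp
  have h1 := h i p hp
  rw [hΛ, hs0, one_pow, mul_one, mul_one] at h1
  refine h1.trans ?_
  have hl0 : 0 < P.lam i := lt_of_lt_of_le one_pos (P.hlam i)
  rw [div_le_iff₀ hδ] at hi
  unfold Par.η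
  rw [← div_eq_mul_inv, div_le_iff₀ hl0]
  linarith

/-- The error in the second derivative. -/
theorem ch_E (hμ : ∀ i, P.μ i = 1) (D : PreDat P False) {W : ι → E3 → E4}
    (hN : D.Near W P.η) : Y P 1 1 (fun i p => (P.η i • dd (vX P.q) (dd (vX P.q) W) i p
        + dd (vX P.q) (dd vt W) i p + dd vt (dd (vX P.q) W) i p
        + P.lam i • dd vt (dd vt W) i p) - P.lam i • dd vt (dd vt D.W0) i p) := by
  have hW : Y P 1 1 W := hN.yW P.η_le_one
  have one : ∀ i, (0 : ℝ) ≤ (1 : ι → ℝ) i := fun _ => zero_le_one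
  have hl0 : ∀ i, 0 < P.lam i := fun i => lt_of_lt_of_le one_pos (P.hlam i)
  have d2 : ∀ x y : E3, Y P 1 1 (dd x (dd y W)) := fun x y =>
    ((hW.dd y).dd x).mono le_rfl 1 one (fun i => by simp [hμ])
  have a1 : Y P 1 1 (fun i p => P.η i • dd (vX P.q) (dd (vX P.q) W) i p) :=
    ((d2 _ _).csmul (fun i => (P.η_pos i).le)).mono le_rfl 1 one
      (fun i => by simpa using P.η_le_one i)
  have a4 : Y P 1 1 (fun i p => P.lam i • dd vt (dd vt fun i p => W i p - D.W0 i p) i p) :=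
    (((hN.2.dd vt).dd vt).csmul (fun i => (hl0 i).le)).mono le_rfl 1 one (fun i => by
      simp [hμ, Par.η, mul_inv_cancel₀ (hl0 i).ne'])
  refine (((a1.add (d2 (vX P.q) vt)).add (d2 vt (vX P.q))).add a4).congr fun i p hp => ?_
  have e1 := dd_congr (dd_sub hW.so D.yW.so vt) vt i p hp
  have e2 := dd_sub (hW.so.dd vt) (D.yW.so.dd vt) vt i p hp
  simp only [e1, e2, smul_sub]
  abel

theorem coreH (hΛ : ∀ i, P.Λ i = 1) (hμ : ∀ i, P.μ i = 1) (hs0 : ∀ i, P.s0 i = 1)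
    {l : Filter ι} (hl : Tendsto P.lam l atTop) (hF : ContDiff ℝ ∞ F) (ha : ContDiff ℝ ∞ a)
    (hpos : ∀ z ∈ closedBall (0 : E2) 1, 0 < a z)
    (hI : ∀ z ∈ closedBall (0 : E2) 1, Ind (fderiv ℝ F z) (D2 F z (ex + P.q • ey))) (n : ℕ) :
    ∃ (U : ι → E2 → E4) (e : ι → E2 → ℝ),
      (∀ i, ContDiff ℝ ∞ (U i) ∧ support (U i) ⊆ ball 0 1) ∧
      (∀ i, ContDiff ℝ ∞ (e i) ∧ support (e i) ⊆ ball 0 1) ∧
      (∀ j : ℕ, ∃ C : ℝ, ∀ i z, ‖iteratedFDeriv ℝ j (U i) z‖ ≤ C * P.lam i ^ j ∧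
        ‖iteratedFDeriv ℝ j (e i) z‖ ≤ C * P.lam i ^ j * (P.lam i)⁻¹) ∧
      (∃ C : ℝ, ∀ i z v,
        |‖fderiv ℝ (F + U i) z v‖ ^ 2 - ‖fderiv ℝ F z v‖ ^ 2 - (wt z * a z) ^ 2 * v 0 ^ 2
          - e i z * (v 1 - P.q * v 0) ^ 2| ≤ C * (P.lam i)⁻¹ ^ n * ‖v‖ ^ 2) ∧
      (∃ κ : ℝ, 0 < κ ∧ ∀ᶠ i in l, ∀ z ∈ closedBall (0 : E2) 1,
        IndQ κ (fderiv ℝ (F + U i) z) (D2 (F + U i) z (ex + P.q • ey))) := by
  obtain ⟨D, hM, hX, hy, hA, κ, hκ, hG⟩ := coreH0 hΛ hμ hs0 hl hF ha hpos hI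
  obtain ⟨W, hN0, hE⟩ := D.recur hM (fun i => by rw [hμ, one_pow]; exact P.hlam i) n
  have hN : D.Near W P.η := ⟨hN0.1, hN0.2.mono le_rfl 1 (fun i => (P.η_pos i).le)
    (fun i => by simp [hμ])⟩
  have hW : Y P 1 1 W := hN.yW P.η_le_one
  have hF' : ∀ _ : ι, ContDiff ℝ ∞ F := fun _ => hF
  have hη0 : ∀ i, 0 ≤ P.η i := fun i => (P.η_pos i).le
  have ye : Y P 1 P.η (D.eyy W) := (D.y_eyy hW).mono le_rfl 1 hη0 (fun i => by simp [hμ])
  refine ⟨corr P W, ev P (D.eyy W), fun i => ⟨ev_smooth (corr_y hW) i, ev_support _ i⟩,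
    fun i => ⟨ev_smooth ye i, ev_support _ i⟩, fun j => ?_, ?_, ?_⟩
  · obtain ⟨C, m, hC, h⟩ := ev_bound (corr_y hW) j
    obtain ⟨C', m', hC', h'⟩ := ev_bound ye j
    refine ⟨max C C', fun i z => ⟨?_, ?_⟩⟩
    · have h1 := h i z
      have : 0 ≤ P.lam i := zero_le_one.trans (P.hlam i)
      simp only [hΛ, hμ, hs0, one_pow, mul_one, Pi.one_apply] at h1
      exact h1.trans (by gcongr; exact le_max_left _ _)
    · have h1 := h' i z
      have : 0 ≤ P.lam i := zero_le_one.trans (P.hlam i)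
      simp only [hΛ, hμ, hs0, one_pow, mul_one] at h1
      refine h1.trans ?_
      calc C' * P.η i * P.lam i ^ j = C' * P.lam i ^ j * (P.lam i)⁻¹ := by unfold Par.η; ring
        _ ≤ _ := by gcongr; exact le_max_right _ _
  · obtain ⟨C, m, hC, h⟩ := out_metric (F := fun _ => F) (a := fun _ => a) D hF' hX hy hA hW
      hE.1 hE.2.1
    refine ⟨C, fun i z v => ?_⟩
    have h1 := h i z v
    simpa only [hΛ, hμ, hs0, one_pow, mul_one, one_mul, one_div] using h1
  · obtain ⟨c, hc, hca⟩ := ch_lower ha.continuous hpos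
    have yR : Y P 1 P.η (fun i p => D.GX W i p - D.T i p) :=
      (hN.yR (fun i => ⟨le_rfl, P.η_le_one i⟩)).mono le_rfl 1 hη0 (fun i => by simp [hμ])
    have yG : Y P 1 P.η (fun i p => D.Gy W i p - D.Fy i p) :=
      (D.yGyF hW).mono le_rfl 1 hη0 (fun i => by simp [hμ])
    have hq : 0 < 1 + |P.q| := by positivity
    obtain ⟨CE, mE, hCE, hEb⟩ := (ch_E hμ D hN).2.2 0
    refine ⟨κ / 2, by positivity, ?_⟩
    filter_upwards [hG, ch_sup hΛ hs0 hl yR (δ := κ / 4) (by positivity),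
      ch_sup hΛ hs0 hl yG (δ := κ / 4 / (1 + |P.q|)) (by positivity),
      hl.eventually (small_wt CE mE hc (δ := κ / 2) (by positivity))] with i g1 g2 g3 g4
    have hU : ContDiff ℝ ∞ (F + corr P W i) := hF.add (ev_smooth (corr_y hW) i)
    refine indQ_closure (hU.fderiv_right (m := ∞) le_rfl).continuous
      (ch_cont_D2 hU (ex + P.q • ey)) fun z hz => ?_
    have hp := pt_mem (P := P) i hz
    set p := P.pt i z with hpd
    have hl0 : 0 ≤ P.lam i := zero_le_one.trans (P.hlam i)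
    have hwt : 0 ≤ wt z := expNegInvGlue.nonneg _
    have hDa : D.a i p = wt z * a z := by
      rw [hA]; simp only [Par.w, hs0, one_mul]; rfl
    have hca' : c * wt z ≤ D.a i p := by
      rw [hDa, mul_comm]
      exact mul_le_mul_of_nonneg_left (hca z (ball_subset_closedBall hz)) hwt
    have hS : 1 ≤ 1 + P.lam i * D.a i p :=
      le_add_of_nonneg_right (mul_nonneg hl0 ((mul_nonneg hc.le hwt).trans hca'))
    have hS0 : 0 < 1 + P.lam i * D.a i p := lt_of_lt_of_le one_pos hS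
    have b1 := hEb i p hp
    rw [norm_iteratedFDeriv_zero] at b1
    have b2 : CE * P.tau i p ^ mE * P.w i p ^ (1 : ℤ) * (1 : ι → ℝ) i * P.μ i ^ 0 =
        CE * ((1 - ‖z‖ ^ 2)⁻¹) ^ mE * wt z := by
      simp only [Par.tau, Par.w, hΛ, hs0, one_mul, zpow_one, Pi.one_apply, pow_zero, mul_one,
        one_div]
      rfl
    rw [b2] at b1
    have b3 := b1.trans ((g4 z hz).trans (mul_le_mul_of_nonneg_left
      (add_le_add_right (mul_le_mul_of_nonneg_left hca' hl0) 1) (by positivity)))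
    have k1 : IndQ (κ - κ / 2) (fderiv ℝ (F + corr P W i) z)
        ((1 + P.lam i * D.a i p)⁻¹ • D2 (F + corr P W i) z (ex + P.q • ey)) := by
      refine (g1 p hp).perturb ?_ ?_
      · rw [fderiv_corr (F := fun _ => F) D hF' hX hy hW i hz]
        refine (norm_mkA_sub _ _ _ _ _).trans ?_
        have c1 := g2 p hp
        have c2 := mul_le_mul_of_nonneg_left (g3 p hp) hq.le
        rw [mul_div_cancel₀ _ hq.ne'] at c2
        linarith
      · rw [D2_corr_X (F := fun _ => F) hF' hW i hz, ← smul_sub, norm_smul, Real.norm_eq_abs,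
          abs_of_pos (inv_pos.2 hS0), inv_mul_le_iff₀ hS0, mul_comm]
        refine le_trans (le_of_eq ?_) b3
        congr 1
        show _ = _
        simp only [hpd, Par.pt]
        abel
    have k2 := k1.smul (by linarith) hS
    rw [smul_inv_smul₀ hS0.ne'] at k2
    exact k2.mono (by linarith)

end Vale.Agent.P205
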