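import Vale.Agent.P205.S.CoreK
import Vale.Agent.P205.S.CoreH

/-!
Part S (oscillatory steps on the unit disc). Statements FROZEN. See notes/P205.md.
stepK: k = 32, coreK with P = ⟨Λ, μ, lam, s0, 0, ..⟩ (1 ≤ μ^32 ≤ lam). bigK, bigH: ι = ℝ,
P = ⟨1, 1, fun x => max 1 x, 1, q, ..⟩, and max 1 x = x eventually. bigK: pb_const, lower bounds by
compactness (exists_indQ_compact, IsCompact.exists_isMinOn), κ - C / lam ≥ κ / 2, indQ_closure.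
-/

open scoped Manifold ContDiff Topology RealInnerProductSpace
open Set Filter Metric Function

noncomputable section

namespace Vale.Agent.P205

/-- Parameters of a big step. -/
def bigPar (q : ℝ) : Par ℝ :=
  ⟨fun _ => 1, fun _ => 1, fun x => max 1 x, fun _ => 1, q, fun _ => le_rfl, fun _ => le_rfl,
    fun _ => le_max_left _ _, fun _ => one_pos, fun _ => le_rfl⟩

theorem bigPar_lam (q : ℝ) : ∀ᶠ x : ℝ in atTop, (bigPar q).lam x = x :=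
  (eventually_ge_atTop 1).mono fun _ hx => max_eq_right hx

theorem stepK : ∃ k : ℕ, ∀ (ι : Type) (Λ μ lam s0 : ι → ℝ) (F : ι → E2 → E4) (a : ι → E2 → ℝ),
    (∀ i, 1 ≤ Λ i ∧ 1 ≤ μ i ∧ μ i ^ k ≤ lam i ∧ 0 < s0 i ∧ s0 i ≤ 1) →
    (∀ i, ContDiff ℝ ∞ (F i) ∧ ContDiff ℝ ∞ (a i)) →
    PB Λ μ (fun i => fderiv ℝ (F i)) → PB Λ μ (fun i => fderiv ℝ (fderiv ℝ (F i))) →
    PB Λ μ a →
    (∃ (c : ℝ) (m : ℕ), 0 < c ∧ ∀ i, ∀ z ∈ ball (0 : E2) 1, c / Λ i ^ m ≤ a i z ∧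
      IndQ (c / Λ i ^ m) (fderiv ℝ (F i) z) (D2 (F i) z ey)) →
    ∀ n : ℕ, ∃ U : ι → E2 → E4,
      (∀ i, ContDiff ℝ ∞ (U i) ∧ support (U i) ⊆ ball 0 1) ∧
      (∀ j : ℕ, ∃ (C : ℝ) (m : ℕ), ∀ i z,
        ‖iteratedFDeriv ℝ j (U i) z‖ ≤ C * Λ i ^ m * s0 i * (lam i * μ i) ^ j) ∧
      (∃ (C : ℝ) (m : ℕ), ∀ i z v,
        |‖fderiv ℝ (F i + U i) z v‖ ^ 2 - ‖fderiv ℝ (F i) z v‖ ^ 2
          - (s0 i * wt z * a i z) ^ 2 * v 0 ^ 2|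
          ≤ C * Λ i ^ m * (μ i ^ k / lam i) ^ n * ‖v‖ ^ 2) := by
  refine ⟨32, fun ι Λ μ lam s0 F a hP hs h1 h2 ha hl n => ?_⟩
  let P : Par ι := ⟨Λ, μ, lam, s0, 0, fun i => (hP i).1, fun i => (hP i).2.1,
    fun i => (one_le_pow₀ (hP i).2.1).trans (hP i).2.2.1, fun i => (hP i).2.2.2.1,
    fun i => (hP i).2.2.2.2⟩
  obtain ⟨U, u1, u2, u3, -⟩ := coreK (P := P) rfl (fun i => (hP i).2.2.1) hs h1 h2 ha hl n
  exact ⟨U, u1, u2, u3⟩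

theorem bigK {F : E2 → E4} {a : E2 → ℝ} (hF : ContDiff ℝ ∞ F) (ha : ContDiff ℝ ∞ a)
    (hpos : ∀ z ∈ closedBall (0 : E2) 1, 0 < a z)
    (hI : ∀ z ∈ closedBall (0 : E2) 1, Ind (fderiv ℝ F z) (D2 F z ey)) (n : ℕ) :
    ∃ U : ℝ → E2 → E4,
      (∀ lam, ContDiff ℝ ∞ (U lam) ∧ support (U lam) ⊆ ball 0 1) ∧
      (∀ j : ℕ, ∃ C : ℝ, ∀ᶠ lam in atTop, ∀ z,
        ‖iteratedFDeriv ℝ j (U lam) z‖ ≤ C * lam ^ j) ∧
      (∃ C : ℝ, ∀ᶠ lam in atTop, ∀ z v,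
        |‖fderiv ℝ (F + U lam) z v‖ ^ 2 - ‖fderiv ℝ F z v‖ ^ 2 - (wt z * a z) ^ 2 * v 0 ^ 2|
          ≤ C * lam⁻¹ ^ n * ‖v‖ ^ 2) ∧
      (∃ κ : ℝ, 0 < κ ∧ ∀ᶠ lam in atTop, ∀ z ∈ closedBall (0 : E2) 1,
        IndQ κ (fderiv ℝ (F + U lam) z) (D2 (F + U lam) z ey)) := by
  let P := bigPar 0
  have hF1 : ContDiff ℝ ∞ (fderiv ℝ F) := hF.fderiv_right (m := ∞) le_rfl
  have hF2 : ContDiff ℝ ∞ (fderiv ℝ (fderiv ℝ F)) := hF1.fderiv_right (m := ∞) le_rfl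
  obtain ⟨κ0, hκ0, hQ⟩ := exists_indQ_compact (isCompact_closedBall (0 : E2) 1)
    hF1.continuous.continuousOn (ch_cont_D2 hF ey).continuousOn hI
  obtain ⟨c, hc, hca⟩ := ch_lower ha.continuous hpos
  have hΛ : ∀ i, P.Λ i = 1 := fun _ => rfl
  have hμ : ∀ i, P.μ i = 1 := fun _ => rfl
  have hs0 : ∀ i, P.s0 i = 1 := fun _ => rfl
  obtain ⟨U, u1, u2, u3, u4⟩ := coreK (P := P) (F := fun _ => F) (a := fun _ => a) rfl
    (fun i => by rw [hμ, one_pow]; exact P.hlam i) (fun _ => ⟨hF, ha⟩) (ch_pb hΛ hμ hF1)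
    (ch_pb hΛ hμ hF2) (ch_pb hΛ hμ ha)
    ⟨min c κ0, 0, lt_min hc hκ0, fun i z hz => by
      rw [pow_zero, div_one]
      exact ⟨(min_le_left _ _).trans (hca z (ball_subset_closedBall hz)),
        (hQ z (ball_subset_closedBall hz)).mono (min_le_right _ _)⟩⟩ n
  refine ⟨U, u1, fun j => ?_, ?_, ?_⟩
  · obtain ⟨C, m, h⟩ := u2 j
    refine ⟨C, (bigPar_lam 0).mono fun x hx z => ?_⟩
    have h1 := h x z
    simpa only [hΛ, hμ, hs0, one_pow, mul_one, P, hx] using h1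
  · obtain ⟨C, m, h⟩ := u3
    refine ⟨C, (bigPar_lam 0).mono fun x hx z v => ?_⟩
    have h1 := h x z v
    simpa only [hΛ, hμ, hs0, one_pow, mul_one, one_mul, one_div, P, hx] using h1
  · obtain ⟨C, m, h⟩ := u4
    refine ⟨κ0 / 2, by positivity, ?_⟩
    filter_upwards [bigPar_lam 0, eventually_ge_atTop (C / (κ0 / 2)), eventually_gt_atTop 0]
      with x hx h1 h0
    have hU : ContDiff ℝ ∞ (F + U x) := hF.add (u1 x).1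
    refine indQ_closure (hU.fderiv_right (m := ∞) le_rfl).continuous (ch_cont_D2 hU ey)
      fun z hz => (h x z hz κ0 (hQ z (ball_subset_closedBall hz))).mono ?_
    simp only [hΛ, hμ, one_pow, mul_one, P, hx]
    rw [div_le_iff₀ (by positivity)] at h1
    have : C / x ≤ κ0 / 2 := by rw [div_le_iff₀ h0]; linarith
    linarith

theorem bigH {F : E2 → E4} {a : E2 → ℝ} (q : ℝ) (hF : ContDiff ℝ ∞ F) (ha : ContDiff ℝ ∞ a)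
    (hpos : ∀ z ∈ closedBall (0 : E2) 1, 0 < a z)
    (hI : ∀ z ∈ closedBall (0 : E2) 1, Ind (fderiv ℝ F z) (D2 F z (ex + q • ey))) (n : ℕ) :
    ∃ (U : ℝ → E2 → E4) (e : ℝ → E2 → ℝ),
      (∀ lam, ContDiff ℝ ∞ (U lam) ∧ support (U lam) ⊆ ball 0 1) ∧
      (∀ lam, ContDiff ℝ ∞ (e lam) ∧ support (e lam) ⊆ ball 0 1) ∧
      (∀ j : ℕ, ∃ C : ℝ, ∀ᶠ lam in atTop, ∀ z,
        ‖iteratedFDeriv ℝ j (U lam) z‖ ≤ C * lam ^ j ∧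
        ‖iteratedFDeriv ℝ j (e lam) z‖ ≤ C * lam ^ j * lam⁻¹) ∧
      (∃ C : ℝ, ∀ᶠ lam in atTop, ∀ z v,
        |‖fderiv ℝ (F + U lam) z v‖ ^ 2 - ‖fderiv ℝ F z v‖ ^ 2 - (wt z * a z) ^ 2 * v 0 ^ 2
          - e lam z * (v 1 - q * v 0) ^ 2| ≤ C * lam⁻¹ ^ n * ‖v‖ ^ 2) ∧
      (∃ κ : ℝ, 0 < κ ∧ ∀ᶠ lam in atTop, ∀ z ∈ closedBall (0 : E2) 1,
        IndQ κ (fderiv ℝ (F + U lam) z) (D2 (F + U lam) z (ex + q • ey))) := by
  have hl : Tendsto (bigPar q).lam atTop atTop :=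
    tendsto_id.congr' ((bigPar_lam q).mono fun x hx => hx.symm)
  obtain ⟨U, e, u1, u2, u3, u4, u5⟩ := coreH (P := bigPar q) (fun _ => rfl) (fun _ => rfl)
    (fun _ => rfl) hl hF ha hpos hI n
  refine ⟨U, e, u1, u2, fun j => ?_, ?_, u5⟩
  · obtain ⟨C, h⟩ := u3 j
    exact ⟨C, (bigPar_lam q).mono fun x hx z => by simpa only [hx] using h x z⟩
  · obtain ⟨C, h⟩ := u4
    exact ⟨C, (bigPar_lam q).mono fun x hx z v => by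
      have h1 := h x z v; rw [hx] at h1; exact h1⟩

end Vale.Agent.P205
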