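import Vale.Agent.P205.S.GeoB
import Vale.Agent.P205.S.Frms

/-!
The H step keeps the direction X good.
indQ_of_gs: N = x T + y Fy + t n (mkA_apply). (iii) gives c |t| ≤ ‖N‖ (scale by t), then (ii) gives
c |x| ≤ ‖N‖ + B |t|, then (i) gives c |y| ≤ ‖N‖ + B (|x| + |t|); ‖ξ‖ ≤ (1 + |q|) |x| + |y|.
geoH: let b = cross e0 e1 e2 (span4). Fy = φ b with |φ| ≥ κ0 (IndQ at ξ = ey). p0 = ⟪FX, e0⟫ ≥
κ0 (FX - p0 e0 is a multiple of Fy; IndQ at ξ = X + y ey, ‖ξ‖ ≥ 1), ν = ⟪C, e1⟫ ≥ κ0 (t = 1).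
Apply indQ_of_gs: project on e0, e1, e2 (‖v‖^2 ≥ sum of the three squared components), (ii) gives
r ≥ p0, (iii) is geoH_core (deriv_lw), and the third vector is bounded by deriv_upper, r s ≤ 2 a.
-/

open scoped Manifold ContDiff Topology RealInnerProductSpace
open Set Filter Metric Function

noncomputable section

namespace Vale.Agent.P205

theorem indQ_of_gs (q : ℝ) {c B : ℝ} (hc : 0 < c) : ∃ κ : ℝ, 0 < κ ∧ ∀ T Fy n : E4,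
    ‖T‖ ≤ B → ‖n‖ ≤ B → c ≤ ‖Fy‖ → (∀ y : ℝ, c ≤ ‖T + y • Fy‖) →
    (∀ x y : ℝ, c ≤ ‖n + x • T + y • Fy‖) → IndQ κ (mkA q T Fy) n := by
  set b := |B| / c with hb
  have hb0 : 0 ≤ b := by positivity
  set K := ((1 + |q|) * (1 + b) + (1 + b * (1 + b) + b) + 1) / c with hK
  have hK0 : 0 < K := by positivity
  refine ⟨K⁻¹, inv_pos.2 hK0, fun T Fy n hT hn h1 h2 h3 ξ t => ?_⟩
  rw [mkA_apply, inv_mul_le_iff₀ hK0]
  obtain ⟨x, hx⟩ : ∃ x, x = ξ 0 := ⟨_, rfl⟩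
  obtain ⟨y, hy⟩ : ∃ y, y = ξ 1 - q * ξ 0 := ⟨_, rfl⟩
  rw [← hy, ← hx]
  obtain ⟨N, hN⟩ : ∃ N, N = ‖x • T + y • Fy + t • n‖ := ⟨_, rfl⟩
  rw [← hN]
  have hN0 : 0 ≤ N := hN ▸ norm_nonneg _
  have hT' : ‖T‖ ≤ |B| := hT.trans (le_abs_self _)
  have hn' : ‖n‖ ≤ |B| := hn.trans (le_abs_self _)
  have a1 : c * |t| ≤ N := by
    rcases eq_or_ne t 0 with rfl | ht
    · simpa using hN0
    · have e : x • T + y • Fy + t • n = t • (n + (x / t) • T + (y / t) • Fy) := by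
        simp only [smul_add, smul_smul, mul_div_cancel₀ _ ht]; abel
      rw [hN, e, norm_smul, Real.norm_eq_abs, mul_comm]
      exact mul_le_mul_of_nonneg_left (h3 _ _) (abs_nonneg _)
  have a2 : c * |x| ≤ N + |t| * |B| := by
    have f : ‖x • T + y • Fy‖ ≤ N + |t| * |B| := by
      have : x • T + y • Fy = (x • T + y • Fy + t • n) - t • n := by abel
      rw [this, hN]
      refine (norm_sub_le _ _).trans ?_
      rw [norm_smul, Real.norm_eq_abs]; gcongr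
    refine le_trans ?_ f
    rcases eq_or_ne x 0 with rfl | hx0
    · simp
    · have e : x • T + y • Fy = x • (T + (y / x) • Fy) := by
        simp only [smul_add, smul_smul, mul_div_cancel₀ _ hx0]
      rw [e, norm_smul, Real.norm_eq_abs, mul_comm]
      exact mul_le_mul_of_nonneg_left (h2 _) (abs_nonneg _)
  have a3 : c * |y| ≤ N + |x| * |B| + |t| * |B| := by
    have : y • Fy = (x • T + y • Fy + t • n) - x • T - t • n := by abel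
    have f : ‖y • Fy‖ ≤ N + |x| * |B| + |t| * |B| := by
      rw [this, hN]
      refine (norm_sub_le _ _).trans (add_le_add ((norm_sub_le _ _).trans ?_) ?_)
      · rw [norm_smul, Real.norm_eq_abs]; gcongr
      · rw [norm_smul, Real.norm_eq_abs]; gcongr
    refine le_trans ?_ f
    rw [norm_smul, Real.norm_eq_abs, mul_comm]
    exact mul_le_mul_of_nonneg_left h1 (abs_nonneg _)
  have a4 : ‖ξ‖ ≤ (1 + |q|) * |x| + |y| := by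
    have e : ξ = x • ex + (y + q * x) • ey := by
      rw [hy, hx, sub_add_cancel]; exact eq_ex_ey ξ
    have n1 : ‖ex‖ = 1 := by simp [ex]
    have n2 : ‖ey‖ = 1 := by simp [ey]
    rw [e]
    refine (norm_add_le _ _).trans ?_
    rw [norm_smul, norm_smul, n1, n2, Real.norm_eq_abs, Real.norm_eq_abs]
    have := abs_add_le y (q * x)
    rw [abs_mul] at this
    linarith
  obtain ⟨M, hM⟩ : ∃ M, M = N / c := ⟨_, rfl⟩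
  have hM0 : 0 ≤ M := hM ▸ div_nonneg hN0 hc.le
  have eB : |B| = b * c := by rw [hb]; field_simp
  have eN : N = M * c := by rw [hM]; field_simp
  have t1 : |t| ≤ M := le_of_mul_le_mul_left (by rw [eN] at a1; linarith) hc
  have t2 : |x| ≤ (1 + b) * M := le_of_mul_le_mul_left (a := c) (by
    have := mul_le_mul_of_nonneg_right t1 (abs_nonneg B)
    rw [eB] at this a2; rw [eN] at a2; linarith) hc
  have t3 : |y| ≤ (1 + b * (1 + b) + b) * M := le_of_mul_le_mul_left (a := c) (by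
    have f1 := mul_le_mul_of_nonneg_right t1 (abs_nonneg B)
    have f2 := mul_le_mul_of_nonneg_right t2 (abs_nonneg B)
    rw [eB] at f1 f2 a3; rw [eN] at a3; linarith) hc
  have t4 := mul_le_mul_of_nonneg_left t2 (by positivity : 0 ≤ 1 + |q|)
  have e : K * N = ((1 + |q|) * (1 + b) + (1 + b * (1 + b) + b) + 1) * M := by
    rw [hK, hM]; field_simp
  rw [e]; linarith

theorem gc_bessel {e0 e1 e2 : E4}
    (h : ‖e0‖ = 1 ∧ ‖e1‖ = 1 ∧ ‖e2‖ = 1 ∧ ⟪e0, e1⟫ = 0 ∧ ⟪e0, e2⟫ = 0 ∧ ⟪e1, e2⟫ = 0) (v : E4) :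
    ⟪v, e0⟫ ^ 2 + ⟪v, e1⟫ ^ 2 + ⟪v, e2⟫ ^ 2 ≤ ‖v‖ ^ 2 := by
  obtain ⟨n0, n1, n2, o1, o2, o3⟩ := h
  have h0 := sq_nonneg ‖v - (⟪v, e0⟫ • e0 + ⟪v, e1⟫ • e1 + ⟪v, e2⟫ • e2)‖
  rw [← real_inner_self_eq_norm_sq] at h0
  simp only [inner_sub_left, inner_sub_right, inner_add_left, inner_add_right,
    real_inner_smul_left, real_inner_smul_right, real_inner_self_eq_norm_sq, n0, n1, n2, o1, o2, o3,
    real_inner_comm e0 e1, real_inner_comm e0 e2, real_inner_comm e1 e2, real_inner_comm v e0,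
    real_inner_comm v e1, real_inner_comm v e2, norm_smul, Real.norm_eq_abs, mul_one, sq_abs] at h0
  nlinarith

theorem gc_comb {e0 e1 e2 : E4}
    (h : ‖e0‖ = 1 ∧ ‖e1‖ = 1 ∧ ‖e2‖ = 1 ∧ ⟪e0, e1⟫ = 0 ∧ ⟪e0, e2⟫ = 0 ∧ ⟪e1, e2⟫ = 0)
    (x y z : ℝ) : ⟪x • e0 + y • e1 + z • e2, e0⟫ = x ∧ ⟪x • e0 + y • e1 + z • e2, e1⟫ = y ∧
      ⟪x • e0 + y • e1 + z • e2, e2⟫ = z ∧ ‖x • e0 + y • e1 + z • e2‖ ≤ |x| + |y| + |z| := by
  obtain ⟨n0, n1, n2, o1, o2, o3⟩ := h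
  refine ⟨?_, ?_, ?_, ?_⟩
  · simp [inner_add_left, real_inner_smul_left, n0, real_inner_comm e0 e1 ▸ o1,
      real_inner_comm e0 e2 ▸ o2]
  · simp [inner_add_left, real_inner_smul_left, n1, o1, real_inner_comm e1 e2 ▸ o3]
  · simp [inner_add_left, real_inner_smul_left, n2, o2, o3]
  · refine norm_add₃_le.trans ?_
    simp [norm_smul, n0, n1, n2]

/-- A vector orthogonal to the frame is a multiple of the nonzero vector Fy. -/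
theorem gc_mult {e0 e1 e2 Fy v : E4}
    (h : ‖e0‖ = 1 ∧ ‖e1‖ = 1 ∧ ‖e2‖ = 1 ∧ ⟪e0, e1⟫ = 0 ∧ ⟪e0, e2⟫ = 0 ∧ ⟪e1, e2⟫ = 0)
    (hy : ⟪Fy, e0⟫ = 0 ∧ ⟪Fy, e1⟫ = 0 ∧ ⟪Fy, e2⟫ = 0) (h0 : Fy ≠ 0)
    (hv : ⟪v, e0⟫ = 0 ∧ ⟪v, e1⟫ = 0 ∧ ⟪v, e2⟫ = 0) : ∃ β : ℝ, v = β • Fy := by
  obtain ⟨n0, n1, n2, o1, o2, o3⟩ := h
  have hb := norm_cross_of_orthonormal n0 n1 n2 o1 o2 o3
  have sp := span4 n0 n1 n2 hb o1 o2 (inner_cross_1 _ _ _) o3 (inner_cross_2 _ _ _)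
    (inner_cross_3 _ _ _)
  have e1' := sp Fy
  have e2' := sp v
  rw [real_inner_comm, hy.1, real_inner_comm, hy.2.1, real_inner_comm, hy.2.2] at e1'
  rw [real_inner_comm, hv.1, real_inner_comm, hv.2.1, real_inner_comm, hv.2.2] at e2'
  simp only [zero_smul, zero_add] at e1' e2'
  have hφ : ⟪cross e0 e1 e2, Fy⟫ ≠ 0 := fun h => h0 (by rw [e1', h, zero_smul])
  refine ⟨⟪cross e0 e1 e2, v⟫ / ⟪cross e0 e1 e2, Fy⟫, ?_⟩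
  conv_rhs => rw [e1', smul_smul]
  rw [real_inner_smul_right, real_inner_self_eq_norm_sq, hb, one_pow, mul_one,
    div_mul_cancel₀ _ hφ]
  exact e2'

/-- Reading IndQ in the coordinates (x, y). -/
theorem gc_test {κ q : ℝ} {T Fy C : E4} (h : IndQ κ (mkA q T Fy) C) (hκ : 0 ≤ κ) (x y t : ℝ) :
    κ * |t| ≤ ‖x • T + y • Fy + t • C‖ ∧ κ * |x| ≤ ‖x • T + y • Fy + t • C‖ := by
  have k := h (x • ex + (y + q * x) • ey) t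
  have c0 : (x • ex + (y + q * x) • ey) 0 = x := by simp [ex, ey]
  have c1 : (x • ex + (y + q * x) • ey) 1 = y + q * x := by simp [ex, ey]
  rw [mkA_apply, c0, c1, add_sub_cancel_right] at k
  have n0 : |x| ≤ ‖x • ex + (y + q * x) • ey‖ := by
    simpa [c0] using PiLp.norm_apply_le (x • ex + (y + q * x) • ey) 0
  constructor
  · exact le_trans (mul_le_mul_of_nonneg_left (le_add_of_nonneg_left (norm_nonneg _)) hκ) k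
  · exact le_trans (mul_le_mul_of_nonneg_left (n0.trans (le_add_of_nonneg_right (abs_nonneg _)))
      hκ) k

theorem gc_fin {q κ κ0 κ1 B C0 G lam a p0 r s u0 u1 u2 d0 d1 d2 l1 l2 : ℝ}
    {FX Fy C e0 e1 e2 : E4} (h0 : 0 < κ0) (hκ1 : 0 < κ1) (hB : 0 < B) (hC0 : 0 < C0) (hG0 : 0 ≤ G)
    (hgs : ∀ T Fy n : E4, ‖T‖ ≤ 8 * B + 2 * (10 * C0 + 2 * G) →
      ‖n‖ ≤ 8 * B + 2 * (10 * C0 + 2 * G) → min κ0 κ1 ≤ ‖Fy‖ →
      (∀ y : ℝ, min κ0 κ1 ≤ ‖T + y • Fy‖) →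
      (∀ x y : ℝ, min κ0 κ1 ≤ ‖n + x • T + y • Fy‖) → IndQ κ (mkA q T Fy) n)
    (hl0 : 0 ≤ lam) (b1 : ‖FX‖ ≤ B) (b2 : ‖C‖ ≤ B) (a0 : 0 ≤ a)
    (ho : ‖e0‖ = 1 ∧ ‖e1‖ = 1 ∧ ‖e2‖ = 1 ∧ ⟪e0, e1⟫ = 0 ∧ ⟪e0, e2⟫ = 0 ∧ ⟪e1, e2⟫ = 0)
    (hy : ⟪Fy, e0⟫ = 0 ∧ ⟪Fy, e1⟫ = 0 ∧ ⟪Fy, e2⟫ = 0) (hp0 : p0 = ⟪FX, e0⟫) (x0 : 0 < p0)
    (x1 : ⟪FX, e1⟫ = 0) (x2 : ⟪FX, e2⟫ = 0) (c2 : ⟪C, e2⟫ = 0) (hFy : κ0 ≤ ‖Fy‖) (hp1 : κ0 ≤ p0)
    (hp2 : p0 ≤ B) (hr0 : 0 < r) (hr1 : p0 ≤ r) (hr2 : r ≤ 2 * B) (s1 : 0 ≤ s) (s3 : r * s ≤ 2 * a)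
    (k0 : |d0| ≤ C0 * s ^ 2) (k1 : |d1 - s * l1| ≤ C0 * s ^ 3) (k2 : |d2 - s * l2| ≤ C0 * s ^ 3)
    (k6 : s ≤ 2) (G1 : |l1| ≤ G) (G2 : |l2| ≤ G) (sq1 : u0 ^ 2 + u1 ^ 2 + u2 ^ 2 = 1)
    (hc : ∀ ξ, (κ1 * (1 + lam * a)) ^ 2 ≤ (⟪C, e0⟫ + lam * r * d0 + ξ * u0) ^ 2 +
      (⟪C, e1⟫ + lam * r * d1 + ξ * u1) ^ 2 + (lam * r * d2 + ξ * u2) ^ 2) :
    IndQ κ (mkA q (FX + (r • (u0 • e0 + u1 • e1 + u2 • e2) - p0 • e0)) Fy)
      ((1 + lam * a)⁻¹ • (C + lam • r • (d0 • e0 + d1 • e1 + d2 • e2))) := by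
  have hS : 0 < 1 + lam * a := by positivity
  obtain ⟨U0, U1, U2, U3⟩ := gc_comb ho u0 u1 u2
  obtain ⟨D0, D1, D2', D3⟩ := gc_comb ho d0 d1 d2
  obtain ⟨E0, E1, E2', -⟩ := gc_comb ho 1 0 0
  simp only [one_smul, zero_smul, add_zero] at E0 E1 E2'
  have m1 := min_le_left κ0 κ1
  have m2 := min_le_right κ0 κ1
  have m0 := (lt_min h0 hκ1).le
  refine hgs _ _ _ ?_ ?_ (m1.trans hFy) (fun y => ?_) (fun x y => ?_)
  · have z0 := sq_nonneg u0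
    have z1 := sq_nonneg u1
    have z2 := sq_nonneg u2
    have q0 : |u0| ≤ 1 := abs_le_of_sq_le_sq (by linarith) zero_le_one
    have q1 : |u1| ≤ 1 := abs_le_of_sq_le_sq (by linarith) zero_le_one
    have q2 : |u2| ≤ 1 := abs_le_of_sq_le_sq (by linarith) zero_le_one
    refine (norm_add_le _ _).trans ((add_le_add b1 (norm_sub_le _ _)).trans ?_)
    rw [norm_smul, norm_smul, ho.1, Real.norm_eq_abs, Real.norm_eq_abs, abs_of_pos hr0,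
      abs_of_pos x0]
    have : r * ‖u0 • e0 + u1 • e1 + u2 • e2‖ ≤ 2 * B * 3 :=
      mul_le_mul hr2 (by linarith) (norm_nonneg _) (by positivity)
    have : 0 ≤ 2 * (10 * C0 + 2 * G) := by positivity
    linarith
  · have w0 : C0 * s ^ 2 ≤ 2 * C0 * s := by
      have := mul_le_mul_of_nonneg_left k6 (mul_nonneg hC0.le s1)
      linarith
    have w1 : C0 * s ^ 3 ≤ 4 * C0 * s := by
      have := mul_le_mul_of_nonneg_left (pow_le_pow_left₀ s1 k6 2) (mul_nonneg hC0.le s1)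
      linarith
    have w2 : ∀ {d l : ℝ}, |d - s * l| ≤ C0 * s ^ 3 → |l| ≤ G → |d| ≤ 4 * C0 * s + s * G := by
      intro d l f1 f2
      have f3 : |s * l| ≤ s * G := by
        rw [abs_mul, abs_of_nonneg s1]; exact mul_le_mul_of_nonneg_left f2 s1
      have := abs_add_le (d - s * l) (s * l)
      rw [sub_add_cancel] at this
      linarith
    have w3 : ‖d0 • e0 + d1 • e1 + d2 • e2‖ ≤ s * (10 * C0 + 2 * G) := by
      have := w2 k1 G1; have := w2 k2 G2; linarith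
    have hK : 0 ≤ 10 * C0 + 2 * G := by positivity
    have w4 : r * ‖d0 • e0 + d1 • e1 + d2 • e2‖ ≤ 2 * a * (10 * C0 + 2 * G) := by
      refine (mul_le_mul_of_nonneg_left w3 hr0.le).trans ?_
      rw [← mul_assoc]; exact mul_le_mul_of_nonneg_right s3 hK
    rw [norm_smul, Real.norm_eq_abs, abs_of_pos (inv_pos.2 hS), inv_mul_le_iff₀ hS]
    refine (norm_add_le _ _).trans ?_
    rw [norm_smul, norm_smul, Real.norm_eq_abs, Real.norm_eq_abs, abs_of_nonneg hl0,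
      abs_of_pos hr0]
    have w5 := mul_le_mul_of_nonneg_left w4 hl0
    have w6 : 0 ≤ lam * a * B := by positivity
    have w7 : (1 + lam * a) * (8 * B + 2 * (10 * C0 + 2 * G)) = 8 * B + 2 * (10 * C0 + 2 * G) +
        8 * (lam * a * B) + lam * (2 * a * (10 * C0 + 2 * G)) := by ring
    linarith
  · refine le_of_sq_le_sq₀ (norm_nonneg _) (le_trans ?_ (gc_bessel ho _))
    have cmp : ∀ e : E4, ⟪FX + (r • (u0 • e0 + u1 • e1 + u2 • e2) - p0 • e0) + y • Fy, e⟫ =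
        ⟪FX, e⟫ + (r * ⟪u0 • e0 + u1 • e1 + u2 • e2, e⟫ - p0 * ⟪e0, e⟫) + y * ⟪Fy, e⟫ := by
      intro e
      simp only [inner_add_left, inner_sub_left, real_inner_smul_left]
    rw [cmp, cmp, cmp, U0, U1, U2, E0, E1, E2', hy.1, hy.2.1, hy.2.2, ← hp0, x1, x2]
    have : min κ0 κ1 ^ 2 ≤ r ^ 2 := pow_le_pow_left₀ m0 (by linarith) 2
    calc min κ0 κ1 ^ 2 ≤ r ^ 2 * (u0 ^ 2 + u1 ^ 2 + u2 ^ 2) := by rw [sq1, mul_one]; exact this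
      _ = _ := by ring
  · refine le_of_sq_le_sq₀ (norm_nonneg _) (le_trans ?_ (gc_bessel ho _))
    have cmp : ∀ e : E4, ⟪(1 + lam * a)⁻¹ • (C + lam • r • (d0 • e0 + d1 • e1 + d2 • e2)) +
        x • (FX + (r • (u0 • e0 + u1 • e1 + u2 • e2) - p0 • e0)) + y • Fy, e⟫ =
        (1 + lam * a)⁻¹ * (⟪C, e⟫ + lam * (r * ⟪d0 • e0 + d1 • e1 + d2 • e2, e⟫)) +
        x * (⟪FX, e⟫ + (r * ⟪u0 • e0 + u1 • e1 + u2 • e2, e⟫ - p0 * ⟪e0, e⟫)) + y * ⟪Fy, e⟫ := by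
      intro e
      simp only [inner_add_left, inner_sub_left, real_inner_smul_left]
    rw [cmp, cmp, cmp, U0, U1, U2, D0, D1, D2', E0, E1, E2', hy.1, hy.2.1, hy.2.2, ← hp0, x1, x2, c2]
    have k := mul_le_mul_of_nonneg_left (hc ((1 + lam * a) * x * r))
      (sq_nonneg (1 + lam * a)⁻¹)
    calc min κ0 κ1 ^ 2 ≤ κ1 ^ 2 := pow_le_pow_left₀ m0 m2 2
      _ = (1 + lam * a)⁻¹ ^ 2 * (κ1 * (1 + lam * a)) ^ 2 := by field_simp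
      _ ≤ _ := k
      _ = _ := by field_simp; ring

theorem geoH {L : Loop} (h1 : ∀ θ, L.g1 θ = -Real.sin (4 * Real.pi * θ))
    (h2 : ∀ θ, L.g2 θ = Real.sin (2 * Real.pi * θ)) (q : ℝ) {κ0 B : ℝ} (h0 : 0 < κ0) :
    ∃ κ : ℝ, 0 < κ ∧ ∀ᶠ lam : ℝ in atTop, ∀ (FX Fy C e0 e1 e2 : E4) (a θ : ℝ),
      ‖FX‖ ≤ B → ‖C‖ ≤ B → 0 ≤ a → a ≤ B → IndQ κ0 (mkA q FX Fy) C →
      (‖e0‖ = 1 ∧ ‖e1‖ = 1 ∧ ‖e2‖ = 1 ∧ ⟪e0, e1⟫ = 0 ∧ ⟪e0, e2⟫ = 0 ∧ ⟪e1, e2⟫ = 0) →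
      (⟪Fy, e0⟫ = 0 ∧ ⟪Fy, e1⟫ = 0 ∧ ⟪Fy, e2⟫ = 0) →
      0 < ⟪FX, e0⟫ → ⟪FX, e1⟫ = 0 → ⟪FX, e2⟫ = 0 → 0 < ⟪C, e1⟫ → ⟪C, e2⟫ = 0 →
      IndQ κ (mkA q (FX + L.lw ⟪FX, e0⟫ a e0 e1 e2 θ) Fy)
        ((1 + lam * a)⁻¹ • (C + lam • deriv (L.lw ⟪FX, e0⟫ a e0 e1 e2) θ)) := by
  by_cases hcB : κ0 ≤ B
  swap
  · refine ⟨1, one_pos, Eventually.of_forall fun _ FX Fy C e0 e1 e2 a θ b1 _ _ _ hI _ _ _ _ _ _ _ =>
      (hcB ?_).elim⟩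
    have := (gc_test hI h0.le 1 0 0).2
    simp only [abs_one, mul_one, one_smul, zero_smul, add_zero] at this
    exact this.trans b1
  have hB : 0 < B := h0.trans_le hcB
  obtain ⟨κ1, hκ1, hcore⟩ := geoH_core h1 h2 (B := B) h0
  have hG : ∃ G, ∀ θ, |deriv L.g1 θ| ≤ G ∧ |deriv L.g2 θ| ≤ G := by
    have k : ∀ g : ℝ → ℝ, ContDiff ℝ ∞ g → Periodic g 1 → ∃ G, ∀ θ, |deriv g θ| ≤ G := by
      intro g hg hp
      have p' : Periodic (deriv g) 1 := fun x => by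
        rw [← deriv_comp_add_const]; congr 1; funext y; exact hp y
      obtain ⟨G, hG⟩ := (p'.isBounded_of_continuous one_ne_zero
        (hg.continuous_deriv (by simp))).exists_norm_le
      exact ⟨G, fun θ => hG _ ⟨θ, rfl⟩⟩
    obtain ⟨G1, k1⟩ := k _ L.s1 L.p1
    obtain ⟨G2, k2⟩ := k _ L.s2 L.p2
    exact ⟨max G1 G2, fun θ => ⟨(k1 θ).trans (le_max_left _ _), (k2 θ).trans (le_max_right _ _)⟩⟩
  obtain ⟨G, hG⟩ := hG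
  have hG0 : 0 ≤ G := (abs_nonneg _).trans (hG 0).1
  obtain ⟨C0, hC0, hU⟩ := L.deriv_upper G (κ0 / (2 * B)) (by positivity) hG
  obtain ⟨κ, hκ, hgs⟩ := indQ_of_gs q (c := min κ0 κ1) (B := 8 * B + 2 * (10 * C0 + 2 * G))
    (lt_min h0 hκ1)
  refine ⟨κ, hκ, ?_⟩
  filter_upwards [hcore, eventually_ge_atTop 0] with lam hl hl0 FX Fy C e0 e1 e2 a θ b1 b2 a0 a1
    hI ho hy x0 x1 x2 c1 c2
  obtain ⟨p0, hp0⟩ : ∃ p0, p0 = ⟪FX, e0⟫ := ⟨_, rfl⟩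
  rw [← hp0] at x0 ⊢
  have ub : ∀ v e : E4, ‖e‖ = 1 → |⟪v, e⟫| ≤ ‖v‖ := fun v e he => by
    simpa [he] using abs_real_inner_le_norm v e
  have hFy : κ0 ≤ ‖Fy‖ := by
    have k := hI ey 0
    have n2 : ‖ey‖ = 1 := by simp [ey]
    rw [mkA_apply] at k
    simpa [n2, ey] using k
  have hFy0 : Fy ≠ 0 := fun h => by rw [h, norm_zero] at hFy; linarith
  obtain ⟨β, hβ⟩ := gc_mult (v := FX - (p0 • e0 + (0 : ℝ) • e1 + (0 : ℝ) • e2)) ho hy hFy0 (by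
    obtain ⟨g0, g1, g2, -⟩ := gc_comb ho p0 0 0
    simp only [inner_sub_left, g0, g1, g2, ← hp0, x1, x2, sub_self, and_self])
  simp only [zero_smul, add_zero] at hβ
  have hp1 : κ0 ≤ p0 := by
    have k := (gc_test hI h0.le 1 (-β) 0).2
    have e : (1 : ℝ) • FX + -β • Fy + (0 : ℝ) • C = p0 • e0 := by
      rw [neg_smul, ← hβ]; module
    rw [e, norm_smul, ho.1] at k
    simpa [abs_of_pos x0] using k
  have hp2 : p0 ≤ B := (le_abs_self _).trans (hp0 ▸ (ub FX e0 ho.1).trans b1)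
  obtain ⟨γ, hγ⟩ := gc_mult (v := C - (⟪C, e0⟫ • e0 + ⟪C, e1⟫ • e1 + (0 : ℝ) • e2)) ho hy hFy0 (by
    obtain ⟨g0, g1, g2, -⟩ := gc_comb ho ⟪C, e0⟫ ⟪C, e1⟫ 0
    simp only [inner_sub_left, g0, g1, g2, c2, sub_self, and_self])
  have hν1 : κ0 ≤ ⟪C, e1⟫ := by
    have k := (gc_test hI h0.le (-(⟪C, e0⟫ / p0)) (⟪C, e0⟫ / p0 * β - γ) 1).1
    have e : -(⟪C, e0⟫ / p0) • FX + (⟪C, e0⟫ / p0 * β - γ) • Fy + (1 : ℝ) • C = ⟪C, e1⟫ • e1 := by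
      have f : ⟪C, e0⟫ • e0 = (⟪C, e0⟫ / p0) • p0 • e0 := by
        rw [smul_smul, div_mul_cancel₀ _ x0.ne']
      rw [sub_smul, mul_smul, ← hβ, ← hγ, f]; module
    rw [e, norm_smul, ho.2.1] at k
    simpa [abs_of_pos c1] using k
  have hr0 := rr_pos x0 a
  have hr2 : rr p0 a ≤ 2 * B := le_of_sq_le_sq₀ (by positivity) (by rw [rr_sq]; nlinarith)
  obtain ⟨s1, s2, s3⟩ := rr_mul_ss x0 a0
  obtain ⟨k0, k1, k2, -, -, -, k6⟩ := hU p0 a θ x0 a0 (by gcongr)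
  have hS : 0 < 1 + lam * a := by positivity
  have sq1 := L.sum_sq x0 a θ
  have hc := fun ξ => hl p0 a ⟪C, e0⟫ ⟪C, e1⟫ θ ξ hp1 hp2 a0 a1 ((ub C e0 ho.1).trans b2) hν1
    ((le_abs_self _).trans ((ub C e1 ho.2.1).trans b2))
  have hr1 := le_rr p0 a
  rw [L.deriv_lw x0]
  unfold Loop.lw Loop.u
  exact gc_fin h0 hκ1 hB hC0 hG0 hgs hl0 b1 b2 a0 ho hy hp0 x0 x1 x2 c2 hFy hp1 hp2 hr0 hr1 hr2 s1 s3
    k0 k1 k2 k6 (hG θ).1 (hG θ).2 sq1 hc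

end Vale.Agent.P205
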