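import Vale.Agent.P205.S.Defs

/-!
The two loops. loopK: g1 = 0, g2 θ = √2 cos (2πθ). loopH: g1 = -sin (4πθ), g2 = sin (2πθ).
Vanishing integrals: a continuous 1-periodic f with f (θ + 1/2) = -f θ or f (-θ) = -f θ has
integral zero over [0,1] (Function.Periodic.intervalIntegral_add_eq, integral_comp_add_right,
integral_comp_neg).
-/

open scoped Manifold ContDiff Topology RealInnerProductSpace
open Set Filter Metric Function

noncomputable section

namespace Vale.Agent.P205

theorem loops_shift {f : ℝ → ℝ} (hp : Periodic f 1) (c : ℝ) (h : ∀ θ, f (θ + c) = -f θ) :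
    ∫ θ in (0 : ℝ)..1, f θ = 0 := by
  have h1 := intervalIntegral.integral_comp_add_right (a := 0) (b := 1) f c
  have h2 := hp.intervalIntegral_add_eq c 0
  simp only [h, intervalIntegral.integral_neg, zero_add] at h1 h2
  rw [add_comm 1 c, h2] at h1
  linarith

theorem loops_odd {f : ℝ → ℝ} (hp : Periodic f 1) (h : ∀ θ, f (-θ) = -f θ) :
    ∫ θ in (0 : ℝ)..1, f θ = 0 := by
  have h1 := intervalIntegral.integral_comp_neg (a := 0) (b := 1) f
  have h2 := hp.intervalIntegral_add_eq (-1) 0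
  simp only [h, intervalIntegral.integral_neg, zero_add, neg_zero, neg_add_cancel] at h1 h2
  rw [h2] at h1
  linarith

theorem loops_pc (n : ℕ) (θ : ℝ) :
    Real.cos (2 * n * Real.pi * (θ + 1)) = Real.cos (2 * n * Real.pi * θ) := by
  rw [← Real.cos_add_nat_mul_two_pi (2 * n * Real.pi * θ) n]
  congr 1
  ring

theorem loops_ps (n : ℕ) (θ : ℝ) :
    Real.sin (2 * n * Real.pi * (θ + 1)) = Real.sin (2 * n * Real.pi * θ) := by
  rw [← Real.sin_add_nat_mul_two_pi (2 * n * Real.pi * θ) n]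
  congr 1
  ring

theorem loops_cos {n : ℕ} (hn : n ≠ 0) :
    ∫ θ in (0 : ℝ)..1, Real.cos (2 * n * Real.pi * θ) = 0 := by
  refine loops_shift (f := fun θ => Real.cos (2 * n * Real.pi * θ)) (loops_pc n) (1 / (2 * n))
    (fun θ => ?_)
  have : (n : ℝ) ≠ 0 := Nat.cast_ne_zero.2 hn
  rw [← Real.cos_add_pi]
  congr 1
  field_simp

theorem exists_loopK : ∃ L : Loop, L.g1 = 0 ∧ ∀ θ, L.g2 (-θ) = L.g2 θ := by
  have pc : ∀ θ, Real.cos (2 * Real.pi * (θ + 1)) = Real.cos (2 * Real.pi * θ) := fun θ => by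
    simpa using loops_pc 1 θ
  have hc : ∀ θ, Real.cos (2 * Real.pi * (θ + 1 / 2)) = -Real.cos (2 * Real.pi * θ) := fun θ => by
    rw [← Real.cos_add_pi]
    congr 1
    ring
  have h2 : √2 ^ 2 = 2 := Real.sq_sqrt (by norm_num)
  refine ⟨⟨0, fun θ => √2 * Real.cos (2 * Real.pi * θ), contDiff_const, by fun_prop,
    fun _ => rfl, fun θ => by simp only [pc], fun θ => ?_, ?_, fun Φ _ => by simp, fun Φ _ => ?_,
    fun Φ _ => by simp⟩, rfl, fun θ => by simp⟩
  · have := Real.cos_sq_le_one (2 * Real.pi * θ)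
    simp only [Pi.zero_apply, mul_pow, h2]
    linarith
  · have e : ∀ θ : ℝ, (0 : ℝ → ℝ) θ ^ 2 + (√2 * Real.cos (2 * Real.pi * θ)) ^ 2 =
        1 + Real.cos (2 * (2 : ℕ) * Real.pi * θ) := fun θ => by
      have : 2 * ((2 : ℕ) : ℝ) * Real.pi * θ = 2 * (2 * Real.pi * θ) := by push_cast; ring
      rw [this, Real.cos_two_mul, mul_pow, h2, Pi.zero_apply]
      ring
    simp only [e]
    rw [intervalIntegral.integral_add (by simp) (Continuous.intervalIntegrable (by fun_prop) _ _),
      loops_cos two_ne_zero]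
    simp
  · refine loops_shift (fun θ => by simp only [pc, Pi.zero_apply]) (1 / 2) (fun θ => ?_)
    simp only [hc, Pi.zero_apply, mul_neg, neg_sq]

theorem exists_loopH : ∃ L : Loop, (∀ θ, L.g1 θ = -Real.sin (4 * Real.pi * θ)) ∧
    ∀ θ, L.g2 θ = Real.sin (2 * Real.pi * θ) := by
  have p1 : ∀ θ, Real.sin (2 * Real.pi * (θ + 1)) = Real.sin (2 * Real.pi * θ) := fun θ => by
    simpa using loops_ps 1 θ
  have p2 : ∀ θ, Real.sin (4 * Real.pi * (θ + 1)) = Real.sin (4 * Real.pi * θ) := fun θ => by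
    have := loops_ps 2 θ
    norm_num at this
    exact this
  have h1 : ∀ θ, Real.sin (2 * Real.pi * (θ + 1 / 2)) = -Real.sin (2 * Real.pi * θ) := fun θ => by
    rw [← Real.sin_add_pi]
    congr 1
    ring
  have h2 : ∀ θ, Real.sin (4 * Real.pi * (θ + 1 / 2)) = Real.sin (4 * Real.pi * θ) := fun θ => by
    rw [← Real.sin_add_two_pi (4 * Real.pi * θ)]
    congr 1
    ring
  refine ⟨⟨fun θ => -Real.sin (4 * Real.pi * θ), fun θ => Real.sin (2 * Real.pi * θ), by fun_prop,
    by fun_prop, fun θ => by simp only [p2], fun θ => by simp only [p1], fun θ => ?_, ?_,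
    fun Φ _ => ?_, fun Φ _ => ?_, fun Φ _ => ?_⟩, fun _ => rfl, fun _ => rfl⟩
  · have := Real.sin_sq_le_one (2 * Real.pi * θ)
    have := Real.sin_sq_le_one (4 * Real.pi * θ)
    rw [neg_sq]
    linarith
  · have e : ∀ θ : ℝ, (-Real.sin (4 * Real.pi * θ)) ^ 2 + Real.sin (2 * Real.pi * θ) ^ 2 =
        1 - (1 / 2) * Real.cos (2 * (2 : ℕ) * Real.pi * θ)
          - (1 / 2) * Real.cos (2 * (4 : ℕ) * Real.pi * θ) := fun θ => by
      have e1 : 2 * ((2 : ℕ) : ℝ) * Real.pi * θ = 2 * (2 * Real.pi * θ) := by push_cast; ring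
      have e2 : 2 * ((4 : ℕ) : ℝ) * Real.pi * θ = 2 * (4 * Real.pi * θ) := by push_cast; ring
      rw [e1, e2, Real.cos_two_mul, Real.cos_two_mul, neg_sq, Real.sin_sq, Real.sin_sq]
      ring
    simp only [e]
    rw [intervalIntegral.integral_sub (Continuous.intervalIntegrable (by fun_prop) _ _)
        (Continuous.intervalIntegrable (by fun_prop) _ _),
      intervalIntegral.integral_sub (by simp) (Continuous.intervalIntegrable (by fun_prop) _ _),
      intervalIntegral.integral_const_mul, intervalIntegral.integral_const_mul,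
      loops_cos two_ne_zero, loops_cos four_ne_zero]
    simp
  · refine loops_odd (fun θ => by simp only [p1, p2]) (fun θ => ?_)
    simp only [mul_neg, Real.sin_neg, neg_sq, neg_neg]
  · refine loops_odd (fun θ => by simp only [p1, p2]) (fun θ => ?_)
    simp only [mul_neg, Real.sin_neg, neg_sq, neg_neg]
  · refine loops_shift (fun θ => by simp only [p1, p2]) (1 / 2) (fun θ => ?_)
    simp only [h1, h2, mul_neg, neg_sq]

end Vale.Agent.P205
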