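import Vale.Agent.P205.S.Exp

/-!
A phase shift produces the mixed identity when μ = 1.
m0 = mean ⟪dθ W0, dy W0⟫ ∈ Y 2 1, φ = -inty (m0 * (a^2)⁻¹) ∈ Y 0 1, slow. W0' = shift φ W0.
dθ (shift φ u) = shift φ (dθ u) (dd_shift, Slow.dd_vt); slow fields do not see the shift.
solve: apply D.solve to shift (-φ) f, c, d (Y.shift, mean_shift) and shift the solution by φ.
Mix: dy W0' = shift (dy W0) + φ_y shift (dθ W0), so the mean is m0 + φ_y a^2 = 0 (mean_Wt_Wt).
-/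

open scoped Manifold ContDiff Topology RealInnerProductSpace
open Set Filter Metric Function

noncomputable section

namespace Vale.Agent.P205

variable {ι : Type} {P : Par ι} {K : Prop}

theorem shf_per {W : Type} {φ : ι → E3 → ℝ} (sφ : Slow φ) {u : ι → E3 → W} (hu : Per u) :
    Per (shift φ u) := fun i p hp => by
  have h := hu i (p.1, p.2 + φ i p) (mem_Om hp _)
  simp only [shift, sφ i p hp] at h ⊢
  rw [← h, add_right_comm]

theorem shf_vt {V : Type} [NormedAddCommGroup V] [NormedSpace ℝ V] {φ : ι → E3 → ℝ}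
    (sφ : Slow φ) (hφ : So φ) {u : ι → E3 → V} (hu : So u) (i : ι) {p : E3} (hp : p ∈ Om) :
    dd vt (shift φ u) i p = dd vt u i (p.1, p.2 + φ i p) := by
  have h := dd_shift hφ hu vt i p hp
  simp only [sφ.dd_vt i p hp, Pi.zero_apply, zero_smul, add_zero] at h
  exact h

theorem shf_cancel {W : Type} {φ : ι → E3 → ℝ} (sφ : Slow φ) (u : ι → E3 → W) (i : ι) {p : E3}
    (hp : p ∈ Om) : shift (fun i p => -φ i p) u i (p.1, p.2 + φ i p) = u i p := by
  simp only [shift, sφ i p hp, add_neg_cancel_right]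

/-- The data with shifted phase. -/
def PreDat.shf (D : PreDat P K) (hμ : ∀ i, P.μ i = 1) {φ : ι → E3 → ℝ} (sφ : Slow φ)
    (hφ : Y P 0 1 φ) : PreDat P K where
  FX := D.FX
  Fy := D.Fy
  W0 := shift φ D.W0
  a := D.a
  yFX := D.yFX
  yFy := D.yFy
  sFX := D.sFX
  sFy := D.sFy
  ya := D.ya
  sa := D.sa
  la := D.la
  yW := Y.shift hμ hφ D.yW
  pW := shf_per sφ D.pW
  mW := fun i p hp => (mean_shift sφ D.pW i p hp).trans (D.mW i p hp)
  hT := fun i p hp => by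
    have h := D.hT i (p.1, p.2 + φ i p) (mem_Om hp _)
    rw [D.sFX i p hp, D.sa i p hp] at h
    rw [shf_vt sφ hφ.so D.yW.so i hp, h]
  hy := fun i p hp => by
    have h := D.hy i (p.1, p.2 + φ i p) (mem_Om hp _)
    rwa [D.sFy i p hp] at h
  hyy := fun hK i p hp => by
    have h := D.hyy hK i (p.1, p.2 + φ i p) (mem_Om hp _)
    rwa [D.sFy.dd vy i p hp] at h
  solve := fun t f c d yf yc yd pf pc pd mf mc md => by
    have sψ : Slow (fun i p => -φ i p) := sφ.map (fun _ x => -x)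
    obtain ⟨U, pU, yU, mU, h1, h2, h3⟩ := D.solve t _ _ _ (Y.shift hμ hφ.neg yf)
      (Y.shift hμ hφ.neg yc) (Y.shift hμ hφ.neg yd) (shf_per sψ pf) (shf_per sψ pc)
      (shf_per sψ pd) (mf.congr (mean_shift sψ pf)) (mc.congr (mean_shift sψ pc))
      (md.congr (mean_shift sψ pd))
    refine ⟨shift φ U, shf_per sφ pU, Y.shift hμ hφ yU, mU.congr (mean_shift sφ pU),
      fun i p hp => ?_, fun i p hp => ?_, fun hK i p hp => ?_⟩
    · have h := h1 i (p.1, p.2 + φ i p) (mem_Om hp _)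
      rw [D.sFX i p hp, shf_cancel sφ f i hp] at h
      rw [shf_vt sφ hφ.so D.yW.so i hp, shf_vt sφ hφ.so yU.so i hp, h]
    · have h := h2 i (p.1, p.2 + φ i p) (mem_Om hp _)
      rwa [D.sFy i p hp, shf_cancel sφ c i hp] at h
    · have h := h3 hK i (p.1, p.2 + φ i p) (mem_Om hp _)
      rwa [D.sFy.dd vy i p hp, shf_cancel sφ d i hp] at h

theorem PreDat.exists_mix (D : PreDat P K) (hμ : ∀ i, P.μ i = 1) :
    ∃ (D' : PreDat P K) (φ : ι → E3 → ℝ), Slow φ ∧ So φ ∧ D'.Mix ∧ D'.FX = D.FX ∧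
      D'.Fy = D.Fy ∧ D'.a = D.a ∧ D'.W0 = shift φ D.W0 := by
  have hq : ∀ v v' : E3, Y P 2 1 (fun i p => ⟪dd v D.W0 i p, dd v' D.W0 i p⟫) := fun v v' =>
    ((D.yW.dd v).inner (D.yW.dd v')).mono (by norm_num) 1 (fun _ => zero_le_one)
      (fun i => by simp [hμ i])
  have pq : ∀ v v' : E3, Per (fun i p => ⟪dd v D.W0 i p, dd v' D.W0 i p⟫) := fun v v' =>
    (D.pW.dd v).map₂ (D.pW.dd v') (fun _ x y => ⟪x, y⟫)
  have h1 : Y P 0 1 (fun i p => -(mean (fun i p => ⟪dd vt D.W0 i p, dd vy D.W0 i p⟫) i p *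
      (D.a i p ^ 2)⁻¹)) :=
    (((hq vt vy).mean.mul D.y_inv_sq).mono (by norm_num) 1 (fun _ => zero_le_one)
      (fun i => by simp)).neg
  have h2 : Slow (fun i p => -(mean (fun i p => ⟪dd vt D.W0 i p, dd vy D.W0 i p⟫) i p *
      (D.a i p ^ 2)⁻¹)) :=
    (pq vt vy).slow_mean.map₂ D.sa (fun _ x y => -(x * (y ^ 2)⁻¹))
  have h3 := dd_vy_inty h1
  have sφ := h2.inty
  have hφ := h1.inty
  generalize inty (fun i p => -(mean (fun i p => ⟪dd vt D.W0 i p, dd vy D.W0 i p⟫) i p *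
      (D.a i p ^ 2)⁻¹)) = φ at h3 sφ hφ
  refine ⟨D.shf hμ sφ hφ, φ, sφ, hφ.so, ?_, rfl, rfl, rfl, rfl⟩
  have e : Eo (fun i p => ⟪dd vt (shift φ D.W0) i p, dd vy (shift φ D.W0) i p⟫)
      (fun i p => shift φ (fun i p => ⟪dd vt D.W0 i p, dd vy D.W0 i p⟫) i p +
        dd vy φ i p • shift φ (fun i p => ⟪dd vt D.W0 i p, dd vt D.W0 i p⟫) i p) := by
    intro i p hp
    have a1 := dd_shift hφ.so D.yW.so vy i p hp
    simp only at a1 ⊢
    rw [shf_vt sφ hφ.so D.yW.so i hp, a1, inner_add_right, inner_smul_right]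
    rfl
  intro i p hp
  show mean (fun i p => ⟪dd vt (shift φ D.W0) i p, dd vy (shift φ D.W0) i p⟫) i p = 0
  rw [mean_congr e i p hp, mean_add (Y.shift hμ hφ (hq vt vy)).so
    ((hφ.so.dd vy).smul (Y.shift hμ hφ (hq vt vt)).so) i p hp]
  have b1 := mean_smul_left (sφ.dd vy)
    (shift φ (fun i p => ⟪dd vt D.W0 i p, dd vt D.W0 i p⟫)) i p hp
  have b2 := mean_shift sφ (pq vt vy) i p hp
  have b3 := mean_shift sφ (pq vt vt) i p hp
  have b4 := D.mean_Wt_Wt i p hp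
  have b5 := h3 i p hp
  have b6 := (D.la.pos i hp).ne'
  simp only at b1 b4 b5 ⊢
  rw [b1, b2, b3, b4, b5, smul_eq_mul]
  field_simp
  ring

end Vale.Agent.P205
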