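import Vale.Agent.P205.S.Pre
import Vale.Agent.P205.S.Shift
import Vale.Agent.P205.S.Loops
import Vale.Agent.P205.S.GeoC

/-!
Level zero data of the H step for a fixed map (Λ = μ = s0 = 1).
PB bounds: pb_const (rewrite P.Λ, P.μ as fun _ => 1 by funext). Lower bounds: exists_indQ_compact
and IsCompact.exists_isMinOn on the closed ball. L from exists_loopH, R from frmH, D0 from R.pre,
D and φ from D0.exists_mix. At p ∈ Om put p' = (p.1, p.2 + φ p): dθ D.W0 p = lw p' and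
dθ dθ D.W0 p = dθ lw p' (dd_shift, Slow.dd_vt, dd_congr), which is deriv (L.lw ..) p'.2 by R.dd_lw.
Apply geoH with θ = p'.2 (Tendsto.eventually), B a bound for FX, D2 F X and a on the ball.
-/

open scoped Manifold ContDiff Topology RealInnerProductSpace
open Set Filter Metric Function

noncomputable section

namespace Vale.Agent.P205

variable {ι : Type} {P : Par ι} {F : E2 → E4} {a : E2 → ℝ}

theorem ch_pb {V : Type} [NormedAddCommGroup V] [NormedSpace ℝ V] (hΛ : ∀ i, P.Λ i = 1)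
    (hμ : ∀ i, P.μ i = 1) {u : E2 → V} (hu : ContDiff ℝ ∞ u) : PB P.Λ P.μ (fun _ => u) := by
  have e1 : P.Λ = fun _ => 1 := funext hΛ
  have e2 : P.μ = fun _ => 1 := funext hμ
  rw [e1, e2]; exact pb_const hu

theorem ch_cont_D2 (hF : ContDiff ℝ ∞ F) (v : E2) : Continuous (fun z => D2 F z v) := by
  have h2 : ContDiff ℝ ∞ (fderiv ℝ (fderiv ℝ F)) :=
    (hF.fderiv_right (m := ∞) le_rfl).fderiv_right (m := ∞) le_rfl
  exact (h2.continuous.clm_apply continuous_const).clm_apply continuous_const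

theorem ch_lower (ha : Continuous a) (hpos : ∀ z ∈ closedBall (0 : E2) 1, 0 < a z) :
    ∃ c : ℝ, 0 < c ∧ ∀ z ∈ closedBall (0 : E2) 1, c ≤ a z := by
  obtain ⟨z0, hz0, h⟩ := (isCompact_closedBall (0 : E2) 1).exists_isMinOn
    ⟨0, mem_closedBall_self zero_le_one⟩ ha.continuousOn
  exact ⟨a z0, hpos z0 hz0, fun z hz => h hz⟩

theorem coreH0 (hΛ : ∀ i, P.Λ i = 1) (hμ : ∀ i, P.μ i = 1) (hs0 : ∀ i, P.s0 i = 1)
    {l : Filter ι} (hl : Tendsto P.lam l atTop) (hF : ContDiff ℝ ∞ F) (ha : ContDiff ℝ ∞ a)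
    (hpos : ∀ z ∈ closedBall (0 : E2) 1, 0 < a z)
    (hI : ∀ z ∈ closedBall (0 : E2) 1, Ind (fderiv ℝ F z) (D2 F z (ex + P.q • ey))) :
    ∃ D : PreDat P False, D.Mix ∧ D.FX = (fun _ p => fderiv ℝ F p.1 (ex + P.q • ey)) ∧
      D.Fy = (fun _ p => fderiv ℝ F p.1 ey) ∧ D.a = (fun i p => P.w i p * a p.1) ∧
      ∃ κ : ℝ, 0 < κ ∧ ∀ᶠ i in l, ∀ p ∈ Om, IndQ κ (mkA P.q (D.T i p) (D.Fy i p))
        ((1 + P.lam i * D.a i p)⁻¹ •
          (D2 F p.1 (ex + P.q • ey) + P.lam i • dd vt (dd vt D.W0) i p)) := by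
  have hF1 : ContDiff ℝ ∞ (fderiv ℝ F) := hF.fderiv_right (m := ∞) le_rfl
  have hF2 : ContDiff ℝ ∞ (fderiv ℝ (fderiv ℝ F)) := hF1.fderiv_right (m := ∞) le_rfl
  obtain ⟨κ0, hκ0, hQ⟩ := exists_indQ_compact (isCompact_closedBall (0 : E2) 1)
    hF1.continuous.continuousOn (ch_cont_D2 hF (ex + P.q • ey)).continuousOn hI
  obtain ⟨c, hc, hca⟩ := ch_lower ha.continuous hpos
  obtain ⟨L, hL1, hL2⟩ := exists_loopH
  obtain ⟨R, hX, hy, hA, hR⟩ := frmH (P := P) (F := fun _ => F) (a := fun _ => a) L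
    (fun _ => ⟨hF, ha⟩) (ch_pb hΛ hμ hF1) (ch_pb hΛ hμ hF2) (ch_pb hΛ hμ ha)
    ⟨min c κ0, 0, lt_min hc hκ0, fun i z hz => by
      rw [pow_zero, div_one]
      exact ⟨(min_le_left _ _).trans (hca z (ball_subset_closedBall hz)),
        (hQ z (ball_subset_closedBall hz)).mono (min_le_right _ _)⟩⟩
  obtain ⟨D0, dX, dy, dA, dW, dT⟩ := R.pre
  obtain ⟨D, φ, sφ, oφ, hM, eX, ey', eA, eW⟩ := D0.exists_mix hμ
  have hX' := eX.trans (dX.trans hX)
  have hy' := ey'.trans (dy.trans hy)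
  have hA' := eA.trans (dA.trans hA)
  refine ⟨D, hM, hX', hy', hA', ?_⟩
  obtain ⟨B1, hB1⟩ := (isCompact_closedBall (0 : E2) 1).exists_bound_of_continuousOn
    (f := fun z => fderiv ℝ F z (ex + P.q • ey))
    (hF1.continuous.clm_apply continuous_const).continuousOn
  obtain ⟨B2, hB2⟩ := (isCompact_closedBall (0 : E2) 1).exists_bound_of_continuousOn
    (ch_cont_D2 hF (ex + P.q • ey)).continuousOn
  obtain ⟨B3, hB3⟩ := (isCompact_closedBall (0 : E2) 1).exists_bound_of_continuousOn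
    ha.continuous.continuousOn
  obtain ⟨κ, hκ, hG⟩ := geoH hL1 hL2 P.q (B := max B1 (max B2 B3)) hκ0
  refine ⟨κ, hκ, (hl.eventually hG).mono fun i hi p hp => ?_⟩
  have hz : p.1 ∈ closedBall (0 : E2) 1 := by
    have : ‖p.1‖ < 1 := hp
    simpa using this.le
  set p' : E3 := (p.1, p.2 + φ i p) with hp'
  have hp'm : p' ∈ Om := mem_Om hp _
  have s0 : So D0.W0 := D0.yW.so
  have t1 : Eo (dd vt D.W0) (shift φ R.lw) := fun j x hx => by
    rw [eW, dd_shift oφ s0 vt j x hx]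
    simp only [sφ.dd_vt j x hx, Pi.zero_apply, zero_smul, add_zero]
    exact dT j _ (mem_Om hx _)
  have t2 : dd vt (dd vt D.W0) i p = dd vt R.lw i p' := by
    rw [dd_congr t1 vt i p hp, dd_shift oφ R.y_lw.so vt i p hp]
    simp only [sφ.dd_vt i p hp, Pi.zero_apply, zero_smul, add_zero]
    rfl
  have hw0 : 0 ≤ P.w i p := (P.w_pos i hp).le
  have ha0 : 0 ≤ a p.1 := (hpos _ hz).le
  have hap : R.a i p' = P.w i p * a p.1 := by rw [hA]; rfl
  have hXp : R.FX i p' = fderiv ℝ F p.1 (ex + P.q • ey) := by rw [hX]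
  have hyp : R.Fy i p' = fderiv ℝ F p.1 ey := by rw [hy]
  have key := hi (R.FX i p') (R.Fy i p') (D2 F p.1 (ex + P.q • ey)) (R.e0 i p') (R.e1 i p')
    (R.e2 i p') (R.a i p') p'.2
    (by rw [hXp]; exact (hB1 _ hz).trans (le_max_left _ _))
    ((hB2 _ hz).trans ((le_max_left _ _).trans (le_max_right _ _)))
    (by rw [hap]; exact mul_nonneg hw0 ha0)
    (by
      rw [hap]
      have h3 : a p.1 ≤ B3 := (le_abs_self _).trans (hB3 _ hz)
      calc P.w i p * a p.1 ≤ 1 * a p.1 := mul_le_mul_of_nonneg_right (P.w_le_one i p) ha0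
        _ ≤ _ := by rw [one_mul]; exact h3.trans ((le_max_right _ _).trans (le_max_right _ _)))
    (by rw [hXp, hyp, mkA_eq]; exact hQ _ hz)
    (R.orth i p' hp'm) (R.oy i p' hp'm) (R.p0_pos i hp'm) (hR i p' hp'm).1 (R.oX2 i p' hp'm)
    (hR i p' hp'm).2.1 (hR i p' hp'm).2.2
  have hT : D.T i p = R.FX i p' + R.lw i p' := by
    unfold PreDat.T
    rw [t1 i p hp, hXp, hX']; rfl
  have hFy : D.Fy i p = R.Fy i p' := by rw [hyp, hy']
  have hDa : D.a i p = R.a i p' := by rw [hap, hA']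
  rw [hT, hFy, hDa, t2, R.dd_lw i hp'm]
  exact key

end Vale.Agent.P205
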