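import Vale.Agent.P205.S.Solve
import Vale.Agent.P205.S.Exp

/-!
From a frame to level zero data. W0 = anti lw (dd_vt_anti, mean_lw, mean_anti,
anti_inner_left with Fy_lw, Fyy_lw; dd vy Fy is slow). The solver: U0 = c • Bc + d • Bd,
f' = f - ⟪FX + lw, dθ U0⟫ with dθ U0 = dθ c • Bc + dθ d • Bd, of size μ t; its mean is
mean f - mean ⟪lw, dθ U0⟫ (weight 2) because mean ⟪FX, dθ U0⟫ = ⟪FX, mean dθ U0⟫ = 0.
Take v from solveN, U = U0 + anti v. mix_of_even: dθ (anti v) = v - mean v is even, anti v is odd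
(anti_even), so dy (anti v) is odd (chain rule with the reflection θ ↦ -θ), and mean_odd.
-/

open scoped Manifold ContDiff Topology RealInnerProductSpace
open Set Filter Metric Function

noncomputable section

namespace Vale.Agent.P205

variable {ι : Type} {P : Par ι} {K : Prop} {L : Loop} (R : Frm P K L)

theorem pre_orth {F v : ι → E3 → E4} (hF : Slow F) (hv : So v)
    (h : ∀ i, ∀ p ∈ Om, ⟪F i p, v i p⟫ = 0) (i : ι) {p : E3} (hp : p ∈ Om) :
    ⟪F i p, anti v i p⟫ = 0 := by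
  have h1 := anti_inner_left hF hv i p hp
  have h2 := anti_congr (u := fun i p => ⟪F i p, v i p⟫) (v := fun _ _ => (0 : ℝ)) h i p hp
  rw [← show _ = ⟪F i p, anti v i p⟫ from h1, h2]
  simp [anti]

theorem pre_up {V : Type} [NormedAddCommGroup V] [NormedSpace ℝ V] {a : ℤ} {t : ι → ℝ}
    {u : ι → E3 → V} (h : Y P a t u) : Y P a (fun i => P.μ i * t i) u :=
  h.mono le_rfl 1 (fun i => mul_nonneg (exp_μ_pos P i).le (h.1 i)) fun i => by
    rw [one_mul]
    exact le_mul_of_one_le_left (h.1 i) (P.hμ i)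

theorem Frm.pre_dd : Eo (dd vt (anti R.lw)) R.lw := fun i p hp => by
  have h := dd_vt_anti R.y_lw.so R.per_lw i p hp
  simp only [h, R.mean_lw i p hp, Pi.zero_apply, sub_zero]

theorem Frm.pre_solve (t : ι → ℝ) (f c d : ι → E3 → ℝ) (hf : Y P 1 t f) (hc : Y P 1 t c)
    (hd : Y P 1 t d) (pf : Per f) (pc : Per c) (pd : Per d) (mf : Y P 2 t (mean f))
    (mc : Y P 2 t (mean c)) (md : Y P 2 t (mean d)) :
    ∃ U : ι → E3 → E4, Per U ∧ Y P 1 (fun i => P.μ i * t i) U ∧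
      Y P 2 (fun i => P.μ i * t i) (mean U) ∧
      (∀ i, ∀ p ∈ Om, ⟪R.FX i p + dd vt (anti R.lw) i p, dd vt U i p⟫ = f i p) ∧
      (∀ i, ∀ p ∈ Om, ⟪R.Fy i p, U i p⟫ = c i p) ∧
      (K → ∀ i, ∀ p ∈ Om, ⟪dd vy R.Fy i p, U i p⟫ = d i p) := by
  obtain ⟨U0, hU0⟩ : ∃ U0 : ι → E3 → E4,
      U0 = fun i p => c i p • R.Bc i p + d i p • R.Bd i p := ⟨_, rfl⟩
  have yU0 : Y P 1 t U0 := hU0 ▸ (hc.smul1 R.yBc).add (hd.smul1 R.yBd)
  have pU0 : Per U0 := fun i p hp => by
    simp only [hU0, pc i p hp, pd i p hp, R.sBc i p hp, R.sBd i p hp]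
  have mU0 : Y P 2 t (mean U0) := by
    refine ((mc.smul1 R.yBc).add (md.smul1 R.yBd)).congr fun i p hp => ?_
    rw [hU0, mean_add (hc.so.smul R.yBc.so) (hd.so.smul R.yBd.so) i p hp]
    simp only [mean_smul_right (f := c) R.sBc i p hp, mean_smul_right (f := d) R.sBd i p hp]
  have yD : Y P 1 (fun i => P.μ i * t i) (dd vt U0) := yU0.dd vt
  have pD : Per (dd vt U0) := pU0.dd vt
  have yT : Y P 0 1 fun i p => R.FX i p + R.lw i p :=
    R.yFX.add (R.y_lw.mono zero_le_one 1 (fun _ => zero_le_one) fun _ => (one_mul _).ge)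
  have yf' : Y P 1 (fun i => P.μ i * t i)
      fun i p => f i p - ⟪R.FX i p + R.lw i p, dd vt U0 i p⟫ := (pre_up hf).sub (yT.inner0 yD)
  have pf' : Per fun i p => f i p - ⟪R.FX i p + R.lw i p, dd vt U0 i p⟫ := fun i p hp => by
    simp only [pf i p hp, R.sFX i p hp, R.per_lw i p hp, pD i p hp]
  have y2 : Y P 2 (fun i => P.μ i * t i) fun i p => ⟪R.lw i p, dd vt U0 i p⟫ :=
    (R.y_lw.inner yD).mono (by norm_num) 1 yD.1 fun i => by simp
  have mf' : Y P 2 (fun i => P.μ i * t i)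
      (mean fun i p => f i p - ⟪R.FX i p + R.lw i p, dd vt U0 i p⟫) := by
    refine ((pre_up mf).sub y2.mean).congr fun i p hp => ?_
    rw [mean_sub hf.so (yT.so.inner yD.so) i p hp]
    simp only [inner_add_left]
    rw [mean_add (R.yFX.so.inner yD.so) y2.so i p hp]
    simp only [mean_inner_left R.sFX yD.so i p hp, mean_dd_vt yU0.so pU0 i p hp, Pi.zero_apply,
      inner_zero_right, zero_add]
  obtain ⟨v, pv, yv, mv, h1, h2, h3⟩ := R.solveN yf' pf' mf'
  have ya : Y P 1 (fun i => P.μ i * t i) (anti v) := yv.anti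
  refine ⟨fun i p => U0 i p + anti v i p, fun i p hp => ?_, (pre_up yU0).add ya,
    (pre_up mU0).congr fun i p hp => ?_, fun i p hp => ?_, fun i p hp => ?_,
    fun hK i p hp => ?_⟩
  · simp only [pU0 i p hp, pv.anti i p hp]
  · rw [mean_add yU0.so ya.so i p hp]
    simp only [mean_anti yv.so pv i p hp, Pi.zero_apply, add_zero]
  · rw [R.pre_dd i p hp, dd_add yU0.so ya.so vt i p hp]
    simp only [dd_vt_anti yv.so pv i p hp, mv i p hp, Pi.zero_apply, sub_zero]
    rw [inner_add_right, h1 i p hp]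
    ring
  · simp only [hU0, inner_add_right, inner_smul_right, pre_orth R.sFy yv.so h2 i hp,
      (R.dB i p hp).1, (R.dB i p hp).2]
    ring
  · simp only [hU0, inner_add_right, inner_smul_right,
      pre_orth (R.sFy.dd vy) yv.so (h3 hK) i hp, (R.dBK hK i p hp).1, (R.dBK hK i p hp).2]
    ring

theorem Frm.pre : ∃ D : PreDat P K, D.FX = R.FX ∧ D.Fy = R.Fy ∧ D.a = R.a ∧
    D.W0 = anti R.lw ∧ Eo (dd vt D.W0) R.lw :=
  ⟨{ FX := R.FX
     Fy := R.Fy
     W0 := anti R.lw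
     a := R.a
     yFX := R.yFX
     yFy := R.yFy
     sFX := R.sFX
     sFy := R.sFy
     ya := R.ya
     sa := R.sa
     la := R.la
     yW := R.y_lw.anti
     pW := R.per_lw.anti
     mW := mean_anti R.y_lw.so R.per_lw
     hT := fun i p hp => by rw [R.pre_dd i p hp, R.norm_T i hp]
     hy := fun i _ hp => pre_orth R.sFy R.y_lw.so (fun i _ hp => R.Fy_lw i hp) i hp
     hyy := fun hK i _ hp =>
       pre_orth (R.sFy.dd vy) R.y_lw.so (fun i _ hp => R.Fyy_lw hK i hp) i hp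
     solve := R.pre_solve }, rfl, rfl, rfl, rfl, R.pre_dd⟩

theorem pre_even {v : ι → E3 → E4} (hv : So v) (he : ∀ i, ∀ p ∈ Om, v i (p.1, -p.2) = v i p)
    (i : ι) (p : E3) (hp : p ∈ Om) : dd vy v i (p.1, -p.2) = dd vy v i p := by
  let ρ : E3 →L[ℝ] E3 := (ContinuousLinearMap.fst ℝ E2 ℝ).prod (-ContinuousLinearMap.snd ℝ E2 ℝ)
  have h1 : HasFDerivAt (fun q => v i (ρ q)) ((fderiv ℝ (v i) (ρ p)).comp ρ) p :=
    (hv.diff i (mem_Om hp _)).hasFDerivAt.comp p ρ.hasFDerivAt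
  have h2 : v i =ᶠ[𝓝 p] fun q => v i (ρ q) := by
    filter_upwards [isOpen_Om.mem_nhds hp] with q hq
    exact (he i q hq).symm
  have h3 : ρ vy = vy := by simp [ρ, vy]
  have h4 := (h1.congr_of_eventuallyEq h2).fderiv
  change fderiv ℝ (v i) (ρ p) vy = fderiv ℝ (v i) p vy
  rw [h4, ContinuousLinearMap.comp_apply, h3]

theorem mix_of_even {v : ι → E3 → E4} (hv : So v) (pv : Per v)
    (he : ∀ i, ∀ p ∈ Om, v i (p.1, -p.2) = v i p) :
    Eo (mean fun i p => ⟪dd vt (anti v) i p, dd vy (anti v) i p⟫) 0 := by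
  refine mean_odd (fun i p hp => ?_) fun i p hp => ?_
  · simp only [pv.anti.dd vt i p hp, pv.anti.dd vy i p hp]
  · have h1 : dd vt (anti v) i (p.1, -p.2) = dd vt (anti v) i p := by
      rw [dd_vt_anti hv pv i _ (mem_Om hp _), dd_vt_anti hv pv i p hp]
      simp only [he i p hp, pv.slow_mean i p hp]
    have h2 : dd vy (anti v) i (p.1, -p.2) = -dd vy (anti v) i p := by
      rw [dd_anti hv vy i _ (mem_Om hp _), dd_anti hv vy i p hp]
      exact anti_even (pv.dd vy) (pre_even hv he) i p hp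
    simp only [h1, h2, inner_neg_right]

end Vale.Agent.P205
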