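import Vale.Agent.P205.S.Ev
import Vale.Agent.P205.S.Rec
import Vale.Agent.P205.S.Pre
import Vale.Agent.P205.S.Loops

/-!
The K step. L from exists_loopK, R from frmK, D from R.pre, D.Mix by mix_of_even with
R.lw_even, W from D.recur, U = corr P W (ev_smooth, ev_support, ev_bound with corr_y; Near.yW needs
η μ^11 ≤ 1). Metric: out_metric and ev_bound at order 0 for eyy (size η s ≤ s), q = 0.
Independence: at p = pt z, fderiv F z = mkA q FX Fy (mkA_eq), D2 F z ey = dd vy Fy p (dd_vy_Fy);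
R.geoK; D.T p = FX + lw; then IndQ.perturb with fderiv_corr, norm_mkA_sub, Near.yR, yGyF,
D2_corr_y and Y.sup (sizes η μ^12, η μ, η μ^2), IndQ.mono.
-/

open scoped Manifold ContDiff Topology RealInnerProductSpace
open Set Filter Metric Function

noncomputable section

namespace Vale.Agent.P205

variable {ι : Type} {P : Par ι} {F : ι → E2 → E4} {a : ι → E2 → ℝ}

theorem ck_eta_le (hk : ∀ i, P.μ i ^ 32 ≤ P.lam i) (i : ι) {k : ℕ} (h : k ≤ 32) :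
    P.η i ≤ P.η i * P.μ i ^ k ∧ P.η i * P.μ i ^ k ≤ 1 := by
  have h0 := P.η_pos i
  have hl : 0 < P.lam i := lt_of_lt_of_le one_pos (P.hlam i)
  refine ⟨le_mul_of_one_le_right h0.le (one_le_pow₀ (P.hμ i)), ?_⟩
  have : P.μ i ^ k ≤ P.lam i := (pow_le_pow_right₀ (P.hμ i) h).trans (hk i)
  calc P.η i * P.μ i ^ k ≤ P.η i * P.lam i := mul_le_mul_of_nonneg_left this h0.le
    _ = 1 := inv_mul_cancel₀ hl.ne'

theorem ck_sq_le (v : E2) (k : Fin 2) : v k ^ 2 ≤ ‖v‖ ^ 2 := by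
  have := EuclideanSpace.norm_eq v
  have h2 : |v k| ≤ ‖v‖ := by simpa using PiLp.norm_apply_le v k
  calc v k ^ 2 = |v k| ^ 2 := (sq_abs _).symm
    _ ≤ ‖v‖ ^ 2 := pow_le_pow_left₀ (abs_nonneg _) h2 2

/-- Three fields of weight one and size η μ^12 are uniformly small. -/
theorem ck_sup {V : Type} [NormedAddCommGroup V] [NormedSpace ℝ V] {u : ι → E3 → V} {t : ι → ℝ}
    (hu : Y P 1 t u) (ht : ∀ i, t i ≤ P.μ i ^ 12 / P.lam i) :
    ∃ (C : ℝ) (m : ℕ), 0 ≤ C ∧ ∀ m' ≥ m, ∀ i, ∀ p ∈ Om,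
      ‖u i p‖ ≤ C * P.Λ i ^ m' * P.μ i ^ 12 / P.lam i := by
  obtain ⟨C, m, hC, h⟩ := hu.sup
  refine ⟨C, m, hC, fun m' hm i p hp => (h i p hp).trans ?_⟩
  have h1 : P.Λ i ^ m ≤ P.Λ i ^ m' := pow_le_pow_right₀ (P.hΛ i) hm
  have h0 : 0 ≤ P.Λ i ^ m := pow_nonneg (zero_le_one.trans (P.hΛ i)) _
  have ht0 := hu.1 i
  rw [mul_div_assoc]
  calc C * P.Λ i ^ m * P.s0 i * t i ≤ C * P.Λ i ^ m * 1 * t i := by
        gcongr; exact P.hs1 i
    _ ≤ C * P.Λ i ^ m' * (P.μ i ^ 12 / P.lam i) := by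
        rw [mul_one]
        exact mul_le_mul (mul_le_mul_of_nonneg_left h1 hC) (ht i) ht0
          (mul_nonneg hC (h0.trans h1))

theorem coreK (hq : P.q = 0) (hk : ∀ i, P.μ i ^ 32 ≤ P.lam i)
    (hs : ∀ i, ContDiff ℝ ∞ (F i) ∧ ContDiff ℝ ∞ (a i))
    (h1 : PB P.Λ P.μ (fun i => fderiv ℝ (F i)))
    (h2 : PB P.Λ P.μ (fun i => fderiv ℝ (fderiv ℝ (F i)))) (ha : PB P.Λ P.μ a)
    (hl : ∃ (c : ℝ) (m : ℕ), 0 < c ∧ ∀ i, ∀ z ∈ ball (0 : E2) 1, c / P.Λ i ^ m ≤ a i z ∧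
      IndQ (c / P.Λ i ^ m) (fderiv ℝ (F i) z) (D2 (F i) z ey)) (n : ℕ) :
    ∃ U : ι → E2 → E4,
      (∀ i, ContDiff ℝ ∞ (U i) ∧ support (U i) ⊆ ball 0 1) ∧
      (∀ j : ℕ, ∃ (C : ℝ) (m : ℕ), ∀ i z,
        ‖iteratedFDeriv ℝ j (U i) z‖ ≤ C * P.Λ i ^ m * P.s0 i * (P.lam i * P.μ i) ^ j) ∧
      (∃ (C : ℝ) (m : ℕ), ∀ i z v,
        |‖fderiv ℝ (F i + U i) z v‖ ^ 2 - ‖fderiv ℝ (F i) z v‖ ^ 2
          - (P.s0 i * wt z * a i z) ^ 2 * v 0 ^ 2|
          ≤ C * P.Λ i ^ m * (P.μ i ^ 32 / P.lam i) ^ n * ‖v‖ ^ 2) ∧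
      (∃ (C : ℝ) (m : ℕ), ∀ i, ∀ z ∈ ball (0 : E2) 1, ∀ κ : ℝ,
        IndQ κ (fderiv ℝ (F i) z) (D2 (F i) z ey) →
        IndQ (κ - C * P.Λ i ^ m * P.μ i ^ 12 / P.lam i) (fderiv ℝ (F i + U i) z)
          (D2 (F i + U i) z ey)) := by
  obtain ⟨L, hL1, hL2⟩ := exists_loopK
  obtain ⟨R, hX, hy, hA⟩ := frmK (P := P) hL1 hs h1 h2 ha hl
  obtain ⟨D, dX, dy, dA, dW, dT⟩ := R.pre
  have hM : D.Mix := by
    have := mix_of_even R.y_lw.so R.per_lw (fun i p hp => R.lw_even hL1 hL2 i hp)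
    unfold PreDat.Mix; rw [dW]; exact this
  obtain ⟨W, hN, hE⟩ := D.recur hM hk n
  have he := fun i => ck_eta_le hk i (k := 11) (by norm_num)
  have hW : Y P 1 1 W := hN.yW (fun i => (he i).2)
  have hF := fun i => (hs i).1
  have hX' := dX.trans hX
  have hy' := dy.trans hy
  have hA' := dA.trans hA
  have hμ0 : ∀ i, 0 < P.μ i := fun i => lt_of_lt_of_le one_pos (P.hμ i)
  have hη : ∀ i (k : ℕ), k ≤ 12 → P.η i * P.μ i ^ k ≤ P.μ i ^ 12 / P.lam i := fun i k hk' => by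
    rw [div_eq_inv_mul]
    exact mul_le_mul_of_nonneg_left (pow_le_pow_right₀ (P.hμ i) hk') (P.η_pos i).le
  refine ⟨corr P W, fun i => ⟨ev_smooth (corr_y hW) i, ev_support _ i⟩, fun j => ?_, ?_, ?_⟩
  · obtain ⟨C, m, -, h⟩ := ev_bound (corr_y hW) j
    exact ⟨C, m, fun i z => by simpa [corr] using h i z⟩
  · obtain ⟨C, m, hC, h⟩ := out_metric D hF hX' hy' hA' hW hE.1 hE.2.1
    obtain ⟨C', m', hC', h'⟩ := ev_bound (hE.2.2.2.2 trivial).1 0
    refine ⟨C + C', max m m', fun i z v => ?_⟩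
    have a1 := h i z v
    have a2 := h' i z
    rw [norm_iteratedFDeriv_zero, pow_zero, mul_one, Real.norm_eq_abs] at a2
    rw [hq, zero_mul, sub_zero] at a1
    set ε := (P.μ i ^ 32 / P.lam i) ^ n with hε
    have hε0 : 0 ≤ ε := hE.1.1 i
    have hΛ0 : 0 ≤ P.Λ i := zero_le_one.trans (P.hΛ i)
    have b1 : P.Λ i ^ m ≤ P.Λ i ^ max m m' := pow_le_pow_right₀ (P.hΛ i) (le_max_left _ _)
    have b2 : P.Λ i ^ m' ≤ P.Λ i ^ max m m' := pow_le_pow_right₀ (P.hΛ i) (le_max_right _ _)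
    have a3 : |ev P (D.eyy W) i z| ≤ C' * P.Λ i ^ max m m' * ε := by
      refine a2.trans ?_
      calc C' * P.Λ i ^ m' * P.s0 i * (P.η i * ε) ≤ C' * P.Λ i ^ max m m' * 1 * (1 * ε) := by
            gcongr
            · exact mul_nonneg (P.η_pos i).le hε0
            · exact (P.hs0 i).le
            · exact P.hs1 i
            · exact P.η_le_one i
        _ = _ := by ring
    have a4 : |ev P (D.eyy W) i z * v 1 ^ 2| ≤ C' * P.Λ i ^ max m m' * ε * ‖v‖ ^ 2 := by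
      rw [abs_mul, abs_of_nonneg (sq_nonneg (v 1))]
      exact mul_le_mul a3 (ck_sq_le v 1) (sq_nonneg _) ((abs_nonneg _).trans a3)
    have a5 : C * P.Λ i ^ m * ε * ‖v‖ ^ 2 ≤ C * P.Λ i ^ max m m' * ε * ‖v‖ ^ 2 := by gcongr
    rw [abs_le] at a1 a4 ⊢
    constructor <;> nlinarith [a1.1, a1.2, a4.1, a4.2]
  · obtain ⟨C1, m1, hC1, k1⟩ := ck_sup (hN.yR he) (fun i => by
      have := hη i 12 le_rfl
      calc P.μ i * (P.η i * P.μ i ^ 11) = P.η i * P.μ i ^ 12 := by ring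
        _ ≤ _ := this)
    obtain ⟨C2, m2, hC2, k2⟩ := ck_sup (D.yGyF hW) (fun i => by
      simpa using hη i 1 (by norm_num))
    obtain ⟨C3, m3, hC3, k3⟩ := ck_sup (((hW.dd vy).dd vy).csmul (fun i => (P.η_pos i).le))
      (fun i => by
        have := hη i 2 (by norm_num)
        calc P.η i * (P.μ i * (P.μ i * (1 : ι → ℝ) i)) = P.η i * P.μ i ^ 2 := by
              simp only [Pi.one_apply]; ring
          _ ≤ _ := this)
    refine ⟨C1 + C2 + C3, max m1 (max m2 m3), fun i z hz κ hκ => ?_⟩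
    have hp := pt_mem (P := P) i hz
    set M := max m1 (max m2 m3)
    have e1 := k1 M (le_max_left _ _) i _ hp
    have e2 := k2 M ((le_max_left _ _).trans (le_max_right _ _)) i _ hp
    have e3 := k3 M ((le_max_right _ _).trans (le_max_right _ _)) i _ hp
    have hyy : dd vy R.Fy i (P.pt i z) = D2 (F i) z ey := by rw [hy]; exact dd_vy_Fy hF i _
    have hA0 : mkA P.q (R.FX i (P.pt i z)) (R.Fy i (P.pt i z)) = fderiv ℝ (F i) z := by
      rw [hX, hy]; exact mkA_eq _ _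
    have g := R.geoK trivial i hp (κ := κ) (by rw [hA0, hyy]; exact hκ)
    rw [hyy] at g
    have hT : R.FX i (P.pt i z) + R.lw i (P.pt i z) = D.T i (P.pt i z) := by
      unfold PreDat.T; rw [dX, dT i _ hp]
    rw [hT, ← dy] at g
    have hpos : 0 ≤ P.Λ i ^ M * P.μ i ^ 12 / P.lam i := by
      have := P.hΛ i; have := hμ0 i; have := P.hlam i; positivity
    have s1 : C1 * P.Λ i ^ M * P.μ i ^ 12 / P.lam i = C1 * (P.Λ i ^ M * P.μ i ^ 12 / P.lam i) := by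
      ring
    have s2 : C2 * P.Λ i ^ M * P.μ i ^ 12 / P.lam i = C2 * (P.Λ i ^ M * P.μ i ^ 12 / P.lam i) := by
      ring
    have s3 : C3 * P.Λ i ^ M * P.μ i ^ 12 / P.lam i = C3 * (P.Λ i ^ M * P.μ i ^ 12 / P.lam i) := by
      ring
    have s4 : (C1 + C2 + C3) * P.Λ i ^ M * P.μ i ^ 12 / P.lam i =
        (C1 + C2 + C3) * (P.Λ i ^ M * P.μ i ^ 12 / P.lam i) := by ring
    rw [s1] at e1; rw [s2] at e2; rw [s3] at e3; rw [s4]
    refine g.perturb ?_ ?_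
    · rw [fderiv_corr D hF hX' hy' hW i hz]
      refine (norm_mkA_sub _ _ _ _ _).trans ?_
      rw [hq, abs_zero, add_zero, one_mul]
      refine (add_le_add e1 e2).trans ?_
      have := mul_nonneg hC3 hpos
      linarith
    · rw [D2_corr_y hF hW i hz, add_sub_cancel_left]
      refine e3.trans ?_
      have := mul_nonneg hC1 hpos
      have := mul_nonneg hC2 hpos
      linarith

end Vale.Agent.P205
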