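import Vale.Agent.P205.S.YB

/-!
Calculus of dd, and closure properties of So, Per, Slow.
All identities hold on the open set Om, where So gives differentiability (ContDiffOn.contDiffAt).
dd_comm: ContDiffAt.isSymmSndFDerivAt; dd v (dd w u) p = fderiv (fderiv u) p v w.
Per.dd, Slow.dd: u (x + (0,1)) = u x near p, fderiv_comp_add_right / EventuallyEq.fderiv_eq.
-/

open scoped Manifold ContDiff Topology RealInnerProductSpace
open Set Filter Metric Function

noncomputable section

namespace Vale.Agent.P205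

variable {ι : Type} {P : Par ι} {V : Type} [NormedAddCommGroup V] [NormedSpace ℝ V]
  {V₂ : Type} [NormedAddCommGroup V₂] [NormedSpace ℝ V₂]
  {V₃ : Type} [NormedAddCommGroup V₃] [NormedSpace ℝ V₃]
  {a b : ℤ} {t t' : ι → ℝ}

theorem So.diff {u : ι → E3 → V} (hu : So u) (i : ι) {p : E3} (hp : p ∈ Om) :
    DifferentiableAt ℝ (u i) p :=
  ((hu i).contDiffAt (isOpen_Om.mem_nhds hp)).differentiableAt (by simp)

theorem So.dd {u : ι → E3 → V} (hu : So u) (v : E3) : So (dd v u) := fun i =>
  ((hu i).fderiv_of_isOpen isOpen_Om (by simp)).clm_apply contDiffOn_const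

theorem So.congr {u v : ι → E3 → V} (hu : So u) (e : Eo v u) : So v := fun i =>
  (hu i).congr (e i)

theorem So.add {u v : ι → E3 → V} (hu : So u) (hv : So v) : So (fun i p => u i p + v i p) :=
  fun i => (hu i).add (hv i)

theorem So.sub {u v : ι → E3 → V} (hu : So u) (hv : So v) : So (fun i p => u i p - v i p) :=
  fun i => (hu i).sub (hv i)

theorem So.smul {f : ι → E3 → ℝ} {v : ι → E3 → V} (hu : So f) (hv : So v) :
    So (fun i p => f i p • v i p) := fun i => (hu i).smul (hv i)

theorem So.csmul {v : ι → E3 → V} (c : ι → ℝ) (hv : So v) : So (fun i p => c i • v i p) :=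
  fun i => (hv i).const_smul (c i)

theorem So.inner {u v : ι → E3 → E4} (hu : So u) (hv : So v) :
    So (fun i p => ⟪u i p, v i p⟫) := fun i => (hu i).inner ℝ (hv i)

theorem dd_congr {u v : ι → E3 → V} (e : Eo u v) (x : E3) : Eo (dd x u) (dd x v) :=
  fun i _ hp => congrArg (fun A : E3 →L[ℝ] V => A x) (EventuallyEq.fderiv_eq
    (eventually_of_mem (isOpen_Om.mem_nhds hp) (e i)))

theorem dd_zero {u : ι → E3 → V} (e : Eo u 0) (x : E3) : Eo (dd x u) 0 := fun i p hp =>
  (dd_congr e x i p hp).trans (by simp [dd])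

theorem dd_add {u v : ι → E3 → V} (hu : So u) (hv : So v) (x : E3) :
    Eo (dd x fun i p => u i p + v i p) (fun i p => dd x u i p + dd x v i p) := fun i _ hp =>
  congrArg (· x) (fderiv_fun_add (hu.diff i hp) (hv.diff i hp))

theorem dd_sub {u v : ι → E3 → V} (hu : So u) (hv : So v) (x : E3) :
    Eo (dd x fun i p => u i p - v i p) (fun i p => dd x u i p - dd x v i p) := fun i _ hp =>
  congrArg (· x) (fderiv_fun_sub (hu.diff i hp) (hv.diff i hp))

theorem dd_csmul {u : ι → E3 → V} (hu : So u) (c : ι → ℝ) (x : E3) :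
    Eo (dd x fun i p => c i • u i p) (fun i p => c i • dd x u i p) := fun i _ hp =>
  congrArg (· x) (fderiv_fun_const_smul (hu.diff i hp) (c i))

theorem dd_smul {f : ι → E3 → ℝ} {u : ι → E3 → V} (hf : So f) (hu : So u) (x : E3) :
    Eo (dd x fun i p => f i p • u i p)
      (fun i p => dd x f i p • u i p + f i p • dd x u i p) := fun i _ hp =>
  (congrArg (· x) (fderiv_fun_smul (hf.diff i hp) (hu.diff i hp))).trans (add_comm _ _)

theorem dd_inner {u v : ι → E3 → E4} (hu : So u) (hv : So v) (x : E3) :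
    Eo (dd x fun i p => ⟪u i p, v i p⟫)
      (fun i p => ⟪dd x u i p, v i p⟫ + ⟪u i p, dd x v i p⟫) := fun i _ hp =>
  (fderiv_inner_apply ℝ (hu.diff i hp) (hv.diff i hp) x).trans (add_comm _ _)

theorem dd_comm {u : ι → E3 → V} (hu : So u) (x y : E3) :
    Eo (dd x (dd y u)) (dd y (dd x u)) := fun i p hp => by
  have h := (hu i).contDiffAt (isOpen_Om.mem_nhds hp)
  have h1 : DifferentiableAt ℝ (fderiv ℝ (u i)) p :=
    (h.fderiv_right (m := 1) (by norm_cast)).differentiableAt one_ne_zero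
  have e : ∀ a b : E3, dd a (dd b u) i p = fderiv ℝ (fderiv ℝ (u i)) p a b := fun a b => by
    change fderiv ℝ (fun q => fderiv ℝ (u i) q b) p a = _
    rw [fderiv_clm_apply h1 (differentiableAt_const b)]
    simp
  rw [e, e]
  exact (h.isSymmSndFDerivAt (by simp; norm_cast)).eq x y

theorem dd_add_vt (p : E3) (s : ℝ) : p + s • vt = (p.1, p.2 + s) := by
  ext <;> simp [vt]

theorem dd_tr {u : E3 → V} {c : ℝ} (h : ∀ p ∈ Om, u (p.1, p.2 + c) = u p) {p : E3}
    (hp : p ∈ Om) : fderiv ℝ u (p.1, p.2 + c) = fderiv ℝ u p := by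
  rw [← dd_add_vt, ← fderiv_comp_add_right]
  refine EventuallyEq.fderiv_eq (eventually_of_mem (isOpen_Om.mem_nhds hp) fun q hq => ?_)
  exact (congrArg u (dd_add_vt q c)).trans (h q hq)

theorem Slow.dd_vt {u : ι → E3 → V} (hs : Slow u) : Eo (dd vt u) 0 := fun i p hp => by
  by_cases h : DifferentiableAt ℝ (u i) p
  · have h1 : HasDerivAt (fun s : ℝ => u i (p + s • vt)) _ 0 := h.hasFDerivAt.hasLineDerivAt vt
    simp only [dd_add_vt, hs i p hp] at h1
    exact h1.unique (hasDerivAt_const _ _)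
  · simp [dd, fderiv_zero_of_not_differentiableAt h]

theorem Slow.dd {u : ι → E3 → V} (hs : Slow u) (x : E3) : Slow (dd x u) := fun i p hp θ => by
  have := dd_tr (c := θ - p.2) (fun q hq => hs i q hq _) hp
  rw [add_sub_cancel] at this
  exact congrArg (· x) this

theorem Per.dd {u : ι → E3 → V} (hs : Per u) (x : E3) : Per (dd x u) := fun i _ hp =>
  congrArg (· x) (dd_tr (hs i) hp)

theorem Slow.per {W : Type} {u : ι → E3 → W} (hs : Slow u) : Per u := fun i p hp => hs i p hp _

theorem Per.map {W W' : Type} {u : ι → E3 → W} (hu : Per u) (g : ι → W → W') :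
    Per (fun i p => g i (u i p)) := fun i p hp => congrArg (g i) (hu i p hp)

theorem Per.map₂ {W W' W'' : Type} {u : ι → E3 → W} {v : ι → E3 → W'} (hu : Per u) (hv : Per v)
    (g : ι → W → W' → W'') : Per (fun i p => g i (u i p) (v i p)) :=
  fun i p hp => congrArg₂ (g i) (hu i p hp) (hv i p hp)

theorem Slow.map {W W' : Type} {u : ι → E3 → W} (hu : Slow u) (g : ι → W → W') :
    Slow (fun i p => g i (u i p)) := fun i p hp θ => congrArg (g i) (hu i p hp θ)

theorem Slow.map₂ {W W' W'' : Type} {u : ι → E3 → W} {v : ι → E3 → W'} (hu : Slow u)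
    (hv : Slow v) (g : ι → W → W' → W'') : Slow (fun i p => g i (u i p) (v i p)) :=
  fun i p hp θ => congrArg₂ (g i) (hu i p hp θ) (hv i p hp θ)

/-- The derivative in θ is the derivative of the slice. -/
theorem hasDerivAt_slice {u : ι → E3 → V} (hu : So u) (i : ι) {p : E3} (hp : p ∈ Om) (s : ℝ) :
    HasDerivAt (fun x : ℝ => u i (p.1, p.2 + x)) (dd vt u i (p.1, p.2 + s)) s :=
  (hu.diff i (mem_Om hp _)).hasFDerivAt.comp_hasDerivAt (f := fun x : ℝ => (p.1, p.2 + x)) s
    ((hasDerivAt_const s p.1).prodMk ((hasDerivAt_id s).const_add p.2))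

theorem continuous_slice {u : ι → E3 → V} (hu : So u) (i : ι) {p : E3} (hp : p ∈ Om) :
    Continuous (fun x : ℝ => u i (p.1, p.2 + x)) :=
  continuous_iff_continuousAt.2 fun s => (hasDerivAt_slice hu i hp s).continuousAt

/-- Chain rule for the shift. -/
theorem dd_shift {φ : ι → E3 → ℝ} {u : ι → E3 → V} (hφ : So φ) (hu : So u) (x : E3) :
    Eo (dd x (shift φ u))
      (fun i p => shift φ (dd x u) i p + dd x φ i p • shift φ (dd vt u) i p) := fun i p hp => by
  have h := (hu.diff i (mem_Om hp (p.2 + φ i p))).hasFDerivAt.comp p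
    (hasFDerivAt_fst.prodMk (hasFDerivAt_snd.add (hφ.diff i hp).hasFDerivAt))
  refine (congrArg (· x) h.fderiv).trans ?_
  simp only [shift, dd, ← map_smul, ← map_add, dd_add_vt]
  rfl

end Vale.Agent.P205
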