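import Vale.Agent.P205.Api.Cross

/-!
Part S definitions (owner helper91, FROZEN).
Functions of p = (z, θ) in the unit disc times the line, in families indexed by ι.
Y P a t u: all derivatives of u are at most C τ^m w^a t μ^j, τ = Λ / (1 - |z|^2), w = s0 * wt z.
-/

open scoped Manifold ContDiff Topology RealInnerProductSpace
open Set Filter Metric Function

noncomputable section

namespace Vale.Agent.P205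

abbrev E3 : Type := E2 × ℝ

/-- The domain: unit disc times the line. -/
def Om : Set E3 := {p | ‖p.1‖ < 1}

/-- Parameters of a family. -/
structure Par (ι : Type) where
  Λ : ι → ℝ
  μ : ι → ℝ
  lam : ι → ℝ
  s0 : ι → ℝ
  q : ℝ
  hΛ : ∀ i, 1 ≤ Λ i
  hμ : ∀ i, 1 ≤ μ i
  hlam : ∀ i, 1 ≤ lam i
  hs0 : ∀ i, 0 < s0 i
  hs1 : ∀ i, s0 i ≤ 1

variable {ι : Type} {V : Type} [NormedAddCommGroup V] [NormedSpace ℝ V]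

def Par.tau (P : Par ι) (i : ι) (p : E3) : ℝ := P.Λ i / (1 - ‖p.1‖ ^ 2)
def Par.w (P : Par ι) (i : ι) (p : E3) : ℝ := P.s0 i * wt p.1
def Par.η (P : Par ι) (i : ι) : ℝ := (P.lam i)⁻¹

/-- The symbol class. -/
def Y (P : Par ι) (a : ℤ) (t : ι → ℝ) (u : ι → E3 → V) : Prop :=
  (∀ i, 0 ≤ t i) ∧ (∀ i, ContDiffOn ℝ ∞ (u i) Om) ∧
    ∀ j : ℕ, ∃ (C : ℝ) (m : ℕ), 0 ≤ C ∧ ∀ i, ∀ p ∈ Om,
      ‖iteratedFDeriv ℝ j (u i) p‖ ≤ C * P.tau i p ^ m * P.w i p ^ a * t i * P.μ i ^ j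

/-- Lower bound c w^a τ^(-m) ≤ u. -/
def LB (P : Par ι) (a : ℤ) (u : ι → E3 → ℝ) : Prop :=
  ∃ (c : ℝ) (m : ℕ), 0 < c ∧ ∀ i, ∀ p ∈ Om, c * P.w i p ^ a ≤ u i p * P.tau i p ^ m

/-- Equality on the domain. -/
def Eo {W : Type} (u v : ι → E3 → W) : Prop := ∀ i, ∀ p ∈ Om, u i p = v i p

/-- Smooth on the domain. -/
def So (u : ι → E3 → V) : Prop := ∀ i, ContDiffOn ℝ ∞ (u i) Om

/-- Period one in θ. -/
def Per {W : Type} (u : ι → E3 → W) : Prop := ∀ i, ∀ p ∈ Om, u i (p.1, p.2 + 1) = u i p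

/-- Independent of θ. -/
def Slow {W : Type} (u : ι → E3 → W) : Prop := ∀ i, ∀ p ∈ Om, ∀ θ, u i (p.1, θ) = u i p

/-- Directional derivative. -/
def dd (v : E3) (u : ι → E3 → V) : ι → E3 → V := fun i p => fderiv ℝ (u i) p v

def vX (q : ℝ) : E3 := (ex + q • ey, 0)
def vy : E3 := (ey, 0)
def vt : E3 := (0, 1)

/-- Mean over a period. -/
def mean (u : ι → E3 → V) : ι → E3 → V := fun i p => ∫ s in (0 : ℝ)..1, u i (p.1, p.2 + s)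

/-- The antiderivative in θ of mean zero. -/
def anti (u : ι → E3 → V) : ι → E3 → V :=
  fun i p => ∫ s in (0 : ℝ)..1, (s - 1 / 2) • u i (p.1, p.2 + s)

/-- The antiderivative in y vanishing on y = 0. -/
def inty (u : ι → E3 → V) : ι → E3 → V :=
  fun i p => p.1 1 • ∫ s in (0 : ℝ)..1, u i (p.1 - ((1 - s) * p.1 1) • ey, p.2)

/-- Shift of the phase. -/
def shift {W : Type} (φ : ι → E3 → ℝ) (u : ι → E3 → W) : ι → E3 → W :=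
  fun i p => u i (p.1, p.2 + φ i p)

/-- Evaluation at θ = lam * x, extended by zero. -/
def ev (P : Par ι) (u : ι → E3 → V) : ι → E2 → V :=
  fun i z => if ‖z‖ < 1 then u i (z, P.lam i * z 0) else 0

/-- Level zero data without the slow mixed identity. K says that the yy component is solved too. -/
structure PreDat (P : Par ι) (K : Prop) where
  FX : ι → E3 → E4
  Fy : ι → E3 → E4
  W0 : ι → E3 → E4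
  a : ι → E3 → ℝ
  yFX : Y P 0 1 FX
  yFy : Y P 0 1 Fy
  sFX : Slow FX
  sFy : Slow Fy
  ya : Y P 1 1 a
  sa : Slow a
  la : LB P 1 a
  yW : Y P 1 1 W0
  pW : Per W0
  mW : Eo (mean W0) 0
  hT : ∀ i, ∀ p ∈ Om, ‖FX i p + dd vt W0 i p‖ ^ 2 = ‖FX i p‖ ^ 2 + a i p ^ 2
  hy : ∀ i, ∀ p ∈ Om, ⟪Fy i p, W0 i p⟫ = 0
  hyy : K → ∀ i, ∀ p ∈ Om, ⟪dd vy Fy i p, W0 i p⟫ = 0
  solve : ∀ (t : ι → ℝ) (f c d : ι → E3 → ℝ), Y P 1 t f → Y P 1 t c → Y P 1 t d →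
    Per f → Per c → Per d → Y P 2 t (mean f) → Y P 2 t (mean c) → Y P 2 t (mean d) →
    ∃ U : ι → E3 → E4, Per U ∧ Y P 1 (fun i => P.μ i * t i) U ∧
      Y P 2 (fun i => P.μ i * t i) (mean U) ∧
      (∀ i, ∀ p ∈ Om, ⟪FX i p + dd vt W0 i p, dd vt U i p⟫ = f i p) ∧
      (∀ i, ∀ p ∈ Om, ⟪Fy i p, U i p⟫ = c i p) ∧
      (K → ∀ i, ∀ p ∈ Om, ⟪dd vy Fy i p, U i p⟫ = d i p)

/-- The slow mixed identity. -/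
def PreDat.Mix {P : Par ι} {K : Prop} (D : PreDat P K) : Prop :=
  Eo (mean fun i p => ⟪dd vt D.W0 i p, dd vy D.W0 i p⟫) 0

section Errs
variable {P : Par ι} {K : Prop} (D : PreDat P K) (W : ι → E3 → E4)

def PreDat.GX : ι → E3 → E4 :=
  fun i p => D.FX i p + dd vt W i p + P.η i • dd (vX P.q) W i p

def PreDat.Gy : ι → E3 → E4 := fun i p => D.Fy i p + P.η i • dd vy W i p

def PreDat.eXX : ι → E3 → ℝ :=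
  fun i p => ⟪D.GX W i p, D.GX W i p⟫ - ⟪D.FX i p, D.FX i p⟫ - D.a i p ^ 2

def PreDat.eXy : ι → E3 → ℝ := fun i p => ⟪D.GX W i p, D.Gy W i p⟫ - ⟪D.FX i p, D.Fy i p⟫

def PreDat.eyy : ι → E3 → ℝ := fun i p => ⟪D.Gy W i p, D.Gy W i p⟫ - ⟪D.Fy i p, D.Fy i p⟫

/-- W is periodic and within e of W0. -/
def PreDat.Near (e : ι → ℝ) : Prop := Per W ∧ Y P 1 e (fun i p => W i p - D.W0 i p)

/-- The errors have size s, the slow mixed error size s'. -/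
def PreDat.Err (s s' : ι → ℝ) : Prop :=
  Y P 1 s (D.eXX W) ∧ Y P 1 s (D.eXy W) ∧ Y P 2 s (mean (D.eXX W)) ∧
    Y P 2 s' (mean (D.eXy W)) ∧
    (K → Y P 1 (fun i => P.η i * s i) (D.eyy W) ∧ Y P 2 (fun i => P.η i * s i) (mean (D.eyy W)))

end Errs

/-- A planar loop with the symmetries that make the solver diagonal. -/
structure Loop where
  g1 : ℝ → ℝ
  g2 : ℝ → ℝ
  s1 : ContDiff ℝ ∞ g1
  s2 : ContDiff ℝ ∞ g2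
  p1 : Periodic g1 1
  p2 : Periodic g2 1
  le2 : ∀ θ, g1 θ ^ 2 + g2 θ ^ 2 ≤ 2
  m1 : ∫ θ in (0 : ℝ)..1, (g1 θ ^ 2 + g2 θ ^ 2) = 1
  o1 : ∀ Φ : ℝ → ℝ, Continuous Φ → ∫ θ in (0 : ℝ)..1, Φ (g1 θ ^ 2 + g2 θ ^ 2) * g1 θ = 0
  o2 : ∀ Φ : ℝ → ℝ, Continuous Φ → ∫ θ in (0 : ℝ)..1, Φ (g1 θ ^ 2 + g2 θ ^ 2) * g2 θ = 0
  o12 : ∀ Φ : ℝ → ℝ, Continuous Φ →
    ∫ θ in (0 : ℝ)..1, Φ (g1 θ ^ 2 + g2 θ ^ 2) * (g1 θ * g2 θ) = 0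

def rr (p0 a : ℝ) : ℝ := √(p0 ^ 2 + a ^ 2)
def ss (p0 a : ℝ) : ℝ := a * √(2 / (rr p0 a * (rr p0 a + p0)))
def Loop.rho (L : Loop) (θ : ℝ) : ℝ := L.g1 θ ^ 2 + L.g2 θ ^ 2
def Loop.u0 (L : Loop) (s θ : ℝ) : ℝ := 1 - s ^ 2 * L.rho θ / 2
def Loop.u1 (L : Loop) (s θ : ℝ) : ℝ := s * √(1 - s ^ 2 * L.rho θ / 4) * L.g1 θ
def Loop.u2 (L : Loop) (s θ : ℝ) : ℝ := s * √(1 - s ^ 2 * L.rho θ / 4) * L.g2 θ

/-- The unit vector loop. -/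
def Loop.u (L : Loop) (s : ℝ) (e0 e1 e2 : E4) (θ : ℝ) : E4 :=
  L.u0 s θ • e0 + L.u1 s θ • e1 + L.u2 s θ • e2

/-- The θ derivative of the level zero correction. -/
def Loop.lw (L : Loop) (p0 a : ℝ) (e0 e1 e2 : E4) (θ : ℝ) : E4 :=
  rr p0 a • L.u (ss p0 a) e0 e1 e2 θ - p0 • e0

/-- Frame data from which a PreDat is built. -/
structure Frm (P : Par ι) (K : Prop) (L : Loop) where
  FX : ι → E3 → E4
  Fy : ι → E3 → E4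
  e0 : ι → E3 → E4
  e1 : ι → E3 → E4
  e2 : ι → E3 → E4
  Bc : ι → E3 → E4
  Bd : ι → E3 → E4
  a : ι → E3 → ℝ
  yFX : Y P 0 1 FX
  yFy : Y P 0 1 Fy
  y0 : Y P 0 1 e0
  y1 : Y P 0 1 e1
  y2 : Y P 0 1 e2
  yBc : Y P 0 1 Bc
  yBd : Y P 0 1 Bd
  sFX : Slow FX
  sFy : Slow Fy
  s0 : Slow e0
  s1 : Slow e1
  s2 : Slow e2
  sBc : Slow Bc
  sBd : Slow Bd
  ya : Y P 1 1 a
  sa : Slow a
  la : LB P 1 a
  orth : ∀ i, ∀ p ∈ Om, ‖e0 i p‖ = 1 ∧ ‖e1 i p‖ = 1 ∧ ‖e2 i p‖ = 1 ∧ ⟪e0 i p, e1 i p⟫ = 0 ∧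
    ⟪e0 i p, e2 i p⟫ = 0 ∧ ⟪e1 i p, e2 i p⟫ = 0
  lp : LB P 0 (fun i p => ⟪FX i p, e0 i p⟫)
  oX2 : ∀ i, ∀ p ∈ Om, ⟪FX i p, e2 i p⟫ = 0
  oX1 : L.g1 = 0 ∨ ∀ i, ∀ p ∈ Om, ⟪FX i p, e1 i p⟫ = 0
  oy : ∀ i, ∀ p ∈ Om, ⟪Fy i p, e0 i p⟫ = 0 ∧ ⟪Fy i p, e1 i p⟫ = 0 ∧ ⟪Fy i p, e2 i p⟫ = 0
  oyy : K → L.g1 = 0 ∧ ∀ i, ∀ p ∈ Om, ⟪dd vy Fy i p, e0 i p⟫ = 0 ∧ ⟪dd vy Fy i p, e2 i p⟫ = 0
  dB : ∀ i, ∀ p ∈ Om, ⟪Fy i p, Bc i p⟫ = 1 ∧ ⟪Fy i p, Bd i p⟫ = 0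
  dBK : K → ∀ i, ∀ p ∈ Om, ⟪dd vy Fy i p, Bc i p⟫ = 0 ∧ ⟪dd vy Fy i p, Bd i p⟫ = 1

section FrmDefs
variable {P : Par ι} {K : Prop} {L : Loop} (R : Frm P K L)

def Frm.p0 : ι → E3 → ℝ := fun i p => ⟪R.FX i p, R.e0 i p⟫
def Frm.r : ι → E3 → ℝ := fun i p => rr (R.p0 i p) (R.a i p)
def Frm.s : ι → E3 → ℝ := fun i p => ss (R.p0 i p) (R.a i p)
def Frm.u0 : ι → E3 → ℝ := fun i p => L.u0 (R.s i p) p.2
def Frm.u1 : ι → E3 → ℝ := fun i p => L.u1 (R.s i p) p.2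
def Frm.u2 : ι → E3 → ℝ := fun i p => L.u2 (R.s i p) p.2
def Frm.u : ι → E3 → E4 := fun i p => L.u (R.s i p) (R.e0 i p) (R.e1 i p) (R.e2 i p) p.2
def Frm.lw : ι → E3 → E4 :=
  fun i p => L.lw (R.p0 i p) (R.a i p) (R.e0 i p) (R.e1 i p) (R.e2 i p) p.2

end FrmDefs

/-- The linear map with X ↦ T and y ↦ Fy, X = ex + q ey. -/
def mkA (q : ℝ) (T Fy : E4) : E2 →L[ℝ] E4 :=
  (EuclideanSpace.proj (0 : Fin 2) : E2 →L[ℝ] ℝ).smulRight (T - q • Fy) +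
    (EuclideanSpace.proj (1 : Fin 2) : E2 →L[ℝ] ℝ).smulRight Fy

/-- Polynomial bounds at scale μ on the unit disc. -/
def PB {ι V : Type} [NormedAddCommGroup V] [NormedSpace ℝ V] (Λ μ : ι → ℝ) (u : ι → E2 → V) :
    Prop :=
  ∀ j : ℕ, ∃ (C : ℝ) (m : ℕ), ∀ i, ∀ z ∈ ball (0 : E2) 1,
    ‖iteratedFDeriv ℝ j (u i) z‖ ≤ C * Λ i ^ m * μ i ^ j

end Vale.Agent.P205
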