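import Vale.Agent.P205.S.YL

/-! Extension by zero. -/

open scoped Manifold ContDiff Topology RealInnerProductSpace
open Set Filter Metric Function

noncomputable section

namespace Vale.Agent.P205

variable {ι : Type} {P : Par ι} {V : Type} [NormedAddCommGroup V] [NormedSpace ℝ V] {t : ι → ℝ}

theorem ext_rho {z : E2} (hz : z ∈ ball (0 : E2) 1) : 0 < 1 - ‖z‖ ^ 2 :=
  yl_den (p := (z, 0)) (mem_ball_zero_iff.1 hz)

theorem ext_wt (m k : ℕ) {z : E2} (hz : z ∈ ball (0 : E2) 1) :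
    ((1 - ‖z‖ ^ 2)⁻¹) ^ m * wt z ≤ (m + k).factorial * (1 - ‖z‖ ^ 2) ^ k := by
  have h := ext_rho hz
  have h3 := Real.pow_div_factorial_le_exp (1 - ‖z‖ ^ 2)⁻¹ (inv_pos.mpr h).le (m + k)
  rw [div_le_iff₀ (by positivity), pow_add, inv_pow _ k, mul_inv_le_iff₀ (by positivity)] at h3
  rw [wt, expNegInvGlue, if_neg (not_le.mpr h), Real.exp_neg, mul_inv_le_iff₀ (Real.exp_pos _)]
  linarith

theorem ext_abs (C : ℝ) (m k : ℕ) {z : E2} (hz : z ∈ ball (0 : E2) 1) :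
    C * ((1 - ‖z‖ ^ 2)⁻¹) ^ m * wt z ≤ |C| * ((m + k).factorial * (1 - ‖z‖ ^ 2) ^ k) := by
  have h := ext_rho hz
  rw [mul_assoc]
  exact mul_le_mul (le_abs_self C) (ext_wt m k hz)
    (mul_nonneg (by positivity) (expNegInvGlue.nonneg _)) (abs_nonneg C)

theorem ext_deriv {u : E2 → V} (h0 : ∀ z, 1 ≤ ‖z‖ → u z = 0) {C : ℝ} {m : ℕ}
    (hb : ∀ z ∈ ball (0 : E2) 1, ‖iteratedFDeriv ℝ 0 u z‖ ≤ C * ((1 - ‖z‖ ^ 2)⁻¹) ^ m * wt z)
    {y : E2} (hy : 1 ≤ ‖y‖) : HasFDerivAt u (0 : E2 →L[ℝ] V) y := by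
  rw [hasFDerivAt_iff_isLittleO]
  refine (Asymptotics.IsBigO.of_bound (|C| * ((m + 2).factorial * 4))
    (Eventually.of_forall fun z => ?_)).trans_isLittleO (Asymptotics.isLittleO_pow_sub_sub y one_lt_two)
  rw [h0 y hy, sub_zero, zero_apply, sub_zero]
  rcases le_or_gt 1 ‖z‖ with h | h
  · rw [h0 z h, norm_zero]
    positivity
  have hz := mem_ball_zero_iff.2 h
  have h1 := (hb z hz).trans (ext_abs C m 2 hz)
  have h2 := norm_sub_norm_le y z
  have h3 : 1 - ‖z‖ ^ 2 ≤ 2 * ‖z - y‖ := by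
    rw [norm_sub_rev]
    nlinarith [sq_nonneg (1 - ‖z‖)]
  have h4 := pow_le_pow_left₀ (ext_rho hz).le h3 2
  rw [norm_iteratedFDeriv_zero] at h1
  rw [Real.norm_of_nonneg (by positivity), mul_assoc, mul_assoc]
  exact h1.trans (mul_le_mul_of_nonneg_left (mul_le_mul_of_nonneg_left (by linarith)
    (Nat.cast_nonneg _)) (abs_nonneg C))

theorem ext_nat (n : ℕ) : ∀ (V : Type) [NormedAddCommGroup V] [NormedSpace ℝ V] (u : E2 → V),
    ContDiffOn ℝ ∞ u (ball 0 1) → (∀ z, 1 ≤ ‖z‖ → u z = 0) →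
    (∀ j : ℕ, ∃ (C : ℝ) (m : ℕ), ∀ z ∈ ball (0 : E2) 1,
      ‖iteratedFDeriv ℝ j u z‖ ≤ C * ((1 - ‖z‖ ^ 2)⁻¹) ^ m * wt z) →
    Differentiable ℝ u ∧ ContDiff ℝ n u := by
  induction n with
  | zero =>
    intro V _ _ u hs h0 hb
    obtain ⟨C, m, h⟩ := hb 0
    have hd : Differentiable ℝ u := fun z => by
      rcases le_or_gt 1 ‖z‖ with hz | hz
      · exact (ext_deriv h0 h hz).differentiableAt
      · exact (hs.contDiffAt (isOpen_ball.mem_nhds (mem_ball_zero_iff.2 hz))).differentiableAt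
          (by simp)
    exact ⟨hd, contDiff_zero.2 hd.continuous⟩
  | succ n ih =>
    intro V _ _ u hs h0 hb
    obtain ⟨C, m, h⟩ := hb 0
    have hd := (ih V u hs h0 hb).1
    refine ⟨hd, ?_⟩
    rw [Nat.cast_succ, contDiff_succ_iff_fderiv]
    refine ⟨hd, by simp, (ih _ _ (hs.fderiv_of_isOpen isOpen_ball (by simp))
      (fun z hz => (ext_deriv h0 h hz).fderiv) fun j => ?_).2⟩
    simpa only [norm_iteratedFDeriv_fderiv] using hb (j + 1)

theorem ext_smooth {u : E2 → V} (hs : ContDiffOn ℝ ∞ u (ball 0 1))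
    (h0 : ∀ z, 1 ≤ ‖z‖ → u z = 0)
    (hb : ∀ j : ℕ, ∃ (C : ℝ) (m : ℕ), ∀ z ∈ ball (0 : E2) 1,
      ‖iteratedFDeriv ℝ j u z‖ ≤ C * ((1 - ‖z‖ ^ 2)⁻¹) ^ m * wt z) : ContDiff ℝ ∞ u :=
  contDiff_infty.2 fun n => (ext_nat n V u hs h0 hb).2

theorem ev_support (W : ι → E3 → V) (i : ι) : support (ev P W i) ⊆ ball 0 1 := fun _ hz =>
  mem_ball_zero_iff.2 (by_contra fun h => hz (if_neg h))

/-- The linear map z ↦ (z, l z0). -/
def extL (l : ℝ) : E2 →L[ℝ] E3 :=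
  (ContinuousLinearMap.id ℝ E2).prod (l • (EuclideanSpace.proj (0 : Fin 2) : E2 →L[ℝ] ℝ))

theorem extL_norm {l : ℝ} (hl : 1 ≤ l) : ‖extL l‖ ≤ l := by
  have h0 : 0 ≤ l := zero_le_one.trans hl
  refine ContinuousLinearMap.opNorm_le_bound _ h0 fun z => norm_prod_le_iff.2
    ⟨le_mul_of_one_le_left (norm_nonneg z) hl, ?_⟩
  change ‖l * z 0‖ ≤ _
  rw [norm_mul, Real.norm_of_nonneg h0]
  exact mul_le_mul_of_nonneg_left (PiLp.norm_apply_le z 0) h0

theorem ext_mem (l : ℝ) {z : E2} (hz : z ∈ ball (0 : E2) 1) : extL l z ∈ Om :=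
  show ‖z‖ < 1 from mem_ball_zero_iff.1 hz

theorem ext_on (W : ι → E3 → V) (i : ι) : EqOn (ev P W i) (W i ∘ extL (P.lam i)) (ball 0 1) :=
  fun _ hz => if_pos (mem_ball_zero_iff.1 hz)

theorem ext_in {W : ι → E3 → V} (hW : So W) (j : ℕ) (i : ι) {z : E2} (hz : z ∈ ball (0 : E2) 1) :
    ‖iteratedFDeriv ℝ j (ev P W i) z‖ ≤
      ‖iteratedFDeriv ℝ j (W i) (extL (P.lam i) z)‖ * P.lam i ^ j := by
  have h1 := ext_mem (P.lam i) hz
  have h2 : IsOpen (extL (P.lam i) ⁻¹' Om) := isOpen_Om.preimage (extL _).continuous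
  rw [((ext_on W i).eventuallyEq_of_mem (isOpen_ball.mem_nhds hz)).iteratedFDeriv ℝ j
    |>.eq_of_nhds, ← iteratedFDerivWithin_of_isOpen j h2 h1,
    (extL (P.lam i)).iteratedFDerivWithin_comp_right (hW i) isOpen_Om.uniqueDiffOn h2.uniqueDiffOn
      h1 (by exact_mod_cast le_top), iteratedFDerivWithin_of_isOpen j isOpen_Om h1]
  refine (ContinuousMultilinearMap.norm_compContinuousLinearMap_le _ _).trans ?_
  rw [Finset.prod_const, Finset.card_univ, Fintype.card_fin]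
  exact mul_le_mul_of_nonneg_left (pow_le_pow_left₀ (norm_nonneg _) (extL_norm (P.hlam i)) j)
    (norm_nonneg _)

theorem ev_smooth {W : ι → E3 → V} (hW : Y P 1 t W) (i : ι) : ContDiff ℝ ∞ (ev P W i) := by
  refine ext_smooth (((hW.2.1 i).comp (extL (P.lam i)).contDiff.contDiffOn fun z hz =>
    ext_mem _ hz).congr (ext_on W i)) (fun z hz => if_neg (not_lt.2 hz)) fun j => ?_
  obtain ⟨C, m, -, h⟩ := hW.2.2 j
  refine ⟨C * P.Λ i ^ m * P.s0 i * t i * P.μ i ^ j * P.lam i ^ j, m, fun z hz =>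
    (ext_in hW.so j i hz).trans ((mul_le_mul_of_nonneg_right (h i _ (ext_mem (P.lam i) hz))
      (pow_nonneg (zero_le_one.trans (P.hlam i)) j)).trans (le_of_eq ?_))⟩
  change C * (P.Λ i / (1 - ‖z‖ ^ 2)) ^ m * (P.s0 i * wt z) ^ (1 : ℤ) * _ * _ * _ = _
  rw [zpow_one, div_eq_mul_inv, mul_pow]
  ring

theorem ext_off {X : Type} [TopologicalSpace X] [Zero X] [T1Space X] {u : E2 → V} {g : E2 → X}
    (hg : Continuous g) (h : support g ⊆ tsupport u) (hs : support u ⊆ ball 0 1) {z : E2}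
    (hz : 1 ≤ ‖z‖) : g z = 0 := by
  have h1 := interior_maximal (h.trans (closure_minimal (hs.trans ball_subset_closedBall)
    isClosed_closedBall)) hg.isOpen_support
  rw [interior_closedBall 0 one_ne_zero] at h1
  exact by_contra fun h2 => (mem_ball_zero_iff.1 (h1 h2)).not_ge hz

theorem ev_bound {W : ι → E3 → V} (hW : Y P 1 t W) (j : ℕ) : ∃ (C : ℝ) (m : ℕ), 0 ≤ C ∧
    ∀ i z, ‖iteratedFDeriv ℝ j (ev P W i) z‖ ≤
      C * P.Λ i ^ m * P.s0 i * t i * (P.lam i * P.μ i) ^ j := by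
  obtain ⟨C, m, hC, h⟩ := hW.2.2 j
  obtain ⟨C', hC', h'⟩ := tau_pow_mul_w (ι := ι) m
  refine ⟨C * C', m, by positivity, fun i z => ?_⟩
  have h1 := zero_le_one.trans (P.hΛ i)
  have h2 := zero_le_one.trans (P.hμ i)
  have h3 := zero_le_one.trans (P.hlam i)
  have h4 := (P.hs0 i).le
  have h5 := hW.1 i
  rcases le_or_gt 1 ‖z‖ with hz | hz
  · rw [ext_off ((ev_smooth hW i).continuous_iteratedFDeriv (by exact_mod_cast le_top))
      (support_iteratedFDeriv_subset j) (ev_support W i) hz, norm_zero]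
    positivity
  have h7 := ext_mem (P.lam i) (mem_ball_zero_iff.2 hz)
  have h6 := mul_le_mul_of_nonneg_right (h' P i _ h7)
    (show 0 ≤ C * t i * P.μ i ^ j * P.lam i ^ j by positivity)
  refine (ext_in hW.so j i (mem_ball_zero_iff.2 hz)).trans
    ((mul_le_mul_of_nonneg_right (h i _ h7) (by positivity)).trans ?_)
  rw [zpow_one, mul_pow]
  linarith

/-- A C^1 function supported in the open ball has zero derivative off it. -/
theorem fderiv_zero_off {u : E2 → V} (hu : ContDiff ℝ ∞ u) (hs : support u ⊆ ball 0 1) {z : E2}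
    (hz : 1 ≤ ‖z‖) : fderiv ℝ u z = 0 :=
  ext_off (hu.continuous_fderiv (by simp)) (support_fderiv_subset ℝ) hs hz

theorem indQ_closure {A : E2 → E2 →L[ℝ] E4} {c : E2 → E4} (hA : Continuous A)
    (hc : Continuous c) {κ : ℝ} (h : ∀ z ∈ ball (0 : E2) 1, IndQ κ (A z) (c z)) :
    ∀ z ∈ closedBall (0 : E2) 1, IndQ κ (A z) (c z) := by
  intro z hz ξ s
  rw [← closure_ball 0 one_ne_zero] at hz
  exact le_on_closure (g := fun z => ‖A z ξ + s • c z‖) (fun z hz => h z hz ξ s) continuousOn_const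
    (Continuous.continuousOn (by fun_prop)) hz

/-- Split the disc into ρ ≥ ρ0, where lam c wt wins, and ρ ≤ ρ0, where ρ^(-m) wt is small. -/
theorem small_wt (C : ℝ) (m : ℕ) {c δ : ℝ} (hc : 0 < c) (hδ : 0 < δ) :
    ∀ᶠ lam : ℝ in atTop, ∀ z ∈ ball (0 : E2) 1,
      C * ((1 - ‖z‖ ^ 2)⁻¹) ^ m * wt z ≤ δ * (1 + lam * (c * wt z)) := by
  obtain ⟨r, hr⟩ : ∃ r : ℝ, r = δ / (|C| * (m + 1).factorial + 1) := ⟨_, rfl⟩
  have h0 : 0 < r := by
    rw [hr]
    positivity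
  have h1 : r * (|C| * (m + 1).factorial + 1) = δ := by
    rw [hr, div_mul_cancel₀ _ (by positivity)]
  filter_upwards [eventually_ge_atTop (|C| * r⁻¹ ^ m / (δ * c))] with lam hl z hz
  have hw : 0 ≤ wt z := expNegInvGlue.nonneg _
  have h2 : 0 ≤ lam := le_trans (by positivity) hl
  rcases le_total (1 - ‖z‖ ^ 2) r with h | h
  · have h3 := mul_le_mul_of_nonneg_left h (show 0 ≤ |C| * (m + 1).factorial by positivity)
    have h4 := ext_abs C m 1 hz
    have h5 : 0 ≤ δ * (lam * (c * wt z)) := by positivity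
    linarith
  · have h3 := mul_le_mul_of_nonneg_right ((mul_le_mul (le_abs_self C) (pow_le_pow_left₀
      (inv_pos.2 (ext_rho hz)).le (inv_anti₀ h0 h) m) (pow_nonneg (inv_pos.2 (ext_rho hz)).le m)
      (abs_nonneg C)).trans ((div_le_iff₀ (mul_pos hδ hc)).1 hl)) hw
    linarith

end Vale.Agent.P205
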