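import Vale.Agent.P205.S.FrmY

/-!
Identities for the loop fields of a frame.
Means: mean_eq_int and the integrals of LAlg (s, r, p0, e_k are slow). Inner products: unfold u and
lw, use R.orth, oX2, oX1 (if g1 = 0 then u1 = 0), oy, oyy. FX + lw = (FX - p0 e0) + r u with
FX - p0 e0 orthogonal to u, e0, e2.
-/

open scoped Manifold ContDiff Topology RealInnerProductSpace
open Set Filter Metric Function

noncomputable section

namespace Vale.Agent.P205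

variable {ι : Type} {P : Par ι} {K : Prop} {L : Loop} (R : Frm P K L)

theorem Frm.sum_sq (i : ι) {p : E3} (hp : p ∈ Om) :
    R.u0 i p ^ 2 + R.u1 i p ^ 2 + R.u2 i p ^ 2 = 1 := by
  exact L.sum_sq (R.p0_pos i hp) _ _

theorem Frm.u_eq (i : ι) (p : E3) :
    R.u i p = R.u0 i p • R.e0 i p + R.u1 i p • R.e1 i p + R.u2 i p • R.e2 i p := rfl

theorem Frm.lw_eq (i : ι) (p : E3) : R.lw i p = R.r i p • R.u i p - R.p0 i p • R.e0 i p := rfl

theorem Frm.u1_zero (h : L.g1 = 0) (i : ι) (p : E3) : R.u1 i p = 0 := by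
  simp [Frm.u1, Loop.u1, h]

theorem Frm.mean_u01 : Eo (mean fun i p => R.u0 i p * R.u1 i p) 0 := by
  intro i p hp
  rw [mean_eq_int (R.per_u0.map₂ R.per_u1 fun _ x y => x * y) i hp]
  simp only [Frm.u0, Frm.u1, R.slow_s i p hp]
  exact L.int_u01 _

theorem Frm.mean_u02 : Eo (mean fun i p => R.u0 i p * R.u2 i p) 0 := by
  intro i p hp
  rw [mean_eq_int (R.per_u0.map₂ R.per_u2 fun _ x y => x * y) i hp]
  simp only [Frm.u0, Frm.u2, R.slow_s i p hp]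
  exact L.int_u02 _

theorem Frm.mean_u12 : Eo (mean fun i p => R.u1 i p * R.u2 i p) 0 := by
  intro i p hp
  rw [mean_eq_int (R.per_u1.map₂ R.per_u2 fun _ x y => x * y) i hp]
  simp only [Frm.u1, Frm.u2, R.slow_s i p hp]
  exact L.int_u12 _

theorem Frm.lw_slice_FrmM (i : ι) {p : E3} (hp : p ∈ Om) (θ : ℝ) : R.lw i (p.1, θ) =
    L.lw (R.p0 i p) (R.a i p) (R.e0 i p) (R.e1 i p) (R.e2 i p) θ := by
  simp only [Frm.lw, R.slow_p0 i p hp, R.sa i p hp, R.s0 i p hp, R.s1 i p hp, R.s2 i p hp]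

theorem Frm.lw_eq_FrmM (i : ι) (p : E3) : R.lw i p = (R.r i p * R.u0 i p - R.p0 i p) • R.e0 i p +
    (R.r i p * R.u1 i p) • R.e1 i p + (R.r i p * R.u2 i p) • R.e2 i p := by
  rw [R.lw_eq, R.u_eq]
  module

theorem Frm.fr_FrmM (i : ι) {p : E3} (hp : p ∈ Om) (x0 x1 x2 y0 y1 y2 : ℝ) :
    ⟪x0 • R.e0 i p + x1 • R.e1 i p + x2 • R.e2 i p,
      y0 • R.e0 i p + y1 • R.e1 i p + y2 • R.e2 i p⟫ = x0 * y0 + x1 * y1 + x2 * y2 := by
  obtain ⟨h0, h1, h2, h3, h4, h5⟩ := R.orth i p hp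
  simp only [inner_add_left, inner_add_right, real_inner_smul_left, real_inner_smul_right,
    real_inner_self_eq_norm_sq, h0, h1, h2, h3, h4, h5, real_inner_comm (R.e0 i p) (R.e1 i p),
    real_inner_comm (R.e0 i p) (R.e2 i p), real_inner_comm (R.e1 i p) (R.e2 i p)]
  ring

theorem Frm.FX_FrmM (i : ι) {p : E3} (hp : p ∈ Om) (x0 x1 x2 : ℝ) (h1 : L.g1 = 0 → x1 = 0) :
    ⟪R.FX i p, x0 • R.e0 i p + x1 • R.e1 i p + x2 • R.e2 i p⟫ = R.p0 i p * x0 := by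
  have h : x1 * ⟪R.FX i p, R.e1 i p⟫ = 0 := by
    rcases R.oX1 with h | h
    · rw [h1 h, zero_mul]
    · rw [h i p hp, mul_zero]
  simp only [inner_add_right, real_inner_smul_right, h, R.oX2 i p hp, Frm.p0]
  ring

theorem Frm.key_FrmM (i : ι) {p : E3} (hp : p ∈ Om) :
    2 * ⟪R.FX i p, R.lw i p⟫ + ‖R.lw i p‖ ^ 2 = R.a i p ^ 2 := by
  have h1 := R.sum_sq i hp
  have h2 : R.r i p ^ 2 = R.p0 i p ^ 2 + R.a i p ^ 2 := rr_sq _ _
  rw [← real_inner_self_eq_norm_sq, R.lw_eq_FrmM, R.fr_FrmM i hp,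
    R.FX_FrmM i hp _ _ _ fun h => by rw [R.u1_zero h, mul_zero]]
  linear_combination R.r i p ^ 2 * h1 + h2

theorem Frm.mean_lw : Eo (mean R.lw) 0 := by
  intro i p hp
  obtain ⟨c0, c1, c2⟩ := L.cont_u (ss (R.p0 i p) (R.a i p))
  have k : ∀ {g : ℝ → ℝ} (v : E4), Continuous g →
      IntervalIntegrable (fun x => g x • v) MeasureTheory.volume 0 1 := fun v hg =>
    (hg.smul continuous_const).intervalIntegrable 0 1
  have k0 := k (R.e0 i p) c0
  have k1 := k (R.e1 i p) c1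
  have k2 := k (R.e2 i p) c2
  have k3 : IntervalIntegrable (fun x => rr (R.p0 i p) (R.a i p) •
      (L.u0 (ss (R.p0 i p) (R.a i p)) x • R.e0 i p + L.u1 (ss (R.p0 i p) (R.a i p)) x • R.e1 i p +
        L.u2 (ss (R.p0 i p) (R.a i p)) x • R.e2 i p)) MeasureTheory.volume 0 1 :=
    ((k0.add k1).add k2).smul (rr (R.p0 i p) (R.a i p))
  have hr := (rr_pos (R.p0_pos i hp) (R.a i p)).ne'
  rw [mean_eq_int R.per_lw i hp]
  simp only [R.lw_slice_FrmM i hp, Loop.lw, Loop.u]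
  rw [intervalIntegral.integral_sub k3 intervalIntegrable_const,
    intervalIntegral.integral_smul, intervalIntegral.integral_add (k0.add k1) k2,
    intervalIntegral.integral_add k0 k1]
  simp only [intervalIntegral.integral_smul_const, L.int_u0 (R.p0_pos i hp), L.int_u1, L.int_u2]
  simp [smul_smul, mul_div_cancel₀ _ hr]

/-- Inner product of T with a vector written in the frame. -/
theorem Frm.inner_T (i : ι) {p : E3} (hp : p ∈ Om) (x0 x1 x2 : ℝ) (h1 : L.g1 = 0 → x1 = 0) :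
    ⟪R.FX i p + R.lw i p, x0 • R.e0 i p + x1 • R.e1 i p + x2 • R.e2 i p⟫ =
      R.r i p * (R.u0 i p * x0 + R.u1 i p * x1 + R.u2 i p * x2) := by
  rw [inner_add_left, R.FX_FrmM i hp _ _ _ h1, R.lw_eq_FrmM, R.fr_FrmM i hp]
  ring

theorem Frm.norm_T (i : ι) {p : E3} (hp : p ∈ Om) :
    ‖R.FX i p + R.lw i p‖ ^ 2 = ‖R.FX i p‖ ^ 2 + R.a i p ^ 2 := by
  rw [norm_add_sq_real, ← R.key_FrmM i hp]
  ring

theorem Frm.Fy_lw (i : ι) {p : E3} (hp : p ∈ Om) : ⟪R.Fy i p, R.lw i p⟫ = 0 := by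
  obtain ⟨h0, h1, h2⟩ := R.oy i p hp
  simp [R.lw_eq_FrmM, inner_add_right, real_inner_smul_right, h0, h1, h2]

theorem Frm.Fyy_lw (hK : K) (i : ι) {p : E3} (hp : p ∈ Om) :
    ⟪dd vy R.Fy i p, R.lw i p⟫ = 0 := by
  obtain ⟨h0, h1⟩ := R.oyy hK
  simp [R.lw_eq_FrmM, inner_add_right, real_inner_smul_right, (h1 i p hp).1, (h1 i p hp).2,
    R.u1_zero h0]

theorem Frm.lw_even (h1 : L.g1 = 0) (h2 : ∀ θ, L.g2 (-θ) = L.g2 θ) (i : ι) {p : E3}
    (hp : p ∈ Om) : R.lw i (p.1, -p.2) = R.lw i p := by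
  rw [R.lw_slice_FrmM i hp]
  simp [Frm.lw, Loop.lw, Loop.u, Loop.u0, Loop.u1, Loop.u2, Loop.rho, h1, h2]

theorem Frm.dd_lw (i : ι) {p : E3} (hp : p ∈ Om) : dd vt R.lw i p =
    deriv (L.lw (R.p0 i p) (R.a i p) (R.e0 i p) (R.e1 i p) (R.e2 i p)) p.2 := by
  have h := (hasDerivAt_slice R.y_lw.so i hp 0).deriv
  simp only [R.lw_slice_FrmM i hp, add_zero] at h
  rw [← h, deriv_comp_const_add, add_zero]

theorem le_of_sq_le_sq_FrmM {x y : E4} (h : ‖x‖ ^ 2 ≤ ‖y‖ ^ 2) : ‖x‖ ≤ ‖y‖ :=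
  (pow_le_pow_iff_left₀ (norm_nonneg _) (norm_nonneg _) two_ne_zero).1 h

/-- The K step does not decrease independence: for x T + y Fy + t Fyy the part orthogonal to
e0, e2 is the same as with FX in place of T, and the part in their plane has norm |x| r ≥ |x| p0. -/
theorem Frm.geoK (hK : K) (i : ι) {p : E3} (hp : p ∈ Om) {κ : ℝ}
    (h : IndQ κ (mkA P.q (R.FX i p) (R.Fy i p)) (dd vy R.Fy i p)) :
    IndQ κ (mkA P.q (R.FX i p + R.lw i p) (R.Fy i p)) (dd vy R.Fy i p) := by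
  intro ξ t
  refine (h ξ t).trans (le_of_sq_le_sq_FrmM ?_)
  have e : mkA P.q (R.FX i p + R.lw i p) (R.Fy i p) ξ + t • dd vy R.Fy i p =
      (mkA P.q (R.FX i p) (R.Fy i p) ξ + t • dd vy R.Fy i p) + ξ 0 • R.lw i p := by
    simp only [mkA, add_apply, ContinuousLinearMap.smulRight_apply,
      EuclideanSpace.proj, PiLp.proj_apply]
    module
  have e2 : ⟪mkA P.q (R.FX i p) (R.Fy i p) ξ + t • dd vy R.Fy i p, ξ 0 • R.lw i p⟫ =
      ξ 0 ^ 2 * ⟪R.FX i p, R.lw i p⟫ := by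
    simp only [mkA, add_apply, ContinuousLinearMap.smulRight_apply,
      EuclideanSpace.proj, PiLp.proj_apply, inner_add_left, inner_sub_left, real_inner_smul_left,
      real_inner_smul_right, R.Fy_lw i hp, R.Fyy_lw hK i hp]
    ring
  rw [e, norm_add_sq_real _ (ξ 0 • R.lw i p), e2, norm_smul, mul_pow, Real.norm_eq_abs, sq_abs]
  have := mul_nonneg (sq_nonneg (ξ 0)) (sq_nonneg (R.a i p))
  rw [← R.key_FrmM i hp] at this
  linarith

end Vale.Agent.P205
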