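import Vale.Agent.P205.S.YB

/-!
Lower bounds, lifts from the disc, functions of θ.
LB lemmas: elementary (τ ≥ 1, w > 0). LB.inv: an upper bound from the order zero estimate.
Y.lift: iteratedFDeriv of u ∘ fst (ContinuousLinearMap.iteratedFDeriv_comp_right, norm of fst ≤ 1),
Λ ≤ τ. Y.theta: every iterated derivative of a smooth periodic function is periodic, hence bounded
(induction on the order with deriv, Function.Periodic.isBounded_of_continuous,
norm_iteratedFDeriv_eq_norm_iteratedDeriv). dd_lift: chain rule with fst.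
-/

open scoped Manifold ContDiff Topology RealInnerProductSpace
open Set Filter Metric Function

noncomputable section

namespace Vale.Agent.P205

variable {ι : Type} {P : Par ι} {V : Type} [NormedAddCommGroup V] [NormedSpace ℝ V]
  {V₂ : Type} [NormedAddCommGroup V₂] [NormedSpace ℝ V₂]
  {V₃ : Type} [NormedAddCommGroup V₃] [NormedSpace ℝ V₃]
  {a b : ℤ} {t t' : ι → ℝ}

theorem yl_comp {W : Type} [NormedAddCommGroup W] [NormedSpace ℝ W] (L : E3 →L[ℝ] W)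
    (hL : ‖L‖ ≤ 1) {f : W → V} (hf : ContDiff ℝ ∞ f) (j : ℕ) (p : E3) :
    ‖iteratedFDeriv ℝ j (fun p => f (L p)) p‖ ≤ ‖iteratedFDeriv ℝ j f (L p)‖ := by
  have h := L.iteratedFDeriv_comp_right hf p (i := j) (by exact_mod_cast le_top)
  rw [show (fun p => f (L p)) = f ∘ L from rfl, h]
  refine (ContinuousMultilinearMap.norm_compContinuousLinearMap_le _ _).trans ?_
  exact mul_le_of_le_one_right (norm_nonneg _)
    (Finset.prod_le_one (fun _ _ => norm_nonneg _) fun _ _ => hL)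

theorem yl_den {p : E3} (hp : p ∈ Om) : 0 < 1 - ‖p.1‖ ^ 2 := by
  have h : ‖p.1‖ < 1 := hp
  nlinarith [norm_nonneg p.1]

theorem yl_lam (P : Par ι) (i : ι) {p : E3} (hp : p ∈ Om) : P.Λ i ≤ P.tau i p := by
  have h := yl_den hp
  have h1 := P.hΛ i
  rw [Par.tau, le_div_iff₀ h]
  nlinarith [sq_nonneg ‖p.1‖]

theorem yl_bdd {u : E2 → V} (hs : ContDiff ℝ ∞ u) (j : ℕ) :
    ∃ C : ℝ, ∀ z ∈ ball (0 : E2) 1, ‖iteratedFDeriv ℝ j u z‖ ≤ C := by
  obtain ⟨C, hC⟩ := (isCompact_closedBall (0 : E2) 1).exists_bound_of_continuousOn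
    (hs.continuous_iteratedFDeriv (m := j) (by exact_mod_cast le_top)).continuousOn
  exact ⟨C, fun z hz => hC z (ball_subset_closedBall hz)⟩

theorem yl_per {g : ℝ → V} (hp : Periodic g 1) (j : ℕ) : Periodic (iteratedDeriv j g) 1 := by
  intro x
  have h : (fun z => g (z + 1)) = g := funext hp
  have h2 := congrFun (iteratedDeriv_comp_add_const j g 1) x
  rw [h] at h2
  exact h2.symm

theorem LB.pos {u : ι → E3 → ℝ} (h : LB P a u) (i : ι) {p : E3} (hp : p ∈ Om) : 0 < u i p := by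
  obtain ⟨c, m, hc, h⟩ := h
  have h1 := P.w_pos i hp
  have h2 := P.one_le_tau i hp
  exact (mul_pos_iff_of_pos_right (by positivity)).mp
    (lt_of_lt_of_le (mul_pos hc (zpow_pos h1 a)) (h i p hp))

theorem LB.mono {u v : ι → E3 → ℝ} (h : LB P a u) (e : ∀ i, ∀ p ∈ Om, u i p ≤ v i p) :
    LB P a v := by
  obtain ⟨c, m, hc, h⟩ := h
  refine ⟨c, m, hc, fun i p hp => (h i p hp).trans ?_⟩
  have h2 := P.one_le_tau i hp
  exact mul_le_mul_of_nonneg_right (e i p hp) (by positivity)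

theorem LB.mul {u v : ι → E3 → ℝ} (hu : LB P a u) (hv : LB P b v) :
    LB P (a + b) (fun i p => u i p * v i p) := by
  obtain ⟨c, m, hc, h⟩ := hu
  obtain ⟨c', m', hc', h'⟩ := hv
  refine ⟨c * c', m + m', mul_pos hc hc', fun i p hp => ?_⟩
  have h1 := P.w_pos i hp
  have h3 : 0 ≤ c * P.w i p ^ a := (mul_pos hc (zpow_pos h1 a)).le
  have h4 : 0 ≤ c' * P.w i p ^ b := (mul_pos hc' (zpow_pos h1 b)).le
  have := mul_le_mul (h i p hp) (h' i p hp) h4 (h3.trans (h i p hp))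
  rw [zpow_add₀ h1.ne', pow_add]
  linarith

theorem LB.mul0 {u v : ι → E3 → ℝ} (hu : LB P 0 u) (hv : LB P a v) :
    LB P a (fun i p => u i p * v i p) := by
  simpa only [zero_add] using hu.mul hv

theorem LB.const {c : ℝ} (hc : 0 < c) : LB P 0 (fun _ _ => c) :=
  ⟨c, 0, hc, fun i p _ => by simp⟩

theorem LB.inv {u : ι → E3 → ℝ} (hu : Y P 0 1 u) (h : ∀ i, ∀ p ∈ Om, 0 < u i p) :
    LB P 0 (fun i p => (u i p)⁻¹) := by
  obtain ⟨C, m, hC, hb⟩ := hu.2.2 0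
  refine ⟨(C + 1)⁻¹, m, by positivity, fun i p hp => ?_⟩
  have h1 := hb i p hp
  have h2 := P.one_le_tau i hp
  have h3 := h i p hp
  simp only [norm_iteratedFDeriv_zero, zpow_zero, Pi.one_apply, mul_one, pow_zero,
    Real.norm_of_nonneg h3.le] at h1
  have h4 : 0 < P.tau i p ^ m := by positivity
  show (C + 1)⁻¹ * P.w i p ^ (0 : ℤ) ≤ (u i p)⁻¹ * P.tau i p ^ m
  rw [zpow_zero, mul_one, le_inv_mul_iff₀ h3, mul_inv_le_iff₀ (by positivity)]
  nlinarith

theorem LB.sqrt {u : ι → E3 → ℝ} (h : LB P 0 u) : LB P 0 (fun i p => √(u i p)) := by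
  obtain ⟨c, m, hc, h⟩ := h
  refine ⟨√c, m, Real.sqrt_pos.mpr hc, fun i p hp => ?_⟩
  have h1 := h i p hp
  have h2 := P.one_le_tau i hp
  have h3 : 1 ≤ P.tau i p ^ m := one_le_pow₀ h2
  rw [zpow_zero, mul_one] at h1 ⊢
  have h4 : 0 ≤ u i p := nonneg_of_mul_nonneg_left (hc.le.trans h1) (by linarith)
  calc √c ≤ √(u i p * (P.tau i p ^ m) ^ 2) := by
        refine Real.sqrt_le_sqrt (h1.trans (mul_le_mul_of_nonneg_left ?_ h4))
        nlinarith
    _ = √(u i p) * P.tau i p ^ m := by rw [Real.sqrt_mul h4, Real.sqrt_sq (by linarith)]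

theorem LB.wt : LB P 1 P.w :=
  ⟨1, 0, one_pos, fun i p _ => by simp⟩

theorem LB.of_lam {u : ι → E3 → ℝ} {c : ℝ} {m : ℕ} (hc : 0 < c)
    (h : ∀ i, ∀ p ∈ Om, c / P.Λ i ^ m ≤ u i p) : LB P 0 u := by
  refine ⟨c, m, hc, fun i p hp => ?_⟩
  have h1 := h i p hp
  have h2 := P.hΛ i
  have h3 : 0 < P.Λ i ^ m := by positivity
  have h4 : 0 ≤ u i p := (div_pos hc h3).le.trans h1
  rw [div_le_iff₀ h3] at h1
  rw [zpow_zero, mul_one]
  exact h1.trans (mul_le_mul_of_nonneg_left (pow_le_pow_left₀ (by linarith) (yl_lam P i hp) m) h4)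

theorem Y.lift {u : ι → E2 → V} (hs : ∀ i, ContDiff ℝ ∞ (u i)) (h : PB P.Λ P.μ u) :
    Y P 0 1 (fun i p => u i p.1) := by
  refine ⟨fun _ => zero_le_one, fun i => ((hs i).comp contDiff_fst).contDiffOn, fun j => ?_⟩
  obtain ⟨C, m, hC⟩ := h j
  refine ⟨|C|, m, abs_nonneg C, fun i p hp => ?_⟩
  refine (yl_comp (ContinuousLinearMap.fst ℝ E2 ℝ) (ContinuousLinearMap.norm_fst_le _ _ _)
    (hs i) j p).trans ((hC i p.1 (mem_ball_zero_iff.mpr hp)).trans ?_)
  have h1 := P.hΛ i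
  have h2 := P.hμ i
  rw [zpow_zero, Pi.one_apply, mul_one, mul_one]
  refine mul_le_mul_of_nonneg_right ?_ (by positivity)
  exact mul_le_mul (le_abs_self C) (pow_le_pow_left₀ (by linarith) (yl_lam P i hp) m)
    (by positivity) (abs_nonneg C)

theorem Y.theta {g : ℝ → V} (hs : ContDiff ℝ ∞ g) (hp : Periodic g 1) :
    Y P 0 1 (fun _ p => g p.2) := by
  refine ⟨fun _ => zero_le_one, fun i => (hs.comp contDiff_snd).contDiffOn, fun j => ?_⟩
  obtain ⟨C, hC⟩ := ((yl_per hp j).isBounded_of_continuous one_ne_zero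
    (hs.continuous_iteratedDeriv j (by exact_mod_cast le_top))).exists_norm_le
  refine ⟨|C|, 0, abs_nonneg C, fun i p _ => ?_⟩
  refine (yl_comp (ContinuousLinearMap.snd ℝ E2 ℝ) (ContinuousLinearMap.norm_snd_le _ _ _)
    hs j p).trans ?_
  rw [norm_iteratedFDeriv_eq_norm_iteratedDeriv, zpow_zero, Pi.one_apply, pow_zero, mul_one,
    mul_one, mul_one]
  exact ((hC _ (mem_range_self _)).trans (le_abs_self C)).trans
    (le_mul_of_one_le_right (abs_nonneg C) (one_le_pow₀ (P.hμ i)))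

theorem Y.coord (k : Fin 2) : Y P 0 1 (fun _ p => p.1 k) := by
  have hs : ContDiff ℝ ∞ (fun z : E2 => z k) := (EuclideanSpace.proj k : E2 →L[ℝ] ℝ).contDiff
  refine Y.lift (u := fun _ z => z k) (fun _ => hs) fun j => ?_
  obtain ⟨C, hC⟩ := yl_bdd hs j
  refine ⟨|C|, 0, fun i z hz => ((hC z hz).trans (le_abs_self C)).trans ?_⟩
  rw [pow_zero, mul_one]
  exact le_mul_of_one_le_right (abs_nonneg C) (one_le_pow₀ (P.hμ i))

theorem dd_lift {u : ι → E2 → V} (hs : ∀ i, ContDiff ℝ ∞ (u i)) (v : E3) (i : ι) (p : E3) :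
    dd v (fun i p => u i p.1) i p = fderiv ℝ (u i) p.1 v.1 := by
  have h := (((hs i).differentiable (by simp)) p.1).hasFDerivAt.comp p hasFDerivAt_fst
  exact congrArg (fun L : E3 →L[ℝ] V => L v) h.fderiv

/-- A fixed smooth function has polynomial bounds. -/
theorem pb_const {u : E2 → V} (hs : ContDiff ℝ ∞ u) : PB (fun _ : ι => 1) (fun _ => 1)
    (fun _ => u) := by
  intro j
  obtain ⟨C, hC⟩ := yl_bdd hs j
  exact ⟨C, 0, fun i z hz => by simpa using hC z hz⟩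

/-- τ^m w is bounded. -/
theorem tau_pow_mul_w (m : ℕ) : ∃ C : ℝ, 0 ≤ C ∧ ∀ (P : Par ι) i, ∀ p ∈ Om,
    P.tau i p ^ m * P.w i p ≤ C * P.Λ i ^ m * P.s0 i := by
  refine ⟨m.factorial, by positivity, fun P i p hp => ?_⟩
  have h := yl_den hp
  have h1 := P.hΛ i
  have h2 := P.hs0 i
  have h3 := Real.pow_div_factorial_le_exp (1 - ‖p.1‖ ^ 2)⁻¹ (inv_pos.mpr h).le m
  have h4 : (1 - ‖p.1‖ ^ 2)⁻¹ ^ m * Real.exp (-(1 - ‖p.1‖ ^ 2)⁻¹) ≤ m.factorial := by
    rw [Real.exp_neg, mul_inv_le_iff₀ (Real.exp_pos _)]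
    rwa [div_le_iff₀ (by positivity), mul_comm] at h3
  rw [Par.tau, Par.w, wt, expNegInvGlue, if_neg (not_le.mpr h), div_eq_mul_inv, mul_pow]
  calc _ = ((1 - ‖p.1‖ ^ 2)⁻¹ ^ m * Real.exp (-(1 - ‖p.1‖ ^ 2)⁻¹)) * (P.Λ i ^ m * P.s0 i) := by
        ring
    _ ≤ m.factorial * (P.Λ i ^ m * P.s0 i) := mul_le_mul_of_nonneg_right h4 (by positivity)
    _ = _ := by ring

theorem Y.sup {u : ι → E3 → V} (hu : Y P 1 t u) : ∃ (C : ℝ) (m : ℕ), 0 ≤ C ∧ ∀ i, ∀ p ∈ Om,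
    ‖u i p‖ ≤ C * P.Λ i ^ m * P.s0 i * t i := by
  obtain ⟨C, m, hC, hb⟩ := hu.2.2 0
  obtain ⟨C', hC', h'⟩ := tau_pow_mul_w (ι := ι) m
  refine ⟨C * C', m, by positivity, fun i p hp => ?_⟩
  have h1 := hb i p hp
  rw [norm_iteratedFDeriv_zero, zpow_one, pow_zero, mul_one] at h1
  refine h1.trans (mul_le_mul_of_nonneg_right ?_ (hu.1 i))
  have := mul_le_mul_of_nonneg_left (h' P i p hp) hC
  linarith

end Vale.Agent.P205
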