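import Vale.Agent.P205.S.PInt
import Vale.Agent.P205.S.YL

/-!
mean, anti, inty, shift act on the class Y.
mean, anti: G s x = u (x + (0, s)); iteratedFDeriv_comp_add_right; τ and w do not depend on θ.
inty: the map x ↦ (x.1 - ((1 - s) x.1 1) ey, x.2) is linear of norm ≤ 1 for s in [0,1] and does not
increase |x.1|, so τ decreases; take U = the open set of (s, x) whose image lies in Om.
Y.shift (μ = 1): norm_iteratedFDerivWithin_comp_le with inner map
x ↦ x + φ x • vt, whose derivatives of order k ≥ 1 are at most D^k, D = (C + 2) τ^m.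
-/

open scoped Manifold ContDiff Topology RealInnerProductSpace
open Set Filter Metric Function

noncomputable section

namespace Vale.Agent.P205

variable {ι : Type} {P : Par ι} {V : Type} [NormedAddCommGroup V] [NormedSpace ℝ V]
  {V₂ : Type} [NormedAddCommGroup V₂] [NormedSpace ℝ V₂]
  {V₃ : Type} [NormedAddCommGroup V₃] [NormedSpace ℝ V₃]
  {a b : ℤ} {t t' : ι → ℝ}

theorem yi_open : IsOpen ((univ : Set ℝ) ×ˢ Om) := isOpen_univ.prod isOpen_Om

theorem yi_sub : Icc (0 : ℝ) 1 ×ˢ Om ⊆ (univ : Set ℝ) ×ˢ Om := prod_mono (subset_univ _) subset_rfl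

theorem yi_sm {u : ι → E3 → V} (hu : So u) (i : ι) :
    ContDiffOn ℝ ∞ (uncurry fun (s : ℝ) (x : E3) => u i (x.1, x.2 + s)) (univ ×ˢ Om) :=
  (hu i).comp (f := fun q : ℝ × E3 => ((q.2.1, q.2.2 + q.1) : E3)) (by fun_prop)
    fun _ hq => hq.2

theorem yi_sm2 {u : ι → E3 → V} (hu : So u) (i : ι) :
    ContDiffOn ℝ ∞ (uncurry fun (s : ℝ) (x : E3) => (s - 1 / 2) • u i (x.1, x.2 + s))
      (univ ×ˢ Om) :=
  ContDiffOn.smul (f := fun q : ℝ × E3 => q.1 - 1 / 2) (by fun_prop) (yi_sm hu i)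

omit [NormedAddCommGroup V] [NormedSpace ℝ V] in
theorem yi_eq (f : E3 → V) (s : ℝ) :
    (fun x : E3 => f (x.1, x.2 + s)) = fun x => f (x + (0, s)) := by
  funext x
  congr 1
  ext <;> simp

theorem yi_tr (f : E3 → V) (s : ℝ) (j : ℕ) (p : E3) :
    iteratedFDeriv ℝ j (fun x : E3 => f (x.1, x.2 + s)) p =
      iteratedFDeriv ℝ j f (p.1, p.2 + s) := by
  rw [yi_eq, iteratedFDeriv_comp_add_right]
  congr 1
  ext <;> simp

theorem yi_fd (f : E3 → V) (s : ℝ) (p : E3) :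
    fderiv ℝ (fun x : E3 => f (x.1, x.2 + s)) p = fderiv ℝ f (p.1, p.2 + s) := by
  rw [yi_eq, fderiv_comp_add_right]
  congr 1
  ext <;> simp

theorem yi_at {u : ι → E3 → V} (hu : So u) (i : ι) {p : E3} (hp : p ∈ Om) (s : ℝ) :
    ContDiffAt ℝ ∞ (fun x : E3 => u i (x.1, x.2 + s)) p :=
  ContDiffAt.comp (f := fun x : E3 => ((x.1, x.2 + s) : E3)) p
    ((hu i).contDiffAt (isOpen_Om.mem_nhds (mem_Om hp _))) (by fun_prop)

/-- The linear map that contracts the coordinate y. -/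
def yi_A (s : ℝ) : E3 →L[ℝ] E3 :=
  (ContinuousLinearMap.fst ℝ E2 ℝ - (1 - s) • (((EuclideanSpace.proj (1 : Fin 2) : E2 →L[ℝ] ℝ).comp
    (ContinuousLinearMap.fst ℝ E2 ℝ)).smulRight ey)).prod (ContinuousLinearMap.snd ℝ E2 ℝ)

theorem yi_A_apply (s : ℝ) (p : E3) : yi_A s p = (p.1 - ((1 - s) * p.1 1) • ey, p.2) := by
  simp [yi_A, mul_smul]

theorem yi_A_fst {s : ℝ} (hs : s ∈ Icc (0 : ℝ) 1) (p : E3) : ‖(yi_A s p).1‖ ≤ ‖p.1‖ := by
  rw [yi_A_apply]
  refine abs_le_of_sq_le_sq' ?_ (norm_nonneg _) |>.2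
  rw [EuclideanSpace.real_norm_sq_eq, EuclideanSpace.real_norm_sq_eq]
  simp only [Fin.sum_univ_two, ey, PiLp.sub_apply, PiLp.smul_apply, smul_eq_mul]
  have h0 : (EuclideanSpace.single (1 : Fin 2) (1 : ℝ)) 0 = 0 := by simp
  have h1 : (EuclideanSpace.single (1 : Fin 2) (1 : ℝ)) 1 = 1 := by simp
  rw [h0, h1]
  have h2 : s ^ 2 ≤ 1 := by nlinarith [hs.1, hs.2]
  nlinarith [mul_le_mul_of_nonneg_right h2 (sq_nonneg (p.1 1))]

theorem yi_A_norm {s : ℝ} (hs : s ∈ Icc (0 : ℝ) 1) : ‖yi_A s‖ ≤ 1 := by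
  refine ContinuousLinearMap.opNorm_le_bound _ zero_le_one fun p => ?_
  rw [one_mul, Prod.norm_def, Prod.norm_def]
  refine max_le_max (yi_A_fst hs p) ?_
  rw [yi_A_apply]

theorem yi_A_sm : ContDiff ℝ ∞ fun q : ℝ × E3 => yi_A q.1 q.2 := by
  simp only [yi_A_apply]
  fun_prop

theorem yi_open2 : IsOpen {q : ℝ × E3 | yi_A q.1 q.2 ∈ Om} :=
  isOpen_Om.preimage yi_A_sm.continuous

theorem yi_sub2 : Icc (0 : ℝ) 1 ×ˢ Om ⊆ {q : ℝ × E3 | yi_A q.1 q.2 ∈ Om} := fun q hq =>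
  (yi_A_fst hq.1 q.2).trans_lt hq.2

theorem yi_sm3 {u : ι → E3 → V} (hu : So u) (i : ι) :
    ContDiffOn ℝ ∞ (uncurry fun (s : ℝ) (x : E3) => u i (yi_A s x))
      {q : ℝ × E3 | yi_A q.1 q.2 ∈ Om} :=
  (hu i).comp (f := fun q : ℝ × E3 => yi_A q.1 q.2) yi_A_sm.contDiffOn fun _ hq => hq

theorem yi_comp {f : E3 → V} (hf : ContDiffOn ℝ ∞ f Om) (A : E3 →L[ℝ] E3) (hA : ‖A‖ ≤ 1) (j : ℕ)
    {p : E3} (hp : A p ∈ Om) :
    ‖iteratedFDeriv ℝ j (fun x => f (A x)) p‖ ≤ ‖iteratedFDeriv ℝ j f (A p)‖ := by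
  have ho : IsOpen (A ⁻¹' Om) := isOpen_Om.preimage A.continuous
  have h := A.iteratedFDerivWithin_comp_right hf isOpen_Om.uniqueDiffOn ho.uniqueDiffOn hp
    (i := j) (by exact_mod_cast le_top)
  rw [iteratedFDerivWithin_of_isOpen j ho hp, iteratedFDerivWithin_of_isOpen j isOpen_Om hp] at h
  refine (congrArg norm h).trans_le
    ((ContinuousMultilinearMap.norm_compContinuousLinearMap_le _ _).trans ?_)
  exact mul_le_of_le_one_right (norm_nonneg _)
    (Finset.prod_le_one (fun _ _ => norm_nonneg _) fun _ _ => hA)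

theorem yi_id {k : ℕ} (hk : 1 ≤ k) (p : E3) : ‖iteratedFDeriv ℝ k (fun x : E3 => x) p‖ ≤ 1 := by
  obtain ⟨k, rfl⟩ := Nat.exists_eq_add_of_le' hk
  have e : fderiv ℝ (fun x : E3 => x) = fun _ => ContinuousLinearMap.id ℝ E3 :=
    funext fun _ => fderiv_fun_id
  rw [← norm_iteratedFDeriv_fderiv, e]
  rcases Nat.eq_zero_or_pos k with rfl | h
  · rw [norm_iteratedFDeriv_zero]
    exact ContinuousLinearMap.norm_id_le
  · rw [iteratedFDeriv_const_of_ne h.ne']
    simp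

theorem So.mean [CompleteSpace V] {u : ι → E3 → V} (hu : So u) : So (mean u) := by
  exact fun i => pint_smooth (G := fun s x => u i (x.1, x.2 + s)) yi_open yi_sub (yi_sm hu i)

theorem So.anti [CompleteSpace V] {u : ι → E3 → V} (hu : So u) : So (anti u) := by
  exact fun i => pint_smooth (G := fun s x => (s - 1 / 2) • u i (x.1, x.2 + s)) yi_open yi_sub
    (yi_sm2 hu i)

theorem Y.mean [CompleteSpace V] {u : ι → E3 → V} (hu : Y P a t u) : Y P a t (mean u) := by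
  refine ⟨hu.1, hu.so.mean, fun j => ?_⟩
  obtain ⟨C, m, hC, h⟩ := hu.2.2 j
  refine ⟨C, m, hC, fun i p hp => ?_⟩
  refine pint_bound (G := fun s x => u i (x.1, x.2 + s)) yi_open yi_sub (yi_sm hu.so i) j hp
    fun s _ => ?_
  rw [yi_tr]
  exact h i (p.1, p.2 + s) hp

theorem Y.anti [CompleteSpace V] {u : ι → E3 → V} (hu : Y P a t u) : Y P a t (anti u) := by
  refine ⟨hu.1, hu.so.anti, fun j => ?_⟩
  obtain ⟨C, m, hC, h⟩ := hu.2.2 j
  refine ⟨C, m, hC, fun i p hp => ?_⟩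
  refine pint_bound (G := fun s x => (s - 1 / 2) • u i (x.1, x.2 + s)) yi_open yi_sub
    (yi_sm2 hu.so i) j hp fun s hs => ?_
  rw [iteratedFDeriv_const_smul_apply' ((yi_at hu.so i hp s).of_le (by exact_mod_cast le_top)),
    yi_tr, norm_smul]
  have h1 : ‖s - 1 / 2‖ ≤ 1 := by
    rw [Real.norm_eq_abs, abs_le]
    constructor <;> linarith [hs.1, hs.2]
  exact (mul_le_of_le_one_left (norm_nonneg _) h1).trans (h i (p.1, p.2 + s) hp)

theorem Y.inty [CompleteSpace V] {u : ι → E3 → V} (hu : Y P 0 t u) : Y P 0 t (inty u) := by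
  have e : Vale.Agent.P205.inty u = fun i p => p.1 1 • ∫ s in (0 : ℝ)..1, u i (yi_A s p) := by
    funext i p
    simp only [Vale.Agent.P205.inty, yi_A_apply]
  rw [e]
  refine Y.smul0 (Y.coord 1) (v := fun i p => ∫ s in (0 : ℝ)..1, u i (yi_A s p)) ⟨hu.1, fun i =>
    pint_smooth (G := fun s x => u i (yi_A s x)) yi_open2 yi_sub2 (yi_sm3 hu.so i), fun j => ?_⟩
  obtain ⟨C, m, hC, h⟩ := hu.2.2 j
  refine ⟨C, m, hC, fun i p hp => ?_⟩
  refine pint_bound (G := fun s x => u i (yi_A s x)) yi_open2 yi_sub2 (yi_sm3 hu.so i) j hp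
    fun s hs => ?_
  have hq : yi_A s p ∈ Om := (yi_A_fst hs p).trans_lt hp
  refine (yi_comp (hu.so i) (yi_A s) (yi_A_norm hs) j hq).trans ((h i _ hq).trans ?_)
  have h1 : P.tau i (yi_A s p) ≤ P.tau i p := by
    have h2 : ‖p.1‖ < 1 := hp
    have h3 := yi_A_fst hs p
    have h4 := norm_nonneg p.1
    have h5 := norm_nonneg (yi_A s p).1
    refine div_le_div_of_nonneg_left (zero_le_one.trans (P.hΛ i)) (by nlinarith) (by nlinarith)
  have h6 := zero_le_one.trans (P.one_le_tau i hq)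
  have h7 := zero_le_one.trans (P.hμ i)
  have h8 := hu.1 i
  simp only [zpow_zero, mul_one]
  gcongr

theorem dd_mean [CompleteSpace V] {u : ι → E3 → V} (hu : So u) (v : E3) :
    Eo (dd v (mean u)) (mean (dd v u)) := by
  intro i p hp
  refine (pint_fderiv_apply (G := fun s x => u i (x.1, x.2 + s)) yi_open yi_sub (yi_sm hu i) hp
    v).trans ?_
  simp only [yi_fd]
  rfl

theorem dd_anti [CompleteSpace V] {u : ι → E3 → V} (hu : So u) (v : E3) :
    Eo (dd v (anti u)) (anti (dd v u)) := by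
  intro i p hp
  refine (pint_fderiv_apply (G := fun s x => (s - 1 / 2) • u i (x.1, x.2 + s)) yi_open yi_sub
    (yi_sm2 hu i) hp v).trans ?_
  refine intervalIntegral.integral_congr fun s _ => ?_
  beta_reduce
  rw [fderiv_fun_const_smul ((yi_at hu i hp s).differentiableAt (by simp)), yi_fd]
  rfl

theorem Y.shift (hμ : ∀ i, P.μ i = 1) {φ : ι → E3 → ℝ} (hφ : Y P 0 1 φ) {u : ι → E3 → V}
    (hu : Y P a t u) : Y P a t (shift φ u) := by
  have hψ := hφ.clm (ContinuousLinearMap.inr ℝ E2 ℝ)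
  have e : ∀ i, Vale.Agent.P205.shift φ u i =
      u i ∘ fun p => p + ContinuousLinearMap.inr ℝ E2 ℝ (φ i p) := fun i => funext fun p => by
    simp only [Vale.Agent.P205.shift, comp, ContinuousLinearMap.inr_apply]
    congr 1
    ext <;> simp
  have hm : ∀ i, MapsTo (fun p => p + ContinuousLinearMap.inr ℝ E2 ℝ (φ i p)) Om Om :=
    fun i p hp => by simpa [Om] using hp
  have hs : ∀ i, ContDiffOn ℝ ∞ (fun p => p + ContinuousLinearMap.inr ℝ E2 ℝ (φ i p)) Om :=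
    fun i => contDiffOn_id.add (hψ.so i)
  refine ⟨hu.1, fun i => by rw [e]; exact (hu.so i).comp (hs i) (hm i), fun j => ?_⟩
  obtain ⟨C, m, hC, h⟩ := hu.upto j
  obtain ⟨D, n, hD, h'⟩ := hψ.upto j
  refine ⟨j.factorial * C * (D + 1) ^ j, m + n * j, by positivity, fun i p hp => ?_⟩
  have hτ := P.one_le_tau i hp
  have hτn : 1 ≤ P.tau i p ^ n := one_le_pow₀ hτ
  have hj : ((j : ℕ∞) : WithTop ℕ∞) ≤ ∞ := by exact_mod_cast le_top
  have key := norm_iteratedFDerivWithin_comp_le (n := j) (hu.so i) (hs i) hj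
    isOpen_Om.uniqueDiffOn isOpen_Om.uniqueDiffOn (hm i) hp
    (C := C * P.tau i p ^ m * P.w i p ^ a * t i) (D := (D + 1) * P.tau i p ^ n)
    (fun k hk => by
      rw [iteratedFDerivWithin_of_isOpen k isOpen_Om (hm i hp)]
      have h1 := h k hk i _ (hm i hp)
      simpa [hμ, Par.tau, Par.w] using h1)
    (fun k hk1 hk => by
      have h1 := h' k hk i p hp
      simp only [hμ, zpow_zero, Pi.one_apply, one_pow, mul_one] at h1
      have hk' : ((k : ℕ∞) : WithTop ℕ∞) ≤ ∞ := by exact_mod_cast le_top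
      rw [iteratedFDerivWithin_of_isOpen k isOpen_Om hp,
        fun_iteratedFDeriv_add_apply (f := fun p : E3 => p) contDiffAt_id
          (((hψ.so i).contDiffAt (isOpen_Om.mem_nhds hp)).of_le hk')]
      refine (norm_add_le _ _).trans ((add_le_add (yi_id hk1 p) h1).trans ?_)
      refine le_trans ?_ (le_self_pow₀ (by nlinarith) (by omega))
      nlinarith)
  rw [iteratedFDerivWithin_of_isOpen j isOpen_Om hp] at key
  rw [e]
  refine key.trans_eq ?_
  rw [hμ, mul_pow, pow_add, pow_mul]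
  ring

end Vale.Agent.P205
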