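import Vale.Agent.P205.S.DD
import Vale.Agent.P205.S.YI

/-!
Identities for mean, anti, inty.
Integrability: continuous_slice. mean_dd_vt: fundamental theorem of calculus with hasDerivAt_slice.
Per.slow_mean, mean_shift: Function.Periodic.intervalIntegral_add_eq for θ ↦ u (z, θ).
dd_vt_anti: dd_anti, then integration by parts (intervalIntegral.integral_smul_deriv_eq_deriv_smul).
mean_anti: anti commutes with mean (Fubini on the square, or: mean (anti u) = anti (mean u) and the
integral of s - 1/2 vanishes). dd_vy_inty: along the line y ↦ p + y vy the function is the integral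
of u from 0 to y (substitution), FTC; compare with the fderiv (inty u is differentiable, Y.inty
style smoothness: prove So.inty here or copy the argument of YI).
-/

open scoped Manifold ContDiff Topology RealInnerProductSpace
open Set Filter Metric Function

noncomputable section

namespace Vale.Agent.P205

variable {ι : Type} {P : Par ι} {V : Type} [NormedAddCommGroup V] [NormedSpace ℝ V]
  {V₂ : Type} [NormedAddCommGroup V₂] [NormedSpace ℝ V₂]
  {V₃ : Type} [NormedAddCommGroup V₃] [NormedSpace ℝ V₃]
  {a b : ℤ} {t t' : ι → ℝ}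

omit [NormedAddCommGroup V] [NormedSpace ℝ V] in
theorem Per.periodic_slice {u : ι → E3 → V} (hp : Per u) (i : ι) {p : E3} (h : p ∈ Om) :
    Periodic (fun θ : ℝ => u i (p.1, θ)) 1 := fun θ => hp i (p.1, θ) (mem_Om h θ)

theorem mean_eq_int_aux {u : ι → E3 → V} (hp : Per u) (i : ι) {p : E3} (h : p ∈ Om) (c : ℝ) :
    ∫ s in (0 : ℝ)..1, u i (p.1, c + s) = ∫ s in (0 : ℝ)..1, u i (p.1, s) := by
  have h1 := intervalIntegral.integral_comp_add_left (a := 0) (b := 1)
    (fun θ : ℝ => u i (p.1, θ)) c
  have h2 := (hp.periodic_slice i h).intervalIntegral_add_eq c 0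
  simp only [add_zero, zero_add] at h1 h2
  rw [h1, h2]

theorem mean_int_half : ∫ s in (0 : ℝ)..1, (s - 1 / 2) = 0 := by
  rw [intervalIntegral.integral_sub (by simp) (by simp)]
  simp

theorem mean_line_mem {p : E3} (hp : p ∈ Om) {x : ℝ} (hx : |x| ≤ |p.1 1|) :
    ((p.1 - p.1 1 • ey + x • ey, p.2) : E3) ∈ Om := by
  have h : ‖p.1‖ < 1 := hp
  show ‖p.1 - p.1 1 • ey + x • ey‖ < 1
  refine lt_of_le_of_lt ?_ h
  rw [EuclideanSpace.norm_eq, EuclideanSpace.norm_eq]
  apply Real.sqrt_le_sqrt
  have hx2 : x ^ 2 ≤ p.1 1 ^ 2 := sq_le_sq.2 hx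
  simp [Fin.sum_univ_two, ey, hx2]

variable [CompleteSpace V]

omit [CompleteSpace V] in
theorem mean_congr {u v : ι → E3 → V} (e : Eo u v) : Eo (mean u) (mean v) := by
  intro i p hp
  simp only [mean]
  congr 1
  funext s
  exact e i _ (mem_Om hp _)

omit [CompleteSpace V] in
theorem anti_congr {u v : ι → E3 → V} (e : Eo u v) : Eo (anti u) (anti v) := by
  intro i p hp
  simp only [anti]
  congr 1
  funext s
  rw [e i _ (mem_Om hp _)]

omit [CompleteSpace V] in
theorem mean_add {u v : ι → E3 → V} (hu : So u) (hv : So v) :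
    Eo (mean fun i p => u i p + v i p) (fun i p => mean u i p + mean v i p) := by
  intro i p hp
  simp only [mean]
  exact intervalIntegral.integral_add ((continuous_slice hu i hp).intervalIntegrable _ _)
    ((continuous_slice hv i hp).intervalIntegrable _ _)

omit [CompleteSpace V] in
theorem mean_sub {u v : ι → E3 → V} (hu : So u) (hv : So v) :
    Eo (mean fun i p => u i p - v i p) (fun i p => mean u i p - mean v i p) := by
  intro i p hp
  simp only [mean]
  exact intervalIntegral.integral_sub ((continuous_slice hu i hp).intervalIntegrable _ _)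
    ((continuous_slice hv i hp).intervalIntegrable _ _)

omit [CompleteSpace V] in
theorem mean_csmul (u : ι → E3 → V) (c : ι → ℝ) :
    Eo (mean fun i p => c i • u i p) (fun i p => c i • mean u i p) := by
  intro i p _
  simp only [mean]
  exact intervalIntegral.integral_smul _ _

omit [CompleteSpace V] in
theorem mean_smul_left {f : ι → E3 → ℝ} (hf : Slow f) (u : ι → E3 → V) :
    Eo (mean fun i p => f i p • u i p) (fun i p => f i p • mean u i p) := by
  intro i p hp
  simp only [mean]
  simp only [hf i p hp]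
  exact intervalIntegral.integral_smul _ _

theorem mean_smul_right {f : ι → E3 → ℝ} {u : ι → E3 → V} (hu : Slow u) :
    Eo (mean fun i p => f i p • u i p) (fun i p => mean f i p • u i p) := by
  intro i p hp
  simp only [mean]
  simp only [hu i p hp]
  exact intervalIntegral.integral_smul_const _ _

theorem mean_inner_left {f u : ι → E3 → E4} (hf : Slow f) (hu : So u) :
    Eo (mean fun i p => ⟪f i p, u i p⟫) (fun i p => ⟪f i p, mean u i p⟫) := by
  intro i p hp
  simp only [mean]
  simp only [hf i p hp]
  exact (innerSL ℝ (f i p)).intervalIntegral_comp_comm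
    ((continuous_slice hu i hp).intervalIntegrable _ _)

theorem anti_inner_left {f u : ι → E3 → E4} (hf : Slow f) (hu : So u) :
    Eo (anti fun i p => ⟪f i p, u i p⟫) (fun i p => ⟪f i p, anti u i p⟫) := by
  intro i p hp
  simp only [anti]
  simp only [hf i p hp]
  have hc : Continuous fun s : ℝ => (s - 1 / 2) • u i (p.1, p.2 + s) :=
    (continuous_id.sub continuous_const).smul (continuous_slice hu i hp)
  have h := (innerSL ℝ (f i p)).intervalIntegral_comp_comm (μ := MeasureTheory.volume)
    (hc.intervalIntegrable 0 1)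
  simp only [innerSL_apply_apply, inner_smul_right] at h
  simpa only [smul_eq_mul] using h

theorem Slow.mean_eq {u : ι → E3 → V} (hu : Slow u) : Eo (mean u) u := by
  intro i p hp
  simp only [mean]
  simp only [hu i p hp]
  simp

theorem mean_dd_vt {u : ι → E3 → V} (hu : So u) (hp : Per u) : Eo (mean (dd vt u)) 0 := by
  intro i p h
  simp only [mean]
  rw [intervalIntegral.integral_eq_sub_of_hasDerivAt (fun s _ => hasDerivAt_slice hu i h s)
    ((continuous_slice (hu.dd vt) i h).intervalIntegrable _ _)]
  simp only [add_zero, Pi.zero_apply]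
  rw [hp i p h, sub_self]

omit [CompleteSpace V] in
theorem Per.slow_mean {u : ι → E3 → V} (hp : Per u) : Slow (mean u) := by
  intro i p h θ
  simp only [mean]
  rw [mean_eq_int_aux hp i h, mean_eq_int_aux hp i h]

omit [CompleteSpace V] in
theorem Per.anti {u : ι → E3 → V} (hp : Per u) : Per (anti u) := by
  intro i p h
  simp only [P205.anti]
  congr 1
  funext s
  have := hp.periodic_slice i h (p.2 + s)
  rw [show p.2 + 1 + s = p.2 + s + 1 by ring]
  exact congrArg _ this

theorem dd_vt_anti {u : ι → E3 → V} (hu : So u) (hp : Per u) :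
    Eo (dd vt (anti u)) (fun i p => u i p - mean u i p) := by
  intro i p h
  rw [dd_anti hu vt i p h]
  simp only [anti, mean]
  rw [intervalIntegral.integral_smul_deriv_eq_deriv_smul (u := fun s : ℝ => s - 1 / 2)
    (u' := fun _ => (1 : ℝ)) (fun s _ => (hasDerivAt_id' s).sub_const _)
    (fun s _ => hasDerivAt_slice hu i h s) (by simp)
    ((continuous_slice (hu.dd vt) i h).intervalIntegrable _ _)]
  simp only [add_zero, one_smul]
  rw [hp i p h]
  congr 1
  show (1 - 1 / 2 : ℝ) • u i p - (0 - 1 / 2 : ℝ) • u i p = u i p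
  rw [← sub_smul]
  norm_num

theorem mean_anti {u : ι → E3 → V} (hu : So u) (hp : Per u) : Eo (mean (anti u)) 0 := by
  intro i p h
  simp only [mean, anti, Pi.zero_apply]
  have hc : Continuous fun x : ℝ × ℝ => (x.2 - 1 / 2) • u i (p.1, p.2 + (x.1 + x.2)) :=
    (continuous_snd.sub continuous_const).smul
      ((continuous_slice hu i h).comp (continuous_fst.add continuous_snd))
  have hi : MeasureTheory.IntegrableOn
      (uncurry fun r s : ℝ => (s - 1 / 2) • u i (p.1, p.2 + r + s))
      (uIoc (0 : ℝ) 1 ×ˢ uIoc (0 : ℝ) 1) := by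
    have : (uncurry fun r s : ℝ => (s - 1 / 2) • u i (p.1, p.2 + r + s)) =
        fun x : ℝ × ℝ => (x.2 - 1 / 2) • u i (p.1, p.2 + (x.1 + x.2)) := by
      funext x
      simp only [uncurry, add_assoc]
    rw [this]
    exact (hc.continuousOn.integrableOn_compact (isCompact_uIcc.prod isCompact_uIcc)).mono_set
      (prod_mono uIoc_subset_uIcc uIoc_subset_uIcc)
  rw [MeasureTheory.intervalIntegral_intervalIntegral_swap hi]
  have h2 : ∀ s : ℝ, ∫ r in (0 : ℝ)..1, (s - 1 / 2) • u i (p.1, p.2 + r + s) =
      (s - 1 / 2) • ∫ r in (0 : ℝ)..1, u i (p.1, r) := by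
    intro s
    rw [intervalIntegral.integral_smul, ← mean_eq_int_aux hp i h (p.2 + s)]
    simp only [add_right_comm]
  simp only [h2]
  rw [intervalIntegral.integral_smul_const, mean_int_half, zero_smul]

omit [CompleteSpace V] in
theorem Slow.inty {u : ι → E3 → V} (hu : Slow u) : Slow (inty u) := by
  intro i p h θ
  simp only [P205.inty]
  congr 1
  refine intervalIntegral.integral_congr fun s hs => ?_
  rw [uIcc_of_le zero_le_one] at hs
  have hm : ((p.1 - ((1 - s) * p.1 1) • ey, p.2) : E3) ∈ Om := by
    have := mean_line_mem h (x := s * p.1 1) (by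
      rw [abs_mul, abs_of_nonneg hs.1]
      exact mul_le_of_le_one_left (abs_nonneg _) hs.2)
    convert this using 2
    module
  exact hu i _ hm θ

theorem dd_vy_inty {u : ι → E3 → V} (hu : Y P 0 t u) : Eo (dd vy (inty u)) u := by
  intro i p hp
  have hd := ((Y.inty hu).so.diff i hp).hasFDerivAt
  set b : E2 := p.1 - p.1 1 • ey with hb
  set g : ℝ → V := fun x => u i (b + x • ey, p.2) with hg
  have hline : HasDerivAt (fun y : ℝ => p + y • vy) vy 0 := by
    simpa using ((hasDerivAt_id' (0 : ℝ)).smul_const vy).const_add p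
  have h1 : HasDerivAt (fun y : ℝ => inty u i (p + y • vy)) (dd vy (inty u) i p) 0 := by
    have := HasFDerivAt.comp_hasDerivAt (f := fun y : ℝ => p + y • vy) (0 : ℝ)
      (by simpa using hd) hline
    exact this
  have h2 : (fun y : ℝ => inty u i (p + y • vy)) =
      fun y => ∫ x in (0 : ℝ)..(p.1 1 + y), g x := by
    funext y
    have e1 : (p + y • vy).1 1 = p.1 1 + y := by simp [vy, ey]
    have e2 : (p + y • vy).2 = p.2 := by simp [vy]
    have e3 : (p + y • vy).1 = p.1 + y • ey := by simp [vy]
    have e4 := intervalIntegral.smul_integral_comp_mul_right (a := 0) (b := 1) g (p.1 1 + y)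
    simp only [zero_mul, one_mul] at e4
    rw [← e4]
    simp only [inty]
    rw [e1, e2, e3]
    congr 2
    funext s
    simp only [hg, hb]
    congr 2
    module
  have hcl : Continuous fun x : ℝ => ((b + x • ey, p.2) : E3) := by fun_prop
  have hS : IsOpen ((fun x : ℝ => ((b + x • ey, p.2) : E3)) ⁻¹' Om) := isOpen_Om.preimage hcl
  have hgc : ContinuousOn g ((fun x : ℝ => ((b + x • ey, p.2) : E3)) ⁻¹' Om) :=
    (hu.so i).continuousOn.comp hcl.continuousOn fun x hx => hx
  have hsub : uIcc 0 (p.1 1) ⊆ (fun x : ℝ => ((b + x • ey, p.2) : E3)) ⁻¹' Om := by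
    intro x hx
    refine mean_line_mem hp ?_
    have := abs_sub_left_of_mem_uIcc hx
    simpa using this
  have hm := hsub right_mem_uIcc
  have h3 : HasDerivAt (fun y => ∫ x in (0 : ℝ)..y, g x) (g (p.1 1)) (p.1 1 + 0) := by
    rw [add_zero]
    exact intervalIntegral.integral_hasDerivAt_right (hgc.mono hsub).intervalIntegrable
      (hgc.stronglyMeasurableAtFilter hS _ hm) (hgc.continuousAt (hS.mem_nhds hm))
  have h4 := h3.comp_const_add (p.1 1) 0
  rw [h2] at h1
  rw [h1.unique h4]
  simp [hg, hb]

omit [CompleteSpace V] in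
theorem mean_shift {φ : ι → E3 → ℝ} (hφ : Slow φ) {u : ι → E3 → V} (hp : Per u) :
    Eo (mean (shift φ u)) (mean u) := by
  intro i p h
  simp only [mean, shift]
  simp only [hφ i p h]
  rw [mean_eq_int_aux hp i h, ← mean_eq_int_aux hp i h (p.2 + φ i p)]
  simp only [add_right_comm]

omit [CompleteSpace V] in
/-- A function that is odd in θ has mean zero. -/
theorem mean_odd {u : ι → E3 → V} (hp : Per u)
    (ho : ∀ i, ∀ p ∈ Om, u i (p.1, -p.2) = -u i p) : Eo (mean u) 0 := by
  intro i p h
  simp only [mean, Pi.zero_apply]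
  rw [mean_eq_int_aux hp i h]
  have h1 := intervalIntegral.integral_comp_sub_left (a := 0) (b := 1)
    (fun s : ℝ => u i (p.1, s)) 1
  simp only [sub_self, sub_zero] at h1
  have h2 : ∀ s : ℝ, u i (p.1, 1 - s) = -u i (p.1, s) := by
    intro s
    rw [← ho i _ (mem_Om h s), show 1 - s = -s + 1 by ring]
    exact hp.periodic_slice i h (-s)
  simp only [h2, intervalIntegral.integral_neg] at h1
  have h3 : (2 : ℝ) • ∫ s in (0 : ℝ)..1, u i (p.1, s) = 0 := by
    rw [two_smul]
    nth_rewrite 1 [← h1]
    exact neg_add_cancel _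
  exact (smul_eq_zero.1 h3).resolve_left two_ne_zero

omit [CompleteSpace V] in
/-- The antiderivative of an even function is odd. -/
theorem anti_even {u : ι → E3 → V} (hp : Per u) (he : ∀ i, ∀ p ∈ Om, u i (p.1, -p.2) = u i p) :
    ∀ i, ∀ p ∈ Om, anti u i (p.1, -p.2) = -anti u i p := by
  intro i p h
  simp only [anti]
  have h1 := intervalIntegral.integral_comp_sub_left (a := 0) (b := 1)
    (fun s : ℝ => (s - 1 / 2) • u i (p.1, -p.2 + s)) 1
  simp only [sub_self, sub_zero] at h1
  rw [← h1, ← intervalIntegral.integral_neg]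
  congr 1
  funext s
  have h2 : u i (p.1, -p.2 + (1 - s)) = u i (p.1, p.2 + s) := by
    rw [← he i _ (mem_Om h (p.2 + s)), show -p.2 + (1 - s) = -(p.2 + s) + 1 by ring]
    exact hp.periodic_slice i h _
  rw [h2, ← neg_smul]
  congr 1
  ring

omit [CompleteSpace V] in
theorem mean_eq_int {u : ι → E3 → V} (hp : Per u) (i : ι) {p : E3} (h : p ∈ Om) :
    mean u i p = ∫ s in (0 : ℝ)..1, u i (p.1, s) := by
  simp only [mean]
  exact mean_eq_int_aux hp i h _

end Vale.Agent.P205
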