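import Vale.Agent.P205.S.LAlg
import Vale.Agent.P205.S.Mean
import Vale.Agent.P205.S.YC

/-!
Classes of the loop fields of a frame.
r = √(p0^2 + a^2): Y.sqrt0 (a ∈ Y 0 1 by mono), r ≥ p0. s = a * √(2 * (r (r + p0))⁻¹): Y.inv0,
LB.inv, Y.sqrt0, LB.sqrt. ρ(θ): Y.theta. 1 - s^2 ρ / 4 ≥ p0 * r⁻¹ (root_lower). lw =
(r s^2 (1 - ρ) / 2) • e0 + (r u1) • e1 + (r u2) • e2 (r_u0_sub). The lower bounds of the means:
mean_eq_int (s is slow), int_u12_lower, int_u1_sq, int_u2_sq.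
-/

open scoped Manifold ContDiff Topology RealInnerProductSpace
open Set Filter Metric Function

noncomputable section

namespace Vale.Agent.P205

variable {ι : Type} {P : Par ι} {K : Prop} {L : Loop} (R : Frm P K L)

theorem FrmY_low {V : Type} [NormedAddCommGroup V] [NormedSpace ℝ V] {a b : ℤ} {u : ι → E3 → V}
    (h : Y P a 1 u) (hb : b ≤ a) : Y P b 1 u :=
  h.mono hb 1 (fun _ => zero_le_one) fun _ => (one_mul _).ge

theorem FrmY_mul {u v : ι → E3 → ℝ} (hu : Y P 1 1 u) (hv : Y P 1 1 v) :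
    Y P 2 1 (fun i p => u i p * v i p) :=
  (hu.mul hv).mono (by norm_num) 1 (fun _ => zero_le_one) fun _ => le_rfl

theorem FrmY_sq {u : ι → E3 → ℝ} (hu : Y P 1 1 u) : Y P 2 1 (fun i p => u i p ^ 2) :=
  (FrmY_mul hu hu).congr fun _ _ _ => sq _

theorem FrmY_rho (P : Par ι) (L : Loop) : Y P 0 1 (fun _ p => L.rho p.2) :=
  Y.theta (g := L.rho) ((L.s1.pow 2).add (L.s2.pow 2)) fun θ => by
    simp only [Loop.rho, L.p1 θ, L.p2 θ]

theorem Frm.p0_pos (i : ι) {p : E3} (hp : p ∈ Om) : 0 < R.p0 i p := by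
  exact R.lp.pos i hp

theorem Frm.slow_p0 : Slow R.p0 := by
  exact R.sFX.map₂ R.s0 fun _ a b => ⟪a, b⟫

theorem Frm.slow_r : Slow R.r := by
  exact R.slow_p0.map₂ R.sa fun _ => rr

theorem Frm.slow_s : Slow R.s := by
  exact R.slow_p0.map₂ R.sa fun _ => ss

theorem Frm.y_p0 : Y P 0 1 R.p0 := by
  exact R.yFX.inner0 R.y0

theorem Frm.y_r : Y P 0 1 R.r := by
  have a0 := FrmY_low R.ya zero_le_one
  have yq : Y P 0 1 (fun i p => R.p0 i p ^ 2 + R.a i p ^ 2) :=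
    ((R.y_p0.mul0 R.y_p0).add (a0.mul0 a0)).congr fun _ _ _ => by simp only [sq]
  have lq : LB P 0 (fun i p => R.p0 i p ^ 2 + R.a i p ^ 2) :=
    (LB.mul0 (u := R.p0) (v := R.p0) R.lp R.lp).mono fun i p _ => by
      nlinarith [sq_nonneg (R.a i p)]
  exact yq.sqrt0 lq

theorem Frm.lb_r : LB P 0 R.r := by
  exact LB.mono (u := R.p0) R.lp fun _ _ _ => le_rr _ _

theorem Frm.FrmY_e : Y P 0 1 (fun i p => √(2 * (R.r i p * (R.r i p + R.p0 i p))⁻¹)) ∧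
    LB P 0 (fun i p => √(2 * (R.r i p * (R.r i p + R.p0 i p))⁻¹)) := by
  have yd := R.y_r.mul0 (R.y_r.add R.y_p0)
  have ld : LB P 0 (fun i p => R.r i p * (R.r i p + R.p0 i p)) :=
    R.lb_r.mul0 (R.lb_r.mono fun i p hp => le_add_of_nonneg_right (R.p0_pos i hp).le)
  have ye := (yd.inv0 ld).mul_const 2
  have le : LB P 0 (fun i p => 2 * (R.r i p * (R.r i p + R.p0 i p))⁻¹) :=
    (LB.inv yd fun i p hp => ld.pos i hp).mono fun i p hp => by
      have := inv_pos.2 (ld.pos i hp)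
      linarith
  exact ⟨ye.sqrt0 le, le.sqrt⟩

theorem Frm.FrmY_s (i : ι) (p : E3) :
    R.s i p = √(2 * (R.r i p * (R.r i p + R.p0 i p))⁻¹) * R.a i p := by
  simp only [Frm.s, Frm.r, ss, div_eq_mul_inv, mul_comm]

theorem Frm.FrmY_lq : LB P 0 (fun i p => R.p0 i p / R.r i p) :=
  (LB.mul0 (u := R.p0) R.lp (LB.inv R.y_r fun i _ hp => R.lb_r.pos i hp)).mono fun _ _ _ =>
    (div_eq_mul_inv _ _).ge

theorem Frm.y_s : Y P 1 1 R.s := by
  exact (R.FrmY_e.1.mul0 R.ya).congr fun i p _ => R.FrmY_s i p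

theorem Frm.lb_s : LB P 1 R.s := by
  exact (R.FrmY_e.2.mul0 R.la).mono fun i p _ => (R.FrmY_s i p).ge

theorem Frm.FrmY_sr : Y P 2 1 (fun i p => L.rho p.2 * R.s i p ^ 2) :=
  (FrmY_rho P L).mul0 (FrmY_sq R.y_s)

theorem Frm.FrmY_root : Y P 0 1 (fun i p => √(1 - R.s i p ^ 2 * L.rho p.2 / 4)) := by
  have yt : Y P 0 1 (fun i p => 1 - R.s i p ^ 2 * L.rho p.2 / 4) :=
    ((Y.const (1 : ℝ)).sub ((FrmY_low R.FrmY_sr (by norm_num)).mul_const (1 / 4))).congr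
      fun i p _ => by ring
  exact yt.sqrt0 (R.FrmY_lq.mono fun i p hp => L.root_lower (R.p0_pos i hp) _ _)

theorem Frm.y_u0 : Y P 0 1 R.u0 := by
  exact ((Y.const (1 : ℝ)).sub ((FrmY_low R.FrmY_sr (by norm_num)).mul_const (1 / 2))).congr
    fun i p _ => by
      simp only [Frm.u0, Loop.u0]
      ring

theorem Frm.y_one_sub_u0 : Y P 2 1 (fun i p => 1 - R.u0 i p) := by
  exact (R.FrmY_sr.mul_const (1 / 2)).congr fun i p _ => by
    simp only [Frm.u0, Loop.u0]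
    ring

theorem Frm.y_u1 : Y P 1 1 R.u1 := by
  exact (R.FrmY_root.mul0 ((Y.theta L.s1 L.p1).mul0 R.y_s)).congr fun i p _ => by
    simp only [Frm.u1, Loop.u1]
    ring

theorem Frm.y_u2 : Y P 1 1 R.u2 := by
  exact (R.FrmY_root.mul0 ((Y.theta L.s2 L.p2).mul0 R.y_s)).congr fun i p _ => by
    simp only [Frm.u2, Loop.u2]
    ring

theorem Frm.y_u : Y P 0 1 R.u := by
  exact ((R.y_u0.smul0 R.y0).add ((FrmY_low R.y_u1 zero_le_one).smul0 R.y1)).add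
    ((FrmY_low R.y_u2 zero_le_one).smul0 R.y2)

theorem Frm.y_lw : Y P 1 1 R.lw := by
  have c0 : Y P 1 1 (fun i p => R.r i p * R.u0 i p - R.p0 i p) :=
    ((R.y_r.mul0 (((Y.const (1 : ℝ)).sub (FrmY_rho P L)).mul0
      (FrmY_low (FrmY_sq R.y_s) (by norm_num)))).mul_const (1 / 2)).congr fun i p hp => by
        refine (L.r_u0_sub (R.p0_pos i hp) (R.a i p) p.2).trans ?_
        simp only [Frm.r, Frm.s]
        ring
  refine (((c0.smul1 R.y0).add ((R.y_r.mul0 R.y_u1).smul1 R.y1)).add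
    ((R.y_r.mul0 R.y_u2).smul1 R.y2)).congr fun i p _ => ?_
  simp only [Frm.lw, Loop.lw, Loop.u, Frm.r, Frm.u0, Frm.u1, Frm.u2, Frm.s]
  module

theorem Frm.per_u0 : Per R.u0 := by
  intro i p hp
  simp only [Frm.u0, R.slow_s i p hp]
  exact (L.per_u _).1 _

theorem Frm.per_u1 : Per R.u1 := by
  intro i p hp
  simp only [Frm.u1, R.slow_s i p hp]
  exact (L.per_u _).2.1 _

theorem Frm.per_u2 : Per R.u2 := by
  intro i p hp
  simp only [Frm.u2, R.slow_s i p hp]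
  exact (L.per_u _).2.2 _

theorem Frm.per_u : Per R.u := by
  intro i p hp
  simp only [Frm.u, Loop.u, R.slow_s i p hp, R.s0 i p hp, R.s1 i p hp, R.s2 i p hp,
    (L.per_u _).1 _, (L.per_u _).2.1 _, (L.per_u _).2.2 _]

theorem Frm.per_lw : Per R.lw := by
  intro i p hp
  simp only [Frm.lw, Loop.lw, Loop.u, R.slow_p0 i p hp, R.sa i p hp, R.s0 i p hp, R.s1 i p hp,
    R.s2 i p hp, (L.per_u _).1 _, (L.per_u _).2.1 _, (L.per_u _).2.2 _]

theorem Frm.y_invM0 :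
    Y P (-2) 1 (fun i p => (mean (fun i p => R.u1 i p ^ 2 + R.u2 i p ^ 2) i p)⁻¹) ∧
    ∀ i, ∀ p ∈ Om, 0 < mean (fun i p => R.u1 i p ^ 2 + R.u2 i p ^ 2) i p := by
  have y := ((FrmY_sq R.y_u1).add (FrmY_sq R.y_u2)).mean
  have l0 : LB P 2 (fun i p => R.p0 i p / R.r i p * (R.s i p * R.s i p)) :=
    R.FrmY_lq.mul0 ((by norm_num : (1 : ℤ) + 1 = 2) ▸ R.lb_s.mul R.lb_s)
  have l : LB P 2 (mean fun i p => R.u1 i p ^ 2 + R.u2 i p ^ 2) := l0.mono fun i p hp => by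
    rw [mean_eq_int (R.per_u1.map₂ R.per_u2 fun _ a b => a ^ 2 + b ^ 2) i hp]
    simp only [Frm.u1, Frm.u2, R.slow_s i p hp]
    refine le_trans (le_of_eq ?_) (L.int_u12_lower (R.p0_pos i hp) (R.a i p))
    simp only [Frm.r, Frm.s]
    ring
  exact ⟨y.inv l, fun i p hp => l.pos i hp⟩

theorem Frm.y_invM1 : Y P 0 1 (fun i p => (1 - mean (fun i p => R.u1 i p ^ 2) i p)⁻¹) ∧
    ∀ i, ∀ p ∈ Om, 0 < 1 - mean (fun i p => R.u1 i p ^ 2) i p := by
  have y := (Y.const (1 : ℝ)).sub (FrmY_low (b := 0) (FrmY_sq R.y_u1).mean (by norm_num))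
  have l : LB P 0 (fun i p => 1 - mean (fun i p => R.u1 i p ^ 2) i p) :=
    (R.FrmY_lq.mul0 R.FrmY_lq).mono fun i p hp => by
      rw [mean_eq_int (R.per_u1.map fun _ a => a ^ 2) i hp, ← sq]
      simp only [Frm.u1, R.slow_s i p hp]
      exact L.int_u1_sq (R.p0_pos i hp) (R.a i p)
  exact ⟨y.inv0 l, fun i p hp => l.pos i hp⟩

theorem Frm.y_invM2 : Y P 0 1 (fun i p => (1 - mean (fun i p => R.u2 i p ^ 2) i p)⁻¹) ∧
    ∀ i, ∀ p ∈ Om, 0 < 1 - mean (fun i p => R.u2 i p ^ 2) i p := by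
  have y := (Y.const (1 : ℝ)).sub (FrmY_low (b := 0) (FrmY_sq R.y_u2).mean (by norm_num))
  have l : LB P 0 (fun i p => 1 - mean (fun i p => R.u2 i p ^ 2) i p) :=
    (R.FrmY_lq.mul0 R.FrmY_lq).mono fun i p hp => by
      rw [mean_eq_int (R.per_u2.map fun _ a => a ^ 2) i hp, ← sq]
      simp only [Frm.u2, R.slow_s i p hp]
      exact L.int_u2_sq (R.p0_pos i hp) (R.a i p)
  exact ⟨y.inv0 l, fun i p hp => l.pos i hp⟩

end Vale.Agent.P205
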