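import Vale.Agent.P205.S.YC
import Vale.Agent.P205.S.YL
import Vale.Agent.P205.S.DD

/-!
Gram-Schmidt in the class Y.
b1 = ‖A1‖⁻¹ • A1, A2' = A2 - ⟪b1, A2⟫ • b1, b2 = ‖A2'‖⁻¹ • A2', A3' = A3 - ⟪b1, A3⟫ • b1 -
⟪b2, A3⟫ • b2, b3 = ‖A3'‖⁻¹ • A3', b4 = cross b1 b2 b3 (Y.comp_bdd with contDiff_cross and Y.prod).
A2' = x A1 + A2 and A3' = x A1 + y A2 + A3, so hI bounds their norms below; ⟪Ak, bk⟫ = ‖Ak'‖.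
A general one step lemma (normalise a slow field of class Y 0 1 with a lower bound) helps.
-/

open scoped Manifold ContDiff Topology RealInnerProductSpace
open Set Filter Metric Function

noncomputable section

namespace Vale.Agent.P205

variable {ι : Type} {P : Par ι}

theorem gs_step {A : ι → E3 → E4} (y : Y P 0 1 A) (h : LB P 0 fun i p => ‖A i p‖) :
    Y P 0 1 (fun i p => ‖A i p‖⁻¹ • A i p) ∧ ∀ i, ∀ p ∈ Om, A i p ≠ 0 :=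
  ⟨((y.norm0 h).inv0 h).smul0 y, fun i _ hp => norm_pos_iff.1 (h.pos i hp)⟩

theorem gs_alg {a1 a2 a3 a2' a3' b1 b2 b3 : E4} (e1 : b1 = ‖a1‖⁻¹ • a1)
    (f2 : a2' = a2 - ⟪b1, a2⟫ • b1) (e2 : b2 = ‖a2'‖⁻¹ • a2')
    (f3 : a3' = a3 - ⟪b1, a3⟫ • b1 - ⟪b2, a3⟫ • b2) (e3 : b3 = ‖a3'‖⁻¹ • a3') (h1 : a1 ≠ 0)
    (h2 : a2' ≠ 0) (h3 : a3' ≠ 0) :
    (‖b1‖ = 1 ∧ ‖b2‖ = 1 ∧ ‖b3‖ = 1 ∧ ‖cross b1 b2 b3‖ = 1 ∧ ⟪b1, b2⟫ = 0 ∧ ⟪b1, b3⟫ = 0 ∧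
      ⟪b1, cross b1 b2 b3⟫ = 0 ∧ ⟪b2, b3⟫ = 0 ∧ ⟪b2, cross b1 b2 b3⟫ = 0 ∧
      ⟪b3, cross b1 b2 b3⟫ = 0) ∧
    (⟪a1, b2⟫ = 0 ∧ ⟪a1, b3⟫ = 0 ∧ ⟪a1, cross b1 b2 b3⟫ = 0 ∧ ⟪a2, b3⟫ = 0 ∧
      ⟪a2, cross b1 b2 b3⟫ = 0 ∧ ⟪a3, cross b1 b2 b3⟫ = 0) ∧
    ⟪a1, b1⟫ = ‖a1‖ ∧ ⟪a2, b2⟫ = ‖a2'‖ ∧ ⟪a3, b3⟫ = ‖a3'‖ := by
  have nrm : ∀ {a b : E4}, a ≠ 0 → b = ‖a‖⁻¹ • a → ‖b‖ = 1 ∧ a = ‖a‖ • b := fun {a b} h e => by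
    have := norm_ne_zero_iff.2 h
    exact ⟨by rw [e, norm_smul, norm_inv, norm_norm, inv_mul_cancel₀ this],
      by rw [e, smul_smul, mul_inv_cancel₀ this, one_smul]⟩
  obtain ⟨n1, g1⟩ := nrm h1 e1
  obtain ⟨n2, g2⟩ := nrm h2 e2
  obtain ⟨n3, g3⟩ := nrm h3 e3
  have i1 : ⟪b1, b1⟫ = 1 := by rw [real_inner_self_eq_norm_sq, n1, one_pow]
  have i2 : ⟪b2, b2⟫ = 1 := by rw [real_inner_self_eq_norm_sq, n2, one_pow]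
  have i3 : ⟪b3, b3⟫ = 1 := by rw [real_inner_self_eq_norm_sq, n3, one_pow]
  have o12 : ⟪b1, b2⟫ = 0 := by
    rw [e2, real_inner_smul_right, f2, inner_sub_right, real_inner_smul_right, i1]
    ring
  have o21 : ⟪b2, b1⟫ = 0 := by rw [real_inner_comm, o12]
  have o13 : ⟪b1, b3⟫ = 0 := by
    rw [e3, real_inner_smul_right, f3, inner_sub_right, inner_sub_right, real_inner_smul_right,
      real_inner_smul_right, i1, o12]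
    ring
  have o23 : ⟪b2, b3⟫ = 0 := by
    rw [e3, real_inner_smul_right, f3, inner_sub_right, inner_sub_right, real_inner_smul_right,
      real_inner_smul_right, i2, o21]
    ring
  have c1 := inner_cross_1 b1 b2 b3
  have c2 := inner_cross_2 b1 b2 b3
  have c3 := inner_cross_3 b1 b2 b3
  have k1 : ∀ v, ⟪a1, v⟫ = ‖a1‖ * ⟪b1, v⟫ := fun v => by
    conv_lhs => rw [g1, real_inner_smul_left]
  have k2 : ∀ v, ⟪a2, v⟫ = ‖a2'‖ * ⟪b2, v⟫ + ⟪b1, a2⟫ * ⟪b1, v⟫ := fun v => by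
    rw [← real_inner_smul_left, ← real_inner_smul_left, ← g2, ← inner_add_left, f2, sub_add_cancel]
  have k3 : ∀ v, ⟪a3, v⟫ = ‖a3'‖ * ⟪b3, v⟫ + ⟪b2, a3⟫ * ⟪b2, v⟫ + ⟪b1, a3⟫ * ⟪b1, v⟫ :=
    fun v => by
      rw [← real_inner_smul_left, ← real_inner_smul_left, ← real_inner_smul_left, ← g3,
        ← inner_add_left, ← inner_add_left, f3, sub_add_cancel, sub_add_cancel]
  refine ⟨⟨n1, n2, n3, norm_cross_of_orthonormal n1 n2 n3 o12 o13 o23, o12, o13, c1, o23, c2, c3⟩,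
    ⟨?_, ?_, ?_, ?_, ?_, ?_⟩, ?_, ?_, ?_⟩
  · rw [k1, o12, mul_zero]
  · rw [k1, o13, mul_zero]
  · rw [k1, c1, mul_zero]
  · rw [k2, o23, o13]; ring
  · rw [k2, c1, c2]; ring
  · rw [k3, c1, c2, c3]; ring
  · rw [k1, i1, mul_one]
  · rw [k2, i2, o12]; ring
  · rw [k3, i3, o23, o13]; ring

theorem gram_schmidt {A1 A2 A3 : ι → E3 → E4} (y1 : Y P 0 1 A1) (y2 : Y P 0 1 A2)
    (y3 : Y P 0 1 A3) (s1 : Slow A1) (s2 : Slow A2) (s3 : Slow A3)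
    (hI : ∃ (c : ℝ) (m : ℕ), 0 < c ∧ ∀ i, ∀ p ∈ Om, ∀ x y z : ℝ,
      c * (|x| + |y| + |z|) ≤ ‖x • A1 i p + y • A2 i p + z • A3 i p‖ * P.tau i p ^ m) :
    ∃ b1 b2 b3 b4 : ι → E3 → E4, (Y P 0 1 b1 ∧ Y P 0 1 b2 ∧ Y P 0 1 b3 ∧ Y P 0 1 b4) ∧
      (Slow b1 ∧ Slow b2 ∧ Slow b3 ∧ Slow b4) ∧
      (∀ i, ∀ p ∈ Om, ‖b1 i p‖ = 1 ∧ ‖b2 i p‖ = 1 ∧ ‖b3 i p‖ = 1 ∧ ‖b4 i p‖ = 1 ∧
        ⟪b1 i p, b2 i p⟫ = 0 ∧ ⟪b1 i p, b3 i p⟫ = 0 ∧ ⟪b1 i p, b4 i p⟫ = 0 ∧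
        ⟪b2 i p, b3 i p⟫ = 0 ∧ ⟪b2 i p, b4 i p⟫ = 0 ∧ ⟪b3 i p, b4 i p⟫ = 0) ∧
      (∀ i, ∀ p ∈ Om, ⟪A1 i p, b2 i p⟫ = 0 ∧ ⟪A1 i p, b3 i p⟫ = 0 ∧ ⟪A1 i p, b4 i p⟫ = 0 ∧
        ⟪A2 i p, b3 i p⟫ = 0 ∧ ⟪A2 i p, b4 i p⟫ = 0 ∧ ⟪A3 i p, b4 i p⟫ = 0) ∧
      LB P 0 (fun i p => ⟪A1 i p, b1 i p⟫) ∧ LB P 0 (fun i p => ⟪A2 i p, b2 i p⟫) ∧
      LB P 0 (fun i p => ⟪A3 i p, b3 i p⟫) := by
  obtain ⟨c, m, hc, hI⟩ := hI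
  have lb : ∀ {B : ι → E3 → E4}, (∀ i p, ∃ x y z : ℝ, 1 ≤ |x| + |y| + |z| ∧
      B i p = x • A1 i p + y • A2 i p + z • A3 i p) → LB P 0 fun i p => ‖B i p‖ := fun h =>
    ⟨c, m, hc, fun i p hp => by
      obtain ⟨x, y, z, h1, h2⟩ := h i p
      simp only [zpow_zero, h2]
      exact (le_mul_of_one_le_right hc.le h1).trans' (by simp) |>.trans (hI i p hp x y z)⟩
  have l1 : LB P 0 fun i p => ‖A1 i p‖ := lb fun i p => ⟨1, 0, 0, by simp, by simp⟩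
  obtain ⟨b1, e1⟩ : ∃ b : ι → E3 → E4, b = fun i p => ‖A1 i p‖⁻¹ • A1 i p := ⟨_, rfl⟩
  obtain ⟨z1, n1⟩ := gs_step y1 l1
  rw [← e1] at z1
  obtain ⟨B2, f2⟩ : ∃ b : ι → E3 → E4, b = fun i p => A2 i p - ⟪b1 i p, A2 i p⟫ • b1 i p :=
    ⟨_, rfl⟩
  have yB2 : Y P 0 1 B2 := f2 ▸ y2.sub ((z1.inner0 y2).smul0 z1)
  have r2 : ∀ i p, B2 i p = (-(⟪b1 i p, A2 i p⟫ * ‖A1 i p‖⁻¹)) • A1 i p + A2 i p := fun i p => by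
    rw [f2, neg_smul, ← smul_smul, neg_add_eq_sub]
    rw [e1]
  have l2 : LB P 0 fun i p => ‖B2 i p‖ := lb fun i p =>
    ⟨-(⟪b1 i p, A2 i p⟫ * ‖A1 i p‖⁻¹), 1, 0, by simp; positivity,
      by rw [r2, one_smul, zero_smul, add_zero]⟩
  obtain ⟨b2, e2⟩ : ∃ b : ι → E3 → E4, b = fun i p => ‖B2 i p‖⁻¹ • B2 i p := ⟨_, rfl⟩
  obtain ⟨z2, n2⟩ := gs_step yB2 l2
  rw [← e2] at z2
  obtain ⟨B3, f3⟩ : ∃ b : ι → E3 → E4, b = fun i p =>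
    A3 i p - ⟪b1 i p, A3 i p⟫ • b1 i p - ⟪b2 i p, A3 i p⟫ • b2 i p := ⟨_, rfl⟩
  have yB3 : Y P 0 1 B3 :=
    f3 ▸ (y3.sub ((z1.inner0 y3).smul0 z1)).sub ((z2.inner0 y3).smul0 z2)
  have l3 : LB P 0 fun i p => ‖B3 i p‖ := lb fun i p => by
    obtain ⟨x, hx⟩ : ∃ x : ℝ, b1 i p = x • A1 i p := ⟨_, by rw [e1]⟩
    obtain ⟨u, v, hu⟩ : ∃ u v : ℝ, b2 i p = u • (v • A1 i p + A2 i p) := ⟨_, _, by rw [e2, ← r2]⟩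
    refine ⟨-(⟪b1 i p, A3 i p⟫ * x) - ⟪b2 i p, A3 i p⟫ * (u * v), -(⟪b2 i p, A3 i p⟫ * u), 1,
      by rw [abs_one]; exact le_add_of_nonneg_left (by positivity), ?_⟩
    have : B3 i p = A3 i p - ⟪b1 i p, A3 i p⟫ • b1 i p - ⟪b2 i p, A3 i p⟫ • b2 i p := by rw [f3]
    generalize ⟪b1 i p, A3 i p⟫ = α, ⟪b2 i p, A3 i p⟫ = β at this ⊢
    rw [this, hx, hu]
    module
  obtain ⟨b3, e3⟩ : ∃ b : ι → E3 → E4, b = fun i p => ‖B3 i p‖⁻¹ • B3 i p := ⟨_, rfl⟩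
  obtain ⟨z3, n3⟩ := gs_step yB3 l3
  rw [← e3] at z3
  have al := fun i p (hp : p ∈ Om) => gs_alg (congrFun (congrFun e1 i) p)
    (congrFun (congrFun f2 i) p) (congrFun (congrFun e2 i) p) (congrFun (congrFun f3 i) p)
    (congrFun (congrFun e3 i) p) (n1 i p hp) (n2 i p hp) (n3 i p hp)
  have t1 : Slow b1 := fun i p hp θ => by simp only [e1, s1 i p hp θ]
  have u2 : Slow B2 := fun i p hp θ => by simp only [f2, s2 i p hp θ, t1 i p hp θ]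
  have t2 : Slow b2 := fun i p hp θ => by simp only [e2, u2 i p hp θ]
  have u3 : Slow B3 := fun i p hp θ => by simp only [f3, s3 i p hp θ, t1 i p hp θ, t2 i p hp θ]
  have t3 : Slow b3 := fun i p hp θ => by simp only [e3, u3 i p hp θ]
  refine ⟨b1, b2, b3, fun i p => cross (b1 i p) (b2 i p) (b3 i p), ⟨z1, z2, z3, ?_⟩,
    ⟨t1, t2, t3, fun i p hp θ => by simp only [t1 i p hp θ, t2 i p hp θ, t3 i p hp θ]⟩,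
    fun i p hp => (al i p hp).1, fun i p hp => (al i p hp).2.1,
    l1.mono fun i p hp => (al i p hp).2.2.1.ge, l2.mono fun i p hp => (al i p hp).2.2.2.1.ge,
    l3.mono fun i p hp => (al i p hp).2.2.2.2.ge⟩
  refine (z1.prod (z2.prod z3)).comp_bdd contDiff_cross 1 fun i p hp => ?_
  obtain ⟨k1, k2, k3, -⟩ := (al i p hp).1
  simp only [Prod.norm_mk, k1, k2, k3, max_self, le_refl]

end Vale.Agent.P205
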