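import Vale.Agent.P205.S.LAlg

/-!
Derivative of the unit loop. With y = (s g1, s g2), R2 = s^2 ρ, k = √(1 - R2 / 4) > 0,
b = s^2 (g1 g1' + g2 g2') (half the derivative of R2): u0' = -b, uj' = s k gj' - s gj b / (4 k).
Then Σ u_j u_j' = 0 (differentiate sum_sq or compute), and Σ u_j'^2 = b^2 / 2 + k^2 s^2 |g'|^2 +
b^2 R2 / (16 k^2) ≥ k^2 s^2 |g'|^2 with k^2 ≥ p0 / r (root_lower).
-/

open scoped Manifold ContDiff Topology RealInnerProductSpace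
open Set Filter Metric Function

noncomputable section

namespace Vale.Agent.P205

variable {p0 a : ℝ} (L : Loop)

theorem Loop.geoA_pos (hp : 0 < p0) (a θ : ℝ) : 0 < 1 - ss p0 a ^ 2 * L.rho θ / 4 :=
  (div_pos hp (rr_pos hp a)).trans_le (L.root_lower hp a θ)

theorem Loop.hasDerivAt_u (hp : 0 < p0) (a θ : ℝ) :
    let s := ss p0 a
    let k := √(1 - s ^ 2 * L.rho θ / 4)
    let b := s ^ 2 * (L.g1 θ * deriv L.g1 θ + L.g2 θ * deriv L.g2 θ)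
    HasDerivAt (L.u0 s) (-b) θ ∧
      HasDerivAt (L.u1 s) (s * k * deriv L.g1 θ - s * L.g1 θ * b / (4 * k)) θ ∧
      HasDerivAt (L.u2 s) (s * k * deriv L.g2 θ - s * L.g2 θ * b / (4 * k)) θ := by
  intro s k b
  have h1 : HasDerivAt L.g1 (deriv L.g1 θ) θ := (L.s1.differentiable (by simp) θ).hasDerivAt
  have h2 : HasDerivAt L.g2 (deriv L.g2 θ) θ := (L.s2.differentiable (by simp) θ).hasDerivAt
  have hρ : HasDerivAt (fun θ => s ^ 2 * L.rho θ) (2 * b) θ :=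
    (((h1.fun_pow 2).fun_add (h2.fun_pow 2)).const_mul (s ^ 2)).congr_deriv (by
      simp only [b]; push_cast; ring)
  have hk : HasDerivAt (fun θ => s * √(1 - s ^ 2 * L.rho θ / 4)) (s * (-(2 * b / 4) / (2 * k))) θ :=
    (((hρ.div_const 4).const_sub 1).sqrt (L.geoA_pos hp a θ).ne').const_mul s
  refine ⟨((hρ.div_const 2).const_sub 1).congr_deriv (by ring),
    (hk.fun_mul h1).congr_deriv (by ring), (hk.fun_mul h2).congr_deriv (by ring)⟩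

theorem Loop.deriv_lw (hp : 0 < p0) (a θ : ℝ) (e0 e1 e2 : E4) :
    deriv (L.lw p0 a e0 e1 e2) θ = rr p0 a • (deriv (L.u0 (ss p0 a)) θ • e0 +
      deriv (L.u1 (ss p0 a)) θ • e1 + deriv (L.u2 (ss p0 a)) θ • e2) := by
  obtain ⟨h0, h1, h2⟩ := L.hasDerivAt_u hp a θ
  exact ((((h0.differentiableAt.hasDerivAt.smul_const e0).fun_add
    (h1.differentiableAt.hasDerivAt.smul_const e1)).fun_add
    (h2.differentiableAt.hasDerivAt.smul_const e2)).fun_const_smul (rr p0 a)).sub_const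
    (p0 • e0) |>.deriv

theorem Loop.u_dot_deriv (hp : 0 < p0) (a θ : ℝ) :
    L.u0 (ss p0 a) θ * deriv (L.u0 (ss p0 a)) θ + L.u1 (ss p0 a) θ * deriv (L.u1 (ss p0 a)) θ +
      L.u2 (ss p0 a) θ * deriv (L.u2 (ss p0 a)) θ = 0 := by
  obtain ⟨h0, h1, h2⟩ := L.hasDerivAt_u hp a θ
  have hk := Real.sqrt_pos.2 (L.geoA_pos hp a θ)
  have hk2 := Real.sq_sqrt (L.geoA_pos hp a θ).le
  rw [h0.deriv, h1.deriv, h2.deriv, Loop.u0, Loop.u1, Loop.u2]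
  generalize √(1 - ss p0 a ^ 2 * L.rho θ / 4) = k at hk hk2 ⊢
  rw [Loop.rho] at hk2 ⊢
  field_simp
  linear_combination
    (8 * ss p0 a ^ 2 * (L.g1 θ * deriv L.g1 θ + L.g2 θ * deriv L.g2 θ)) * hk2

theorem Loop.deriv_sq_lower (hp : 0 < p0) (a θ : ℝ) :
    p0 / rr p0 a * ss p0 a ^ 2 * (deriv L.g1 θ ^ 2 + deriv L.g2 θ ^ 2) ≤
      deriv (L.u0 (ss p0 a)) θ ^ 2 + deriv (L.u1 (ss p0 a)) θ ^ 2 +
        deriv (L.u2 (ss p0 a)) θ ^ 2 := by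
  obtain ⟨h0, h1, h2⟩ := L.hasDerivAt_u hp a θ
  have hk := Real.sqrt_pos.2 (L.geoA_pos hp a θ)
  have hl := (L.root_lower hp a θ).trans_eq (Real.sq_sqrt (L.geoA_pos hp a θ).le).symm
  rw [h0.deriv, h1.deriv, h2.deriv]
  generalize √(1 - ss p0 a ^ 2 * L.rho θ / 4) = k at hk hl ⊢
  generalize ss p0 a = s
  generalize hb : s ^ 2 * (L.g1 θ * deriv L.g1 θ + L.g2 θ * deriv L.g2 θ) = b
  obtain ⟨c, rfl⟩ : ∃ c, b = 4 * k * c := ⟨b / (4 * k), by field_simp⟩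
  have e1 : s * L.g1 θ * (4 * k * c) / (4 * k) = s * L.g1 θ * c := by field_simp
  have e2 : s * L.g2 θ * (4 * k * c) / (4 * k) = s * L.g2 θ * c := by field_simp
  rw [e1, e2]
  have e3 : (-(4 * k * c)) ^ 2 + (s * k * deriv L.g1 θ - s * L.g1 θ * c) ^ 2 +
      (s * k * deriv L.g2 θ - s * L.g2 θ * c) ^ 2 =
      k ^ 2 * s ^ 2 * (deriv L.g1 θ ^ 2 + deriv L.g2 θ ^ 2) +
        (8 * (k * c) ^ 2 + (s * L.g1 θ * c) ^ 2 + (s * L.g2 θ * c) ^ 2) := by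
    linear_combination (-2 * k * c) * hb
  rw [e3]
  exact le_add_of_le_of_nonneg (by gcongr) (by positivity)

theorem geoA_up {s k g g' b G δ : ℝ} (hs : 0 ≤ s) (hδ : 0 < δ) (h1 : δ ≤ k) (h2 : k ≤ 1)
    (h3 : 1 - k ≤ s ^ 2 / 2) (hg : |g| ≤ 2) (hg' : |g'| ≤ G) (hb : |b| ≤ 4 * G * s ^ 2) :
    |s * k * g' - s * g * b / (4 * k) - s * g'| ≤ (4 * G + 2 * G / δ + 1) * s ^ 3 := by
  have hG : 0 ≤ G := (abs_nonneg _).trans hg'
  have hk : 0 < k := hδ.trans_le h1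
  have e : s * k * g' - s * g * b / (4 * k) - s * g' =
      -(s * (1 - k) * g') - s * g * b / (4 * k) := by ring
  have a1 : |-(s * (1 - k) * g')| ≤ s * (s ^ 2 / 2) * G := by
    rw [abs_neg, abs_mul, abs_mul, abs_of_nonneg hs, abs_of_nonneg (sub_nonneg.2 h2)]
    gcongr
  have a2 : |s * g * b / (4 * k)| ≤ s * 2 * (4 * G * s ^ 2) / (4 * δ) := by
    rw [abs_div, abs_mul, abs_mul, abs_of_nonneg hs, abs_of_pos (by positivity : 0 < 4 * k)]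
    gcongr
  have a3 : s * 2 * (4 * G * s ^ 2) / (4 * δ) = 2 * G / δ * s ^ 3 := by
    field_simp
  have a4 : 0 ≤ G * s ^ 3 := by positivity
  have a5 : 0 ≤ s ^ 3 := by positivity
  rw [e]
  refine (abs_sub _ _).trans ?_
  linarith

/-- Upper bounds; G bounds the derivatives of g1, g2 and δ ≤ p0 / r. For the last two use
|k - 1| ≤ 1 - k^2 ≤ s^2 / 2 and 1 / k ≤ 1 / δ (as k ≥ k^2 ≥ δ). -/
theorem Loop.deriv_upper (G δ : ℝ) (hδ : 0 < δ) (hG : ∀ θ, |deriv L.g1 θ| ≤ G ∧ |deriv L.g2 θ| ≤ G) :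
    ∃ C : ℝ, 0 < C ∧ ∀ p0 a θ : ℝ, 0 < p0 → 0 ≤ a → δ ≤ p0 / rr p0 a →
      |deriv (L.u0 (ss p0 a)) θ| ≤ C * ss p0 a ^ 2 ∧
      |deriv (L.u1 (ss p0 a)) θ - ss p0 a * deriv L.g1 θ| ≤ C * ss p0 a ^ 3 ∧
      |deriv (L.u2 (ss p0 a)) θ - ss p0 a * deriv L.g2 θ| ≤ C * ss p0 a ^ 3 ∧
      |L.u1 (ss p0 a) θ| ≤ 2 * ss p0 a ∧ |L.u2 (ss p0 a) θ| ≤ 2 * ss p0 a ∧
      1 - ss p0 a ^ 2 ≤ L.u0 (ss p0 a) θ ∧ ss p0 a ≤ 2 := by
  have hG0 : 0 ≤ G := (abs_nonneg _).trans (hG 0).1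
  refine ⟨4 * G + 2 * G / δ + 1, by positivity, fun p0 a θ hp ha hd => ?_⟩
  obtain ⟨h0, h1, h2⟩ := L.hasDerivAt_u hp a θ
  have hk := Real.sqrt_pos.2 (L.geoA_pos hp a θ)
  have hk2 := Real.sq_sqrt (L.geoA_pos hp a θ).le
  have hl := hd.trans ((L.root_lower hp a θ).trans_eq hk2.symm)
  have hs := (rr_mul_ss hp ha).1
  have hs2 : ss p0 a ≤ 2 := by
    have := ss_sq hp a
    nlinarith
  have hρ0 := L.rho_nonneg θ
  have hρ : L.rho θ ≤ 2 := L.le2 θ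
  have g1 : |L.g1 θ| ≤ 2 :=
    abs_le_of_sq_le_sq' (by linarith [L.le2 θ, sq_nonneg (L.g2 θ)]) (by norm_num) |> abs_le.2
  have g2 : |L.g2 θ| ≤ 2 :=
    abs_le_of_sq_le_sq' (by linarith [L.le2 θ, sq_nonneg (L.g1 θ)]) (by norm_num) |> abs_le.2
  rw [h0.deriv, h1.deriv, h2.deriv, Loop.u0, Loop.u1, Loop.u2]
  generalize √(1 - ss p0 a ^ 2 * L.rho θ / 4) = k at hk hk2 hl ⊢
  generalize ss p0 a = s at hk2 hs hs2 ⊢
  have r0 : 0 ≤ s ^ 2 * L.rho θ := by positivity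
  have r1 : s ^ 2 * L.rho θ ≤ s ^ 2 * 2 := by gcongr
  have k1 : k ≤ 1 := by nlinarith
  have k2 : k ^ 2 ≤ k := by nlinarith
  have hb : |s ^ 2 * (L.g1 θ * deriv L.g1 θ + L.g2 θ * deriv L.g2 θ)| ≤ 4 * G * s ^ 2 := by
    have b1 : |L.g1 θ * deriv L.g1 θ| ≤ 2 * G := by
      rw [abs_mul]; exact mul_le_mul g1 (hG θ).1 (abs_nonneg _) (by norm_num)
    have b2 : |L.g2 θ * deriv L.g2 θ| ≤ 2 * G := by
      rw [abs_mul]; exact mul_le_mul g2 (hG θ).2 (abs_nonneg _) (by norm_num)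
    rw [abs_mul, abs_of_nonneg (sq_nonneg s), mul_comm]
    exact mul_le_mul_of_nonneg_right ((abs_add_le _ _).trans (by linarith)) (sq_nonneg s)
  have hu : ∀ g : ℝ, |g| ≤ 2 → |s * k * g| ≤ 2 * s := fun g hg => by
    rw [abs_mul, abs_mul, abs_of_nonneg hs, abs_of_pos hk]
    calc s * k * |g| ≤ s * 1 * 2 := by gcongr
      _ = 2 * s := by ring
  refine ⟨?_, geoA_up hs hδ (hl.trans k2) k1 (by linarith) g1 (hG θ).1 hb,
    geoA_up hs hδ (hl.trans k2) k1 (by linarith) g2 (hG θ).2 hb, hu _ g1, hu _ g2,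
    by linarith, hs2⟩
  rw [abs_neg]
  refine hb.trans (mul_le_mul_of_nonneg_right ?_ (sq_nonneg s))
  have : 0 ≤ 2 * G / δ := by positivity
  linarith

end Vale.Agent.P205
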