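import Vale.Agent.P205.S.GeoA

/-!
The scalar core of the H step. Write s = ss p0 a, r = rr p0 a (c ≤ r ≤ 2B, a ≤ r s ≤ 2a),
X = (α + lam r u0' + ξ u0, ν + lam r u1' + ξ u1, lam r u2' + ξ u2), g' = 2π (-2 cos 2ϑ, cos ϑ),
ϑ = 2πθ, |g'|^2 ≥ 1/3 (horseshoe_quant with β = 0; adjust the constants below). Fix a small s0 > 0.
Case s ≥ s0: u' is orthogonal to the unit vector u, so |lam r u' + ξ u| ≥ lam r |u'| ≥ lam r s √δ
(deriv_sq_lower, δ = c / (2B)), hence |X| ≥ lam r s √δ - 2B ≥ lam r s √δ / 2 for lam large.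
Case s ≤ s0: u0 ≥ 1/2 gives |ξ| ≤ 2 (|X| + B + lam r C s^2); by horseshoe_quant with β = ν and
2π lam r s, |(ν, 0) + lam r s g'| ≥ (ν + lam r s) / 10, and (X1, X2) differs from it by at most
2 C lam r s^3 + 4 s |ξ|. So (1 + 8 s0) |X| ≥ (ν + lam r s) / 20 when s0 is small.
-/

open scoped Manifold ContDiff Topology RealInnerProductSpace
open Set Filter Metric Function

noncomputable section

namespace Vale.Agent.P205

theorem le_of_sq_le_sq₀ {x y : ℝ} (hy : 0 ≤ y) (h : x ^ 2 ≤ y ^ 2) : x ≤ y :=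
  (abs_le_of_sq_le_sq' h hy).2

theorem gb_large {t s δ B w α ν ξ u0 u1 u2 d0 d1 d2 : ℝ} (hδ : 0 < δ) (hB : 0 ≤ B)
    (hu : u0 ^ 2 + u1 ^ 2 + u2 ^ 2 = 1) (ho : u0 * d0 + u1 * d1 + u2 * d2 = 0)
    (hd : (δ * s / 2) ^ 2 ≤ d0 ^ 2 + d1 ^ 2 + d2 ^ 2) (hα : |α| ≤ B) (hν : |ν| ≤ B)
    (hw0 : 0 ≤ w) (hw : w ≤ t * s) (h1 : 1 ≤ t * s) (h6 : 6 * B ≤ t * s * δ) :
    (δ / 8 * (1 + w)) ^ 2 ≤
      (α + t * d0 + ξ * u0) ^ 2 + (ν + t * d1 + ξ * u1) ^ 2 + (t * d2 + ξ * u2) ^ 2 := by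
  have hZ : (t * d0 + ξ * u0) ^ 2 + (t * d1 + ξ * u1) ^ 2 + (t * d2 + ξ * u2) ^ 2 =
      t ^ 2 * (d0 ^ 2 + d1 ^ 2 + d2 ^ 2) + ξ ^ 2 := by
    have : (t * d0 + ξ * u0) ^ 2 + (t * d1 + ξ * u1) ^ 2 + (t * d2 + ξ * u2) ^ 2 =
        t ^ 2 * (d0 ^ 2 + d1 ^ 2 + d2 ^ 2) + 2 * t * ξ * (u0 * d0 + u1 * d1 + u2 * d2) +
          ξ ^ 2 * (u0 ^ 2 + u1 ^ 2 + u2 ^ 2) := by ring
    rw [this, hu, ho]; ring
  have h2 : (t * s * δ) ^ 2 / 4 ≤ t ^ 2 * (d0 ^ 2 + d1 ^ 2 + d2 ^ 2) := by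
    calc (t * s * δ) ^ 2 / 4 = t ^ 2 * (δ * s / 2) ^ 2 := by ring
      _ ≤ _ := mul_le_mul_of_nonneg_left hd (sq_nonneg t)
  have hα2 : α ^ 2 ≤ B ^ 2 := by rw [← sq_abs]; exact pow_le_pow_left₀ (abs_nonneg _) hα 2
  have hν2 : ν ^ 2 ≤ B ^ 2 := by rw [← sq_abs]; exact pow_le_pow_left₀ (abs_nonneg _) hν 2
  have h3 : (6 * B) ^ 2 ≤ (t * s * δ) ^ 2 := pow_le_pow_left₀ (by positivity) h6 2
  have h4 : (δ / 8 * (1 + w)) ^ 2 ≤ (t * s * δ) ^ 2 / 16 := by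
    calc (δ / 8 * (1 + w)) ^ 2 ≤ (δ / 8 * (2 * (t * s))) ^ 2 := by
          apply pow_le_pow_left₀ (by positivity)
          exact mul_le_mul_of_nonneg_left (by linarith) (by positivity)
      _ = _ := by ring
  set Z0 := t * d0 + ξ * u0
  set Z1 := t * d1 + ξ * u1
  have e0 : α + t * d0 + ξ * u0 = α + Z0 := by simp only [Z0]; ring
  have e1 : ν + t * d1 + ξ * u1 = ν + Z1 := by simp only [Z1]; ring
  rw [e0, e1]
  nlinarith [sq_nonneg (2 * α + Z0), sq_nonneg (2 * ν + Z1), sq_nonneg (t * d2 + ξ * u2),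
    sq_nonneg ξ, sq_nonneg B]

theorem gb_small {t s C c B w α ν ξ u0 u1 u2 d0 d1 d2 k1 k2 : ℝ} (hC : 0 < C) (hc : 0 < c)
    (ht : 0 ≤ t) (hs : 0 ≤ s) (hs1 : s ≤ 1 / 2) (hs2 : 200 * C * s ≤ 1) (hs3 : 160 * B * s ≤ c)
    (hd0 : |d0| ≤ C * s ^ 2) (hd1 : |d1 - s * k1| ≤ C * s ^ 3) (hd2 : |d2 - s * k2| ≤ C * s ^ 3)
    (hu1 : |u1| ≤ 2 * s) (hu2 : |u2| ≤ 2 * s) (hu0 : 1 - s ^ 2 ≤ u0) (hα : |α| ≤ B) (hν : c ≤ ν)
    (hH : (ν + t * s) ^ 2 / 100 ≤ (ν + t * s * k1) ^ 2 + (t * s * k2) ^ 2)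
    (hw0 : 0 ≤ w) (hw : w ≤ t * s) :
    (min c 1 / 120 * (1 + w)) ^ 2 ≤
      (α + t * d0 + ξ * u0) ^ 2 + (ν + t * d1 + ξ * u1) ^ 2 + (t * d2 + ξ * u2) ^ 2 := by
  obtain ⟨X0, hX0⟩ : ∃ X, X = α + t * d0 + ξ * u0 := ⟨_, rfl⟩
  obtain ⟨X1, hX1⟩ : ∃ X, X = ν + t * d1 + ξ * u1 := ⟨_, rfl⟩
  obtain ⟨X2, hX2⟩ : ∃ X, X = t * d2 + ξ * u2 := ⟨_, rfl⟩
  obtain ⟨y, hy⟩ : ∃ y, y = t * s := ⟨_, rfl⟩
  rw [← hX0, ← hX1, ← hX2]
  rw [← hy] at hH hw
  obtain ⟨N, hN0, hN2⟩ : ∃ N, 0 ≤ N ∧ N ^ 2 = X0 ^ 2 + X1 ^ 2 + X2 ^ 2 :=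
    ⟨√(X0 ^ 2 + X1 ^ 2 + X2 ^ 2), Real.sqrt_nonneg _, Real.sq_sqrt (by positivity)⟩
  have q0 := sq_nonneg X0
  have q1 := sq_nonneg X1
  have q2 := sq_nonneg X2
  have n0 : |X0| ≤ N := abs_le_of_sq_le_sq (by linarith) hN0
  have n1 : |X1| ≤ N := abs_le_of_sq_le_sq (by linarith) hN0
  have n2 : |X2| ≤ N := abs_le_of_sq_le_sq (by linarith) hN0
  have hy0 : 0 ≤ y := hy ▸ mul_nonneg ht hs
  have hB : 0 ≤ B := (abs_nonneg _).trans hα
  have hu0' : 1 / 2 ≤ u0 := by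
    have := pow_le_pow_left₀ hs hs1 2
    linarith
  have hξ : |ξ| ≤ 2 * (N + B + C * y * s) := by
    have e : ξ * u0 = X0 - α - t * d0 := by rw [hX0]; ring
    have a1 : |ξ * u0| ≤ N + B + C * y * s := by
      rw [e]
      have b1 : |t * d0| ≤ C * y * s := by
        rw [abs_mul, abs_of_nonneg ht]
        calc t * |d0| ≤ t * (C * s ^ 2) := mul_le_mul_of_nonneg_left hd0 ht
          _ = _ := by rw [hy]; ring
      calc |X0 - α - t * d0| ≤ |X0 - α| + |t * d0| := abs_sub _ _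
        _ ≤ |X0| + |α| + |t * d0| := by linarith [abs_sub X0 α]
        _ ≤ _ := by linarith
    rw [abs_mul, abs_of_nonneg (by linarith : 0 ≤ u0)] at a1
    have := mul_le_mul_of_nonneg_left hu0' (abs_nonneg ξ)
    linarith
  have hE : ∀ {d k u : ℝ}, |d - s * k| ≤ C * s ^ 3 → |u| ≤ 2 * s →
      |t * (d - s * k) + ξ * u| ≤ 5 * C * y * s ^ 2 + 4 * s * N + 4 * s * B := by
    intro d k u h1 h2
    have b1 : |t * (d - s * k)| ≤ C * y * s ^ 2 := by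
      rw [abs_mul, abs_of_nonneg ht]
      calc t * |d - s * k| ≤ t * (C * s ^ 3) := mul_le_mul_of_nonneg_left h1 ht
        _ = _ := by rw [hy]; ring
    have b2 : |ξ * u| ≤ 2 * (N + B + C * y * s) * (2 * s) := by
      rw [abs_mul]
      exact mul_le_mul hξ h2 (abs_nonneg _) ((abs_nonneg _).trans hξ)
    have := abs_add_le (t * (d - s * k)) (ξ * u)
    have e : 2 * (N + B + C * y * s) * (2 * s) = 4 * (C * y * s ^ 2) + 4 * s * N + 4 * s * B := by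
      ring
    linarith
  have e1 := hE hd1 hu1
  have e2 := hE hd2 hu2
  have f1 : |ν + y * k1| ≤ N + (5 * C * y * s ^ 2 + 4 * s * N + 4 * s * B) := by
    have : ν + y * k1 = X1 - (t * (d1 - s * k1) + ξ * u1) := by rw [hX1, hy]; ring
    rw [this]; linarith [abs_sub X1 (t * (d1 - s * k1) + ξ * u1)]
  have f2 : |y * k2| ≤ N + (5 * C * y * s ^ 2 + 4 * s * N + 4 * s * B) := by
    have : y * k2 = X2 - (t * (d2 - s * k2) + ξ * u2) := by rw [hX2, hy]; ring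
    rw [this]; linarith [abs_sub X2 (t * (d2 - s * k2) + ξ * u2)]
  have g1 : (ν + y) / 10 ≤ |ν + y * k1| + |y * k2| := by
    refine le_of_sq_le_sq₀ (by positivity) ?_
    have := mul_nonneg (abs_nonneg (ν + y * k1)) (abs_nonneg (y * k2))
    rw [add_sq, sq_abs, sq_abs, div_pow]
    linarith
  have g2 : 10 * C * y * s ^ 2 ≤ y / 20 := by
    have a1 : 200 * C * s * s ≤ 1 * 1 := mul_le_mul hs2 (by linarith) hs zero_le_one
    have a2 := mul_le_mul_of_nonneg_left a1 hy0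
    have e : y * (200 * C * s * s) = 20 * (10 * C * y * s ^ 2) := by ring
    linarith
  have g3 : s * N ≤ 1 / 2 * N := mul_le_mul_of_nonneg_right hs1 hN0
  have g4 : c + w ≤ 120 * N := by
    have e1 : 4 * s * N = 4 * (s * N) := by ring
    have e2 : 160 * B * s = 40 * (4 * s * B) := by ring
    have e3 : 10 * C * y * s ^ 2 = 2 * (5 * C * y * s ^ 2) := by ring
    linarith
  have g5 : min c 1 / 120 * (1 + w) ≤ N := by
    have m1 := min_le_left c 1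
    have m2 := mul_le_mul_of_nonneg_right (min_le_right c 1) hw0
    have e : min c 1 / 120 * (1 + w) = (min c 1 + min c 1 * w) / 120 := by ring
    linarith
  rw [← hN2]
  exact pow_le_pow_left₀ (by have := lt_min hc one_pos; positivity) g5 2

theorem geoH_core {L : Loop} (h1 : ∀ θ, L.g1 θ = -Real.sin (4 * Real.pi * θ))
    (h2 : ∀ θ, L.g2 θ = Real.sin (2 * Real.pi * θ)) {c B : ℝ} (hc : 0 < c) :
    ∃ κ : ℝ, 0 < κ ∧ ∀ᶠ lam : ℝ in atTop, ∀ p0 a α ν θ ξ : ℝ, c ≤ p0 → p0 ≤ B → 0 ≤ a → a ≤ B →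
      |α| ≤ B → c ≤ ν → ν ≤ B →
      (κ * (1 + lam * a)) ^ 2 ≤
        (α + lam * rr p0 a * deriv (L.u0 (ss p0 a)) θ + ξ * L.u0 (ss p0 a) θ) ^ 2 +
        (ν + lam * rr p0 a * deriv (L.u1 (ss p0 a)) θ + ξ * L.u1 (ss p0 a) θ) ^ 2 +
        (lam * rr p0 a * deriv (L.u2 (ss p0 a)) θ + ξ * L.u2 (ss p0 a) θ) ^ 2 := by
  have pi3 := Real.pi_gt_three
  have hd1 : ∀ θ, deriv L.g1 θ = 2 * Real.pi * (-2 * Real.cos (2 * (2 * Real.pi * θ))) := by
    intro θ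
    have e : L.g1 = fun θ => -Real.sin (4 * Real.pi * θ) := funext h1
    have : HasDerivAt (fun θ => -Real.sin (4 * Real.pi * θ))
        (-(Real.cos (4 * Real.pi * θ) * (4 * Real.pi * 1))) θ :=
      (((hasDerivAt_id θ).const_mul (4 * Real.pi)).sin).neg
    rw [e, this.deriv, show 2 * (2 * Real.pi * θ) = 4 * Real.pi * θ by ring]; ring
  have hd2 : ∀ θ, deriv L.g2 θ = 2 * Real.pi * Real.cos (2 * Real.pi * θ) := by
    intro θ
    have e : L.g2 = fun θ => Real.sin (2 * Real.pi * θ) := funext h2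
    have : HasDerivAt (fun θ => Real.sin (2 * Real.pi * θ))
        (Real.cos (2 * Real.pi * θ) * (2 * Real.pi * 1)) θ :=
      ((hasDerivAt_id θ).const_mul (2 * Real.pi)).sin
    rw [e, this.deriv]; ring
  by_cases hcB : c ≤ B
  swap
  · exact ⟨1, one_pos, Eventually.of_forall fun _ p0 _ _ _ _ _ a b => (hcB (a.trans b)).elim⟩
  have hB : 0 < B := hc.trans_le hcB
  set δ := c / (2 * B) with hδ
  have hδ0 : 0 < δ := by positivity
  have hδ1 : δ ≤ 1 := by rw [hδ, div_le_one (by positivity)]; linarith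
  obtain ⟨C, hC, hU⟩ := L.deriv_upper (4 * Real.pi) δ hδ0 (fun θ => by
    rw [hd1, hd2]
    have a1 := Real.abs_cos_le_one (2 * (2 * Real.pi * θ))
    have a2 := Real.abs_cos_le_one (2 * Real.pi * θ)
    simp only [abs_mul, abs_neg, abs_two, abs_of_pos Real.pi_pos]
    constructor <;> nlinarith)
  set s0 := min (1 / 2) (min (1 / (200 * C)) (c / (160 * B))) with hs0
  have hs00 : 0 < s0 := lt_min (by norm_num) (lt_min (by positivity) (by positivity))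
  have hm : 0 < min c 1 := lt_min hc one_pos
  have hκ : 0 < min (δ / 8) (min c 1 / 120) := lt_min (by positivity) (by positivity)
  refine ⟨_, hκ, ?_⟩
  filter_upwards [eventually_ge_atTop (max 1 (6 * B / δ) / (c * s0)), eventually_ge_atTop 0]
    with lam hlam hl0 p0 a α ν θ ξ hp1 hp2 ha0 ha1 hα hν1 hν2
  have hp : 0 < p0 := hc.trans_le hp1
  have hr0 := rr_pos hp a
  have hr1 : c ≤ rr p0 a := hp1.trans (le_rr _ _)
  have hr2 : rr p0 a ≤ 2 * B := le_of_sq_le_sq₀ (by positivity) (by rw [rr_sq]; nlinarith)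
  have hδr : δ ≤ p0 / rr p0 a := by rw [hδ]; gcongr
  obtain ⟨s1, s2, s3⟩ := rr_mul_ss hp ha0
  obtain ⟨k0, k1, k2, k3, k4, k5, -⟩ := hU p0 a θ hp ha0 hδr
  have hw0 : 0 ≤ lam * a := mul_nonneg hl0 ha0
  have hw : lam * a ≤ lam * rr p0 a * ss p0 a := by
    rw [mul_assoc]; exact mul_le_mul_of_nonneg_left s2 hl0
  have h1w : 0 ≤ 1 + lam * a := by linarith
  rcases le_total s0 (ss p0 a) with hs | hs
  · have y1 : max 1 (6 * B / δ) ≤ lam * rr p0 a * ss p0 a := by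
      rw [div_le_iff₀ (by positivity)] at hlam
      refine hlam.trans ?_
      rw [mul_assoc]
      exact mul_le_mul_of_nonneg_left (mul_le_mul hr1 hs hs00.le hr0.le) hl0
    have y2 : 6 * B ≤ lam * rr p0 a * ss p0 a * δ := by
      have := (le_max_right _ _).trans y1
      rwa [div_le_iff₀ hδ0] at this
    have hg : 1 / 4 ≤ deriv L.g1 θ ^ 2 + deriv L.g2 θ ^ 2 := by
      have := horseshoe_quant (β := 0) (s := 2 * Real.pi) (2 * Real.pi * θ) le_rfl (by positivity)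
      rw [hd1, hd2]
      simp only [zero_add] at this
      nlinarith
    have hd : (δ * ss p0 a / 2) ^ 2 ≤ deriv (L.u0 (ss p0 a)) θ ^ 2 +
        deriv (L.u1 (ss p0 a)) θ ^ 2 + deriv (L.u2 (ss p0 a)) θ ^ 2 := by
      refine le_trans ?_ (L.deriv_sq_lower hp a θ)
      calc (δ * ss p0 a / 2) ^ 2 = δ * δ * ss p0 a ^ 2 * (1 / 4) := by ring
        _ ≤ _ := by
          gcongr
          nlinarith
    refine le_trans ?_ (gb_large (ξ := ξ) hδ0 hB.le (L.sum_sq hp a θ) (L.u_dot_deriv hp a θ) hd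
      hα (by rw [abs_of_pos (hc.trans_le hν1)]; exact hν2) hw0 hw ((le_max_left _ _).trans y1) y2)
    exact pow_le_pow_left₀ (mul_nonneg hκ.le h1w)
      (mul_le_mul_of_nonneg_right (min_le_left _ _) h1w) 2
  · have t1 : ss p0 a ≤ 1 / 2 := hs.trans (min_le_left _ _)
    have t2 : 200 * C * ss p0 a ≤ 1 := by
      have := hs.trans ((min_le_right _ _).trans (min_le_left _ _))
      rw [le_div_iff₀ (by positivity)] at this; linarith
    have t3 : 160 * B * ss p0 a ≤ c := by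
      have := hs.trans ((min_le_right _ _).trans (min_le_right _ _))
      rw [le_div_iff₀ (by positivity)] at this; linarith
    have hy0 : 0 ≤ lam * rr p0 a * ss p0 a := hw0.trans hw
    have hH : (ν + lam * rr p0 a * ss p0 a) ^ 2 / 100 ≤
        (ν + lam * rr p0 a * ss p0 a * deriv L.g1 θ) ^ 2 +
          (lam * rr p0 a * ss p0 a * deriv L.g2 θ) ^ 2 := by
      set y := lam * rr p0 a * ss p0 a
      have hν0 : 0 ≤ ν := (hc.trans_le hν1).le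
      have := horseshoe_quant (β := ν) (s := y * (2 * Real.pi)) (2 * Real.pi * θ) hν0
        (by positivity)
      rw [hd1, hd2, ← mul_assoc y, ← mul_assoc y (2 * Real.pi)]
      refine le_trans ?_ this
      gcongr
      nlinarith
    refine le_trans ?_ (gb_small (ξ := ξ) hC hc (mul_nonneg hl0 hr0.le) s1 t1 t2 t3 k0 k1 k2 k3 k4
      k5 hα hν1 hH hw0 hw)
    exact pow_le_pow_left₀ (mul_nonneg hκ.le h1w)
      (mul_le_mul_of_nonneg_right (min_le_right _ _) h1w) 2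

end Vale.Agent.P205
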