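import Vale.Agent.P205.S.Exp

/-!
Errors at level zero.
eXX W0 = 2 η ⟪T, dX W0⟫ + η^2 |dX W0|^2 (hT). eXy W0 = η ⟪T, dy W0⟫ + η ⟪Fy, dX W0⟫ +
η^2 ⟪dX W0, dy W0⟫ (Fy_Wt). Means: for slow F, mean ⟪F, dv W0⟫ = ⟪F, dv (mean W0)⟫ = 0
(mean_inner_left, dd_mean, dd_zero, mW), and Mix kills mean ⟪dθ W0, dy W0⟫.
eyy W0 = η^2 |dy W0|^2 under K: ⟪Fy, dy W0⟫ = dy ⟪Fy, W0⟫ - ⟪dy Fy, W0⟫ = 0.
-/

open scoped Manifold ContDiff Topology RealInnerProductSpace
open Set Filter Metric Function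

noncomputable section

namespace Vale.Agent.P205

variable {ι : Type} {P : Par ι} {K : Prop} (D : PreDat P K) {W U : ι → E3 → E4}
  {e s s' u t t' : ι → ℝ}

theorem init_mu (P : Par ι) (i : ι) : 0 ≤ P.μ i ^ 2 := sq_nonneg _

theorem PreDat.init_quad (v v' : E3) :
    Y P 2 (fun i => P.μ i ^ 2) (fun i p => ⟪dd v D.W0 i p, dd v' D.W0 i p⟫) :=
  ((D.yW.dd v).inner (D.yW.dd v')).mono (by norm_num) 1 (init_mu P)
    (fun i => le_of_eq (by simp only [Pi.one_apply]; ring))

theorem PreDat.init_slow {F : ι → E3 → E4} (hF : Y P 0 1 F) (v : E3) :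
    Y P 1 (fun i => P.μ i ^ 2) (fun i p => ⟪F i p, dd v D.W0 i p⟫) :=
  (hF.inner0 (D.yW.dd v)).mono le_rfl 1 (init_mu P) (fun i => by
    have := P.hμ i
    simp only [Pi.one_apply]
    nlinarith)

theorem PreDat.init_mean {F : ι → E3 → E4} (sF : Slow F) (v : E3) :
    Eo (mean fun i p => ⟪F i p, dd v D.W0 i p⟫) 0 := fun i p hp => by
  rw [mean_inner_left sF (D.yW.so.dd v) i p hp]
  have h1 := dd_mean D.yW.so v i p hp
  have h2 := dd_zero D.mW v i p hp
  show ⟪F i p, mean (dd v D.W0) i p⟫ = (0 : ℝ)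
  rw [← h1, h2]
  exact inner_zero_right _

theorem init_split {f g r : ι → E3 → ℝ} (hg : Y P 1 s g) (hm : Eo (mean g) 0) (hr : Y P 2 s' r)
    (h : ∀ i, s' i ≤ s i) (e : Eo f (fun i p => g i p + r i p)) :
    Y P 1 s f ∧ Y P 2 s' (mean f) := by
  refine ⟨(hg.add (hr.mono (by norm_num) 1 hg.1 (fun i => by simpa using h i))).congr e,
    hr.mean.congr (fun i p hp => ?_)⟩
  rw [mean_congr e i p hp, mean_add hg.so hr.so i p hp]
  show mean g i p + mean r i p = mean r i p
  rw [hm i p hp]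
  exact zero_add _

theorem init_cm {g : ι → E3 → ℝ} (hm : Eo (mean g) 0) (c : ι → ℝ) :
    Eo (mean fun i p => c i * g i p) 0 := fun i p hp => by
  have h := mean_csmul g c i p hp
  simp only [smul_eq_mul] at h
  rw [h, hm i p hp]
  exact mul_zero _

theorem init_add {f g : ι → E3 → ℝ} (hf : So f) (hg : So g) (mf : Eo (mean f) 0)
    (mg : Eo (mean g) 0) : Eo (mean fun i p => f i p + g i p) 0 := fun i p hp => by
  rw [mean_add hf hg i p hp]
  show mean f i p + mean g i p = 0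
  rw [mf i p hp, mg i p hp]
  exact add_zero _

theorem PreDat.init (hM : D.Mix) :
    D.Err D.W0 (fun i => P.η i * P.μ i ^ 2) (fun i => P.η i ^ 2 * P.μ i ^ 2) := by
  have hη : ∀ i, 0 ≤ P.η i := fun i => (P.η_pos i).le
  have hη2 : ∀ i, 0 ≤ P.η i ^ 2 := fun i => sq_nonneg _
  have hle : ∀ i, P.η i ^ 2 * P.μ i ^ 2 ≤ P.η i * P.μ i ^ 2 := fun i => by
    refine mul_le_mul_of_nonneg_right ?_ (init_mu P i)
    have := P.η_le_one i
    have := hη i
    nlinarith
  have hXX : Y P 1 (fun i => P.η i * P.μ i ^ 2) (D.eXX D.W0) ∧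
      Y P 2 (fun i => P.η i * P.μ i ^ 2) (mean (D.eXX D.W0)) := by
    have a1 := D.init_slow D.yFX (vX P.q)
    have m1 := D.init_mean D.sFX (vX P.q)
    have a2 := ((D.init_quad vt (vX P.q)).add (D.init_quad vt (vX P.q))).cmul hη
    have a3 := ((D.init_quad (vX P.q) (vX P.q)).cmul hη2).mono le_rfl 1 a2.1
      (fun i => by simpa using hle i)
    refine init_split ((a1.add a1).cmul hη) (init_cm (init_add a1.so a1.so m1 m1) P.η)
      (a2.add a3) (fun _ => le_rfl) (fun i p hp => ?_)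
    have hT := D.hT i p hp
    rw [← real_inner_self_eq_norm_sq, ← real_inner_self_eq_norm_sq] at hT
    simp only [PreDat.eXX, PreDat.GX, inner_add_left, inner_add_right, inner_smul_left,
      inner_smul_right, RCLike.conj_to_real] at hT ⊢
    rw [real_inner_comm (D.FX i p) (dd (vX P.q) D.W0 i p),
      real_inner_comm (dd vt D.W0 i p) (dd (vX P.q) D.W0 i p)]
    linear_combination hT
  have hXy : Y P 1 (fun i => P.η i * P.μ i ^ 2) (D.eXy D.W0) ∧
      Y P 2 (fun i => P.η i ^ 2 * P.μ i ^ 2) (mean (D.eXy D.W0)) := by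
    have a1 := D.init_slow D.yFX vy
    have m1 := D.init_mean D.sFX vy
    have a2 := D.init_slow D.yFy (vX P.q)
    have m2 := D.init_mean D.sFy (vX P.q)
    have a3 := (D.init_quad vt vy).mono (b := 1) (by norm_num) 1 (init_mu P)
      (fun i => by simp)
    refine init_split (((a1.add a2).add a3).cmul hη)
      (init_cm (init_add (a1.add a2).so a3.so (init_add a1.so a2.so m1 m2) hM) P.η)
      ((D.init_quad (vX P.q) vy).cmul hη2) hle (fun i p hp => ?_)
    have h0 := D.Fy_Wt i hp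
    simp only [PreDat.eXy, PreDat.GX, PreDat.Gy, inner_add_left, inner_add_right, inner_smul_left,
      inner_smul_right, RCLike.conj_to_real]
    rw [real_inner_comm (D.Fy i p) (dd vt D.W0 i p),
      real_inner_comm (D.Fy i p) (dd (vX P.q) D.W0 i p), h0]
    ring
  refine ⟨hXX.1, hXy.1, hXX.2, hXy.2, fun hK => ?_⟩
  have h2 : Y P 2 (fun i => P.η i * (P.η i * P.μ i ^ 2)) (D.eyy D.W0) := by
    refine (((D.init_quad vy vy).cmul hη).cmul hη).congr (fun i p hp => ?_)
    have h1 := dd_inner D.yFy.so D.yW.so vy i p hp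
    have h2 := dd_zero (u := fun i p => ⟪D.Fy i p, D.W0 i p⟫) (fun i p hp => D.hy i p hp) vy i p hp
    rw [h2] at h1
    have h3 : ⟪D.Fy i p, dd vy D.W0 i p⟫ = 0 := by
      have h4 := D.hyy hK i p hp
      simp only [Pi.zero_apply] at h1
      linarith
    simp only [PreDat.eyy, PreDat.Gy, inner_add_left, inner_add_right, inner_smul_left,
      inner_smul_right, RCLike.conj_to_real]
    rw [real_inner_comm (D.Fy i p) (dd vy D.W0 i p), h3]
    ring
  exact ⟨h2.mono (by norm_num) 1 h2.1 (fun i => by simp), h2.mean⟩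

end Vale.Agent.P205
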