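import Vale.Agent.P205.S.Defs

/-!
Pointwise facts about rr, ss and the unit loop.
ss^2 = 2 a^2 / (r (r + p0)) = 2 (1 - p0 / r) since a^2 = (r - p0)(r + p0). The integrals follow
from m1, o1, o2, o12 with Φ x = s √(1 - s^2 x / 4) and so on (Real.continuous_sqrt).
int_u12_lower: u1^2 + u2^2 = s^2 ρ (1 - s^2 ρ / 4) ≥ s^2 ρ p0 / r. int_u1_sq: 1 - ∫ u1^2 ≥ ∫ u0^2 ≥
(∫ u0)^2 (integrate (u0 - p0 / r)^2 ≥ 0).
-/

open scoped Manifold ContDiff Topology RealInnerProductSpace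
open Set Filter Metric Function

noncomputable section

namespace Vale.Agent.P205

variable {p0 a : ℝ} (L : Loop)

theorem Loop.lalg_cont_rho : Continuous L.rho := by
  have h1 := L.s1.continuous
  have h2 := L.s2.continuous
  unfold Loop.rho
  fun_prop

theorem Loop.lalg_int_rho : ∫ θ in (0 : ℝ)..1, L.rho θ = 1 := L.m1

theorem Loop.lalg_u12 (s θ : ℝ) (h : 0 ≤ 1 - s ^ 2 * L.rho θ / 4) :
    L.u1 s θ ^ 2 + L.u2 s θ ^ 2 = s ^ 2 * L.rho θ * (1 - s ^ 2 * L.rho θ / 4) := by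
  have h1 : √(1 - s ^ 2 * L.rho θ / 4) ^ 2 = 1 - s ^ 2 * L.rho θ / 4 := Real.sq_sqrt h
  have h2 : L.rho θ = L.g1 θ ^ 2 + L.g2 θ ^ 2 := rfl
  unfold Loop.u1 Loop.u2
  rw [mul_pow, mul_pow, mul_pow, mul_pow, h1]
  generalize 1 - s ^ 2 * L.rho θ / 4 = c
  rw [h2]
  ring

theorem lalg_key {f g : ℝ → ℝ} {m : ℝ} (hf : Continuous f) (hg : Continuous g)
    (hm : ∫ θ in (0 : ℝ)..1, f θ = m) (h : ∀ θ, f θ ^ 2 + g θ ≤ 1) :
    m ^ 2 ≤ 1 - ∫ θ in (0 : ℝ)..1, g θ := by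
  have h1 : ∫ θ in (0 : ℝ)..1, (2 * m * f θ - m ^ 2) = m ^ 2 := by
    rw [intervalIntegral.integral_sub ((hf.intervalIntegrable 0 1).const_mul _) (by simp),
      intervalIntegral.integral_const_mul, hm]
    simp only [intervalIntegral.integral_const, sub_zero, smul_eq_mul, one_mul]
    ring
  have h2 : ∫ θ in (0 : ℝ)..1, (1 - g θ) = 1 - ∫ θ in (0 : ℝ)..1, g θ := by
    rw [intervalIntegral.integral_sub (by simp) (hg.intervalIntegrable 0 1)]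
    simp
  rw [← h1, ← h2]
  refine intervalIntegral.integral_mono_on zero_le_one
    (Continuous.intervalIntegrable (by fun_prop) 0 1)
    (Continuous.intervalIntegrable (by fun_prop) 0 1) fun θ _ => ?_
  nlinarith [h θ, sq_nonneg (f θ - m)]

theorem rr_sq (p0 a : ℝ) : rr p0 a ^ 2 = p0 ^ 2 + a ^ 2 := by
  unfold rr
  exact Real.sq_sqrt (by positivity)

theorem le_rr (p0 a : ℝ) : p0 ≤ rr p0 a := by
  unfold rr
  exact Real.le_sqrt_of_sq_le (by nlinarith [sq_nonneg a])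

theorem rr_pos (hp : 0 < p0) (a : ℝ) : 0 < rr p0 a := by
  exact lt_of_lt_of_le hp (le_rr p0 a)

theorem ss_sq (hp : 0 < p0) (a : ℝ) : ss p0 a ^ 2 = 2 * (1 - p0 / rr p0 a) := by
  have hr := rr_pos hp a
  have h2 := rr_sq p0 a
  unfold ss
  rw [mul_pow, Real.sq_sqrt (by positivity)]
  have ha : a ^ 2 = (rr p0 a - p0) * (rr p0 a + p0) := by nlinarith
  rw [ha]
  have : rr p0 a + p0 ≠ 0 := by positivity
  field_simp

theorem rr_mul_ss (hp : 0 < p0) (ha : 0 ≤ a) :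
    0 ≤ ss p0 a ∧ a ≤ rr p0 a * ss p0 a ∧ rr p0 a * ss p0 a ≤ 2 * a := by
  have hr := rr_pos hp a
  have h2 := rr_sq p0 a
  have hl := le_rr p0 a
  have hs : 0 ≤ ss p0 a := by unfold ss; positivity
  have hq : (rr p0 a * ss p0 a) ^ 2 = 2 * rr p0 a * (rr p0 a - p0) := by
    rw [mul_pow, ss_sq hp]
    field_simp
  have hm : 0 ≤ rr p0 a * ss p0 a := by positivity
  refine ⟨hs, le_of_sq_le_sq ?_ hm, le_of_sq_le_sq ?_ (by positivity)⟩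
  · rw [hq]; nlinarith [sq_nonneg (rr p0 a - p0)]
  · rw [hq]; nlinarith [mul_nonneg (sub_nonneg.2 hl) hp.le, mul_nonneg (sub_nonneg.2 hl) hr.le]

theorem Loop.rho_nonneg (θ : ℝ) : 0 ≤ L.rho θ := by
  unfold Loop.rho
  positivity

theorem Loop.root_lower (hp : 0 < p0) (a θ : ℝ) :
    p0 / rr p0 a ≤ 1 - ss p0 a ^ 2 * L.rho θ / 4 := by
  have h1 : L.rho θ ≤ 2 := L.le2 θ
  have h2 := ss_sq hp a
  have h3 : ss p0 a ^ 2 * L.rho θ ≤ ss p0 a ^ 2 * 2 :=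
    mul_le_mul_of_nonneg_left h1 (sq_nonneg _)
  linarith

theorem Loop.sum_sq (hp : 0 < p0) (a θ : ℝ) :
    L.u0 (ss p0 a) θ ^ 2 + L.u1 (ss p0 a) θ ^ 2 + L.u2 (ss p0 a) θ ^ 2 = 1 := by
  have h0 : 0 ≤ 1 - ss p0 a ^ 2 * L.rho θ / 4 :=
    le_trans (div_pos hp (rr_pos hp a)).le (L.root_lower hp a θ)
  have h1 := L.lalg_u12 (ss p0 a) θ h0
  rw [add_assoc, h1]
  unfold Loop.u0
  ring

theorem Loop.r_u0_sub (hp : 0 < p0) (a θ : ℝ) :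
    rr p0 a * L.u0 (ss p0 a) θ - p0 = rr p0 a * ss p0 a ^ 2 * (1 - L.rho θ) / 2 := by
  have hr := rr_pos hp a
  unfold Loop.u0
  rw [ss_sq hp]
  field_simp
  ring

theorem Loop.cont_u (s : ℝ) :
    Continuous (L.u0 s) ∧ Continuous (L.u1 s) ∧ Continuous (L.u2 s) := by
  have h1 := L.s1.continuous
  have h2 := L.s2.continuous
  have h3 := L.lalg_cont_rho
  refine ⟨?_, ?_, ?_⟩
  · unfold Loop.u0; fun_prop
  · unfold Loop.u1; fun_prop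
  · unfold Loop.u2; fun_prop

theorem Loop.per_u (s : ℝ) :
    Periodic (L.u0 s) 1 ∧ Periodic (L.u1 s) 1 ∧ Periodic (L.u2 s) 1 := by
  have h3 : ∀ θ, L.rho (θ + 1) = L.rho θ := fun θ => by
    unfold Loop.rho; rw [L.p1 θ, L.p2 θ]
  refine ⟨fun θ => ?_, fun θ => ?_, fun θ => ?_⟩
  · unfold Loop.u0; rw [h3]
  · unfold Loop.u1; rw [h3, L.p1 θ]
  · unfold Loop.u2; rw [h3, L.p2 θ]

theorem Loop.int_u0 (hp : 0 < p0) (a : ℝ) :
    ∫ θ in (0 : ℝ)..1, L.u0 (ss p0 a) θ = p0 / rr p0 a := by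
  have h1 : ∀ θ, L.u0 (ss p0 a) θ = 1 - ss p0 a ^ 2 / 2 * L.rho θ := fun θ => by
    unfold Loop.u0; ring
  simp_rw [h1]
  rw [intervalIntegral.integral_sub (by simp)
    ((L.lalg_cont_rho.intervalIntegrable 0 1).const_mul _),
    intervalIntegral.integral_const_mul, L.lalg_int_rho, ss_sq hp]
  simp

theorem Loop.int_u1 (s : ℝ) : ∫ θ in (0 : ℝ)..1, L.u1 s θ = 0 := by
  exact L.o1 (fun x => s * √(1 - s ^ 2 * x / 4)) (by fun_prop)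

theorem Loop.int_u2 (s : ℝ) : ∫ θ in (0 : ℝ)..1, L.u2 s θ = 0 := by
  exact L.o2 (fun x => s * √(1 - s ^ 2 * x / 4)) (by fun_prop)

theorem Loop.int_u01 (s : ℝ) : ∫ θ in (0 : ℝ)..1, L.u0 s θ * L.u1 s θ = 0 := by
  refine Eq.trans (intervalIntegral.integral_congr fun θ _ => ?_)
    (L.o1 (fun x => (1 - s ^ 2 * x / 2) * (s * √(1 - s ^ 2 * x / 4))) (by fun_prop))
  simp only [Loop.u0, Loop.u1, Loop.rho]
  ring

theorem Loop.int_u02 (s : ℝ) : ∫ θ in (0 : ℝ)..1, L.u0 s θ * L.u2 s θ = 0 := by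
  refine Eq.trans (intervalIntegral.integral_congr fun θ _ => ?_)
    (L.o2 (fun x => (1 - s ^ 2 * x / 2) * (s * √(1 - s ^ 2 * x / 4))) (by fun_prop))
  simp only [Loop.u0, Loop.u2, Loop.rho]
  ring

theorem Loop.int_u12 (s : ℝ) : ∫ θ in (0 : ℝ)..1, L.u1 s θ * L.u2 s θ = 0 := by
  refine Eq.trans (intervalIntegral.integral_congr fun θ _ => ?_)
    (L.o12 (fun x => (s * √(1 - s ^ 2 * x / 4)) * (s * √(1 - s ^ 2 * x / 4))) (by fun_prop))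
  simp only [Loop.u1, Loop.u2, Loop.rho]
  ring

theorem Loop.int_u12_lower (hp : 0 < p0) (a : ℝ) : ss p0 a ^ 2 * (p0 / rr p0 a) ≤
    ∫ θ in (0 : ℝ)..1, (L.u1 (ss p0 a) θ ^ 2 + L.u2 (ss p0 a) θ ^ 2) := by
  obtain ⟨-, c1, c2⟩ := L.cont_u (ss p0 a)
  have h1 : ss p0 a ^ 2 * (p0 / rr p0 a) =
      ∫ θ in (0 : ℝ)..1, ss p0 a ^ 2 * (p0 / rr p0 a) * L.rho θ := by
    rw [intervalIntegral.integral_const_mul, L.lalg_int_rho, mul_one]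
  rw [h1]
  refine intervalIntegral.integral_mono_on zero_le_one
    ((L.lalg_cont_rho.intervalIntegrable 0 1).const_mul _)
    (((c1.pow 2).add (c2.pow 2)).intervalIntegrable 0 1) fun θ _ => ?_
  have h2 := L.root_lower hp a θ
  have h0 : 0 ≤ 1 - ss p0 a ^ 2 * L.rho θ / 4 :=
    le_trans (div_pos hp (rr_pos hp a)).le h2
  rw [L.lalg_u12 (ss p0 a) θ h0]
  have h3 : 0 ≤ ss p0 a ^ 2 * L.rho θ := mul_nonneg (sq_nonneg _) (L.rho_nonneg θ)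
  have h4 := mul_le_mul_of_nonneg_left h2 h3
  linarith

theorem Loop.int_u1_sq (hp : 0 < p0) (a : ℝ) :
    (p0 / rr p0 a) ^ 2 ≤ 1 - ∫ θ in (0 : ℝ)..1, L.u1 (ss p0 a) θ ^ 2 := by
  obtain ⟨c0, c1, -⟩ := L.cont_u (ss p0 a)
  refine lalg_key c0 (c1.pow 2) (L.int_u0 hp a) fun θ => ?_
  have h := L.sum_sq hp a θ
  nlinarith [sq_nonneg (L.u2 (ss p0 a) θ)]

theorem Loop.int_u2_sq (hp : 0 < p0) (a : ℝ) :
    (p0 / rr p0 a) ^ 2 ≤ 1 - ∫ θ in (0 : ℝ)..1, L.u2 (ss p0 a) θ ^ 2 := by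
  obtain ⟨c0, -, c2⟩ := L.cont_u (ss p0 a)
  refine lalg_key c0 (c2.pow 2) (L.int_u0 hp a) fun θ => ?_
  have h := L.sum_sq hp a θ
  nlinarith [sq_nonneg (L.u1 (ss p0 a) θ)]

end Vale.Agent.P205
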