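import Vale.Agent.P205.S.Exp

/-!
The main correction.
Apply D.solve with t = μ s, f = -eXX / 2, c = -anti eXy (mean_anti, dd_vt_anti), and d = dy c +
eyy / (2 η) if K holds, d = 0 otherwise (by_cases). mean d = dy (mean c) + mean eyy / (2η).
Then ⟪Fy, dθ U⟫ = dθ ⟪Fy, U⟫ = dθ c (Fy slow) and ⟪Fy, dy U⟫ = dy c - ⟪dy Fy, U⟫ = -eyy / (2η).
-/

open scoped Manifold ContDiff Topology RealInnerProductSpace
open Set Filter Metric Function

noncomputable section

namespace Vale.Agent.P205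

variable {ι : Type} {P : Par ι} {K : Prop} (D : PreDat P K) {W U : ι → E3 → E4}
  {e s s' u t t' : ι → ℝ}

theorem PreDat.mainU (hW : Per W) (hE : D.Err W s s') : ∃ U : ι → E3 → E4, Per U ∧
    Y P 1 (fun i => P.μ i ^ 2 * s i) U ∧ Y P 2 (fun i => P.μ i ^ 2 * s i) (mean U) ∧
    (∀ i, ∀ p ∈ Om, 2 * ⟪D.T i p, dd vt U i p⟫ = -D.eXX W i p) ∧
    (∀ i, ∀ p ∈ Om, ⟪D.Fy i p, dd vt U i p⟫ = mean (D.eXy W) i p - D.eXy W i p) ∧
    (K → ∀ i, ∀ p ∈ Om, 2 * (P.η i * ⟪D.Fy i p, dd vy U i p⟫) = -D.eyy W i p) := by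
  obtain ⟨yXX, yXy, mXX, -, hK⟩ := hE
  have hs0 : ∀ i, 0 ≤ s i := yXX.1
  have h0 : ∀ i, 0 ≤ P.μ i * s i := fun i => mul_nonneg (exp_μ_pos P i).le (hs0 i)
  have hst : ∀ i, s i ≤ 1 * (P.μ i * s i) := fun i => by
    rw [one_mul]
    exact le_mul_of_one_le_left (hs0 i) (P.hμ i)
  have hlam : ∀ i, 0 < P.lam i := fun i => zero_lt_one.trans_le (P.hlam i)
  have pXy := D.per_eXy hW
  have yc : Y P 1 s fun i p => (-1 : ℝ) • anti (D.eXy W) i p := yXy.anti.smul_const _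
  have pc : Per fun i p => (-1 : ℝ) • anti (D.eXy W) i p := pXy.anti.map fun _ x => (-1 : ℝ) • x
  have mc : Eo (mean fun i p => (-1 : ℝ) • anti (D.eXy W) i p) 0 := fun i p hp => by
    rw [mean_csmul _ (fun _ => (-1 : ℝ)) i p hp]
    beta_reduce
    rw [mean_anti yXy.so pXy i p hp]
    simp
  obtain ⟨d, yd, pd, md, hd⟩ : ∃ d : ι → E3 → ℝ, Y P 1 (fun i => P.μ i * s i) d ∧ Per d ∧
      Y P 2 (fun i => P.μ i * s i) (mean d) ∧ (K → ∀ i, ∀ p ∈ Om, d i p =
        dd vy (fun i p => (-1 : ℝ) • anti (D.eXy W) i p) i p + (P.lam i / 2) • D.eyy W i p) := by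
    by_cases k : K
    · have h1 : ∀ i, 0 ≤ P.lam i / 2 := fun i => by have := hlam i; positivity
      have h2 : ∀ i, P.lam i / 2 * (P.η i * s i) ≤ 1 * (P.μ i * s i) := fun i => by
        have e : P.lam i / 2 * (P.η i * s i) = s i / 2 := by
          have := (hlam i).ne'
          unfold Par.η
          field_simp
        linarith [hst i, hs0 i]
      have yg := ((hK k).1.csmul h1).mono le_rfl 1 h0 h2
      refine ⟨_, (yc.dd vy).add yg, (pc.dd vy).map₂ (D.per_eyy hW)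
        fun i x y => x + (P.lam i / 2) • y, ?_, fun _ _ _ _ => rfl⟩
      refine (((hK k).2.csmul h1).mono le_rfl 1 h0 h2).congr fun i p hp => ?_
      rw [mean_add (yc.dd vy).so yg.so i p hp]
      beta_reduce
      rw [← dd_mean yc.so vy i p hp, dd_zero mc vy i p hp,
        mean_csmul _ (fun i => P.lam i / 2) i p hp]
      simp
    · exact ⟨fun _ _ => 0, Y.zero h0, fun _ _ _ => rfl,
        Y.of_eo_zero h0 fun i p _ => by simp [mean], fun h => absurd h k⟩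
  obtain ⟨U, pU, yU, mU, h1, h2, h3⟩ := D.solve (fun i => P.μ i * s i)
    (fun i p => (-1 / 2 : ℝ) • D.eXX W i p) _ d ((yXX.smul_const _).mono le_rfl 1 h0 hst)
    (yc.mono le_rfl 1 h0 hst) yd ((D.per_eXX hW).map fun _ x => (-1 / 2 : ℝ) • x) pc pd
    (((mXX.smul_const (-1 / 2 : ℝ)).mono le_rfl 1 h0 hst).congr
      (mean_csmul _ fun _ => (-1 / 2 : ℝ))) (Y.of_eo_zero h0 mc) md
  have e : (fun i => P.μ i ^ 2 * s i) = fun i => P.μ i * (P.μ i * s i) := funext fun i => by ring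
  rw [e]
  refine ⟨U, pU, yU, mU, fun i p hp => ?_, fun i p hp => ?_, fun k i p hp => ?_⟩
  · have h4 : ⟪D.T i p, dd vt U i p⟫ = (-1 / 2 : ℝ) • D.eXX W i p := h1 i p hp
    rw [h4, smul_eq_mul]
    ring
  · have h4 := dd_inner D.yFy.so yU.so vt i p hp
    rw [dd_congr (u := fun i p => ⟪D.Fy i p, U i p⟫) h2 vt i p hp,
      dd_csmul yXy.so.anti (fun _ => (-1 : ℝ)) vt i p hp] at h4
    beta_reduce at h4
    rw [dd_vt_anti yXy.so pXy i p hp, D.sFy.dd_vt i p hp] at h4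
    simp only [Pi.zero_apply, inner_zero_left, smul_eq_mul] at h4
    linarith
  · have h4 := dd_inner D.yFy.so yU.so vy i p hp
    beta_reduce at h4
    rw [dd_congr (u := fun i p => ⟪D.Fy i p, U i p⟫) h2 vy i p hp, h3 k i p hp, hd k i p hp,
      smul_eq_mul] at h4
    have h5 : ⟪D.Fy i p, dd vy U i p⟫ = -(P.lam i / 2 * D.eyy W i p) := by linarith
    have := (hlam i).ne'
    rw [h5]
    unfold Par.η
    field_simp

end Vale.Agent.P205
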