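import Vale.Agent.P205.S.YB

/-!
Parametric integrals over [0,1].
pint_fderiv: intervalIntegral.hasFDerivAt_integral_of_dominated_of_fderiv_le on a small closed ball
around p (the partial derivative in p is continuous on the compact [0,1] × ball, hence bounded).
The partial derivative of G s at p is (fderiv (uncurry G) (s, p)) ∘L inr, again jointly smooth.
pint_smooth, pint_bound: induction on the order generalizing V (contDiffOn_infty /
contDiffOn_succ_iff_fderiv_of_isOpen; norm_iteratedFDeriv_fderiv; eventual equality of the fderiv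
of the integral with the integral of the fderivs on the open set Om).
-/

open scoped Manifold ContDiff Topology RealInnerProductSpace
open Set Filter Metric Function

noncomputable section

namespace Vale.Agent.P205

variable {V : Type} [NormedAddCommGroup V] [NormedSpace ℝ V] [CompleteSpace V]

omit [CompleteSpace V] in
theorem pint_has {G : ℝ → E3 → V} {U : Set (ℝ × E3)} (hU : IsOpen U)
    (hG : ContDiffOn ℝ ∞ (uncurry G) U) {s : ℝ} {x : E3} (h : (s, x) ∈ U) :
    HasFDerivAt (G s) ((fderiv ℝ (uncurry G) (s, x)).comp (ContinuousLinearMap.inr ℝ ℝ E3)) x :=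
  HasFDerivAt.comp (g := uncurry G) (f := fun y => (s, y)) x
    ((hG.contDiffAt (hU.mem_nhds h)).differentiableAt (by simp)).hasFDerivAt
    (hasFDerivAt_prodMk_right (𝕜 := ℝ) s x)

omit [CompleteSpace V] in
theorem pint_d {G : ℝ → E3 → V} {U : Set (ℝ × E3)} (hU : IsOpen U)
    (hG : ContDiffOn ℝ ∞ (uncurry G) U) :
    ContDiffOn ℝ ∞ (uncurry fun s x => fderiv ℝ (G s) x) U :=
  ((hG.fderiv_of_isOpen hU (by simp)).clm_comp
    (contDiffOn_const (c := ContinuousLinearMap.inr ℝ ℝ E3))).congr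
    fun z hz => (pint_has (s := z.1) (x := z.2) hU hG hz).fderiv

omit [CompleteSpace V] in
theorem pint_int {G : ℝ → E3 → V} {U : Set (ℝ × E3)} (hs : Icc (0 : ℝ) 1 ×ˢ Om ⊆ U)
    (hG : ContDiffOn ℝ ∞ (uncurry G) U) {p : E3} (hp : p ∈ Om) :
    IntervalIntegrable (fun s => G s p) MeasureTheory.volume 0 1 := by
  refine ContinuousOn.intervalIntegrable_of_Icc zero_le_one ?_
  exact hG.continuousOn.comp (f := fun s : ℝ => (s, p)) (by fun_prop)
    fun s h => hs (mk_mem_prod h hp)

theorem pint_fderiv {G : ℝ → E3 → V} {U : Set (ℝ × E3)} (hU : IsOpen U)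
    (hs : Icc (0 : ℝ) 1 ×ˢ Om ⊆ U) (hG : ContDiffOn ℝ ∞ (uncurry G) U) {p : E3}
    (hp : p ∈ Om) : HasFDerivAt (fun x => ∫ s in (0 : ℝ)..1, G s x)
      (∫ s in (0 : ℝ)..1, fderiv ℝ (G s) p) p := by
  obtain ⟨ε, hε, hb⟩ := nhds_basis_closedBall.mem_iff.1 (isOpen_Om.mem_nhds hp)
  have hD := pint_d hU hG
  have hK : IsCompact (Icc (0 : ℝ) 1 ×ˢ closedBall p ε) :=
    isCompact_Icc.prod (isCompact_closedBall p ε)
  have hsub : Icc (0 : ℝ) 1 ×ˢ closedBall p ε ⊆ U := (prod_mono Subset.rfl hb).trans hs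
  obtain ⟨C, hC⟩ := hK.exists_bound_of_continuousOn (hD.continuousOn.mono hsub)
  have hI : uIoc (0 : ℝ) 1 ⊆ Icc 0 1 := by
    rw [uIoc_of_le zero_le_one]
    exact Ioc_subset_Icc_self
  refine intervalIntegral.hasFDerivAt_integral_of_dominated_of_fderiv_le
    (F := fun x s => G s x) (F' := fun x s => fderiv ℝ (G s) x) (bound := fun _ => C)
    (closedBall_mem_nhds p hε) ?_ (pint_int hs hG hp) ?_ ?_ intervalIntegrable_const ?_
  · filter_upwards [isOpen_Om.mem_nhds hp] with x hx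
    exact (intervalIntegrable_iff.1 (pint_int hs hG hx)).aestronglyMeasurable
  · exact (intervalIntegrable_iff.1 (pint_int hs hD hp)).aestronglyMeasurable
  · exact Eventually.of_forall fun t ht x hx => hC (t, x) ⟨hI ht, hx⟩
  · exact Eventually.of_forall fun t ht x hx =>
      (pint_has hU hG (hsub (mk_mem_prod (hI ht) hx))).differentiableAt.hasFDerivAt

theorem pint_fderiv_apply {G : ℝ → E3 → V} {U : Set (ℝ × E3)} (hU : IsOpen U)
    (hs : Icc (0 : ℝ) 1 ×ˢ Om ⊆ U) (hG : ContDiffOn ℝ ∞ (uncurry G) U)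
    {p : E3} (hp : p ∈ Om) (v : E3) :
    fderiv ℝ (fun x => ∫ s in (0 : ℝ)..1, G s x) p v =
      ∫ s in (0 : ℝ)..1, fderiv ℝ (G s) p v := by
  rw [(pint_fderiv hU hs hG hp).fderiv,
    ContinuousLinearMap.intervalIntegral_apply (pint_int hs (pint_d hU hG) hp)]

theorem pint_smooth {G : ℝ → E3 → V} {U : Set (ℝ × E3)} (hU : IsOpen U)
    (hs : Icc (0 : ℝ) 1 ×ˢ Om ⊆ U) (hG : ContDiffOn ℝ ∞ (uncurry G) U) :
    ContDiffOn ℝ ∞ (fun x => ∫ s in (0 : ℝ)..1, G s x) Om := by
  rw [contDiffOn_infty]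
  intro n
  induction n generalizing V with
  | zero =>
    exact contDiffOn_zero.2 fun p hp =>
      (pint_fderiv hU hs hG hp).continuousAt.continuousWithinAt
  | succ n ih =>
    rw [Nat.cast_succ, contDiffOn_succ_iff_fderiv_of_isOpen isOpen_Om]
    refine ⟨fun p hp => (pint_fderiv hU hs hG hp).differentiableAt.differentiableWithinAt,
      fun h => absurd h (by simp), ?_⟩
    exact (ih (pint_d hU hG)).congr fun p hp => (pint_fderiv hU hs hG hp).fderiv

theorem pint_bound {G : ℝ → E3 → V} {U : Set (ℝ × E3)} (hU : IsOpen U)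
    (hs : Icc (0 : ℝ) 1 ×ˢ Om ⊆ U) (hG : ContDiffOn ℝ ∞ (uncurry G) U) (j : ℕ)
    {p : E3} (hp : p ∈ Om) {B : ℝ}
    (hB : ∀ s ∈ Icc (0 : ℝ) 1, ‖iteratedFDeriv ℝ j (G s) p‖ ≤ B) :
    ‖iteratedFDeriv ℝ j (fun x => ∫ s in (0 : ℝ)..1, G s x) p‖ ≤ B := by
  induction j generalizing V with
  | zero =>
    rw [norm_iteratedFDeriv_zero]
    have h := intervalIntegral.norm_integral_le_of_norm_le_const (a := 0) (b := 1) (C := B)
      (f := fun s => G s p) fun s h => by
        rw [uIoc_of_le zero_le_one] at h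
        have h1 := hB s (Ioc_subset_Icc_self h)
        rwa [norm_iteratedFDeriv_zero] at h1
    simpa using h
  | succ j ih =>
    have e : fderiv ℝ (fun x => ∫ s in (0 : ℝ)..1, G s x) =ᶠ[𝓝 p]
        fun x => ∫ s in (0 : ℝ)..1, fderiv ℝ (G s) x := by
      filter_upwards [isOpen_Om.mem_nhds hp] with x hx
      exact (pint_fderiv hU hs hG hx).fderiv
    rw [← norm_iteratedFDeriv_fderiv, (e.iteratedFDeriv ℝ j).eq_of_nhds]
    refine ih (pint_d hU hG) fun s h => ?_
    exact (norm_iteratedFDeriv_fderiv (f := G s)).trans_le (hB s h)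

end Vale.Agent.P205
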