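import Vale.Agent.P205.S.Exp

/-!
The phase correction U = φ • dθ W0.
exists_phase: φ = -inty (η⁻¹ * mean eXy * (a^2)⁻¹) (Y.inty, dd_vy_inty, Slow.inty, y_inv_sq).
phase_mean: with U = φ W0t, dθ U = φ W0tt, dy U = φ_y W0t + φ dy W0t, dX U = φ_X W0t + φ dX W0t,
the expression is φ_y ⟪T, W0t⟫ + φ_X ⟪Fy, W0t⟫ + φ B with B = ⟪T, dy W0t⟫ + ⟪W0tt, dy W0⟫ +
⟪Fy, dX W0t⟫ = dθ (⟪T, dy W0⟫ + ⟪Fy, dX W0⟫) (dd_inner, dd_comm, dθ T = W0tt). Use mean_T_Wt,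
Fy_Wt, mean_dd_vt, mean_smul_left.
-/

open scoped Manifold ContDiff Topology RealInnerProductSpace
open Set Filter Metric Function

noncomputable section

namespace Vale.Agent.P205

variable {ι : Type} {P : Par ι} {K : Prop} (D : PreDat P K) {W U : ι → E3 → E4}
  {e s s' u t t' : ι → ℝ}

theorem PreDat.exists_phase (hW : Per W)
    (hE : Y P 2 (fun i => P.η i * u i) (mean (D.eXy W))) (hu : ∀ i, 0 ≤ u i) :
    ∃ φ : ι → E3 → ℝ, Slow φ ∧ Y P 0 u φ ∧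
      ∀ i, ∀ p ∈ Om, P.η i * (D.a i p ^ 2 * dd vy φ i p) = -mean (D.eXy W) i p := by
  have hη : ∀ i, 0 ≤ (P.η i)⁻¹ := fun i => (inv_pos.2 (P.η_pos i)).le
  have h1 : Y P 0 u (fun i p => -((P.η i)⁻¹ * (mean (D.eXy W) i p * (D.a i p ^ 2)⁻¹))) :=
    (((hE.mul D.y_inv_sq).cmul hη).mono (by norm_num) 1 hu (fun i => le_of_eq (by
      have := (P.η_pos i).ne'
      simp only [Pi.one_apply]
      field_simp))).neg
  have h2 : Slow (fun i p => -((P.η i)⁻¹ * (mean (D.eXy W) i p * (D.a i p ^ 2)⁻¹))) :=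
    (D.per_eXy hW).slow_mean.map₂ D.sa (fun i x y => -((P.η i)⁻¹ * (x * (y ^ 2)⁻¹)))
  refine ⟨_, h2.inty, h1.inty, fun i p hp => ?_⟩
  rw [dd_vy_inty h1 i p hp]
  have h3 := (P.η_pos i).ne'
  have h4 := (D.la.pos i hp).ne'
  field_simp

variable {φ : ι → E3 → ℝ}

/-- The phase correction. -/
def PreDat.ph (φ : ι → E3 → ℝ) : ι → E3 → E4 := fun i p => φ i p • dd vt D.W0 i p

theorem PreDat.phu_dd (hφ : So φ) (v : E3) (i : ι) {p : E3} (hp : p ∈ Om) :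
    dd v (D.ph φ) i p = dd v φ i p • dd vt D.W0 i p + φ i p • dd v (dd vt D.W0) i p :=
  dd_smul hφ (D.yW.so.dd vt) v i p hp

theorem PreDat.phu_Fy (hφ : So φ) (v : E3) (i : ι) {p : E3} (hp : p ∈ Om) :
    ⟪dd v D.Fy i p, D.ph φ i p⟫ + ⟪D.Fy i p, dd v (D.ph φ) i p⟫ = 0 := by
  have h1 := dd_inner D.yFy.so (hφ.smul (D.yW.so.dd vt)) v i p hp
  have h2 := dd_zero (u := fun i p => ⟪D.Fy i p, φ i p • dd vt D.W0 i p⟫)
    (fun i p hp => by simp only [inner_smul_right, D.Fy_Wt i hp, mul_zero, Pi.zero_apply]) v i p hp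
  exact h1.symm.trans h2

theorem PreDat.ph_y (hφ : Y P 0 u φ) : Y P 1 (fun i => P.μ i * u i) (D.ph φ) := by
  exact (hφ.smul (D.yW.dd vt)).mono (by norm_num) 1
    (fun i => mul_nonneg (by linarith [P.hμ i]) (hφ.1 i))
    (fun i => le_of_eq (by simp only [Pi.one_apply]; ring))

theorem PreDat.ph_per (sφ : Slow φ) : Per (D.ph φ) := by
  exact sφ.per.map₂ (D.pW.dd vt) (fun _ x y => x • y)

theorem PreDat.ph_mean (sφ : Slow φ) : Eo (mean (D.ph φ)) 0 := by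
  intro i p hp
  have h1 := mean_smul_left sφ (dd vt D.W0) i p hp
  have h2 := mean_dd_vt D.yW.so D.pW i p hp
  show mean (fun i p => φ i p • dd vt D.W0 i p) i p = 0
  rw [h1]
  show φ i p • mean (dd vt D.W0) i p = 0
  rw [h2]
  exact smul_zero _

theorem PreDat.ph_T (sφ : Slow φ) (hφ : So φ) (i : ι) {p : E3} (hp : p ∈ Om) :
    ⟪D.T i p, dd vt (D.ph φ) i p⟫ = 0 := by
  rw [D.phu_dd hφ vt i hp, sφ.dd_vt i p hp, inner_add_right, inner_smul_right, inner_smul_right,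
    D.T_Wtt i hp]
  simp

theorem PreDat.ph_Fy (hφ : So φ) (i : ι) {p : E3} (hp : p ∈ Om) :
    ⟪D.Fy i p, dd vt (D.ph φ) i p⟫ = 0 := by
  have h := D.phu_Fy hφ vt i hp
  rw [D.sFy.dd_vt i p hp] at h
  simpa using h

theorem PreDat.ph_Fyy (hK : K) (hφ : So φ) (i : ι) {p : E3} (hp : p ∈ Om) :
    ⟪D.Fy i p, dd vy (D.ph φ) i p⟫ = 0 := by
  have h := D.phu_Fy hφ vy i hp
  have h2 : ⟪dd vy D.Fy i p, D.ph φ i p⟫ = 0 := by
    rw [PreDat.ph, inner_smul_right, D.Fyy_Wt hK i hp, mul_zero]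
  linarith

theorem PreDat.phase_mean (sφ : Slow φ) (hφ : So φ) :
    Eo (mean fun i p => ⟪D.T i p, dd vy (D.ph φ) i p⟫ + ⟪dd vt (D.ph φ) i p, dd vy D.W0 i p⟫
      + ⟪D.Fy i p, dd (vX P.q) (D.ph φ) i p⟫) (fun i p => D.a i p ^ 2 * dd vy φ i p) := by
  have sW := D.yW.so
  have sT : So D.T := D.yFX.so.add (sW.dd vt)
  have pT : Per D.T := D.sFX.per.map₂ (D.pW.dd vt) (fun _ x y => x + y)
  have s1 := sT.inner (sW.dd vy)
  have s2 := D.yFy.so.inner (sW.dd (vX P.q))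
  have sG := s1.add s2
  have pG : Per (fun i p => ⟪D.T i p, dd vy D.W0 i p⟫ + ⟪D.Fy i p, dd (vX P.q) D.W0 i p⟫) :=
    (pT.map₂ (D.pW.dd vy) (fun _ x y => ⟪x, y⟫)).map₂
      (D.sFy.per.map₂ (D.pW.dd (vX P.q)) (fun _ x y => ⟪x, y⟫)) (fun _ x y => x + y)
  have e : Eo (fun i p => ⟪D.T i p, dd vy (D.ph φ) i p⟫ + ⟪dd vt (D.ph φ) i p, dd vy D.W0 i p⟫
      + ⟪D.Fy i p, dd (vX P.q) (D.ph φ) i p⟫)
      (fun i p => dd vy φ i p • ⟪D.T i p, dd vt D.W0 i p⟫ + φ i p •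
        dd vt (fun i p => ⟪D.T i p, dd vy D.W0 i p⟫ + ⟪D.Fy i p, dd (vX P.q) D.W0 i p⟫) i p) := by
    intro i p hp
    have a1 := dd_add s1 s2 vt i p hp
    have a2 := dd_inner sT (sW.dd vy) vt i p hp
    have a3 := dd_inner D.yFy.so (sW.dd (vX P.q)) vt i p hp
    have a4 : dd vt D.T i p = dd vt (dd vt D.W0) i p := by
      have := dd_add D.yFX.so (sW.dd vt) vt i p hp
      simp only [D.sFX.dd_vt i p hp, Pi.zero_apply, zero_add] at this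
      exact this
    have a5 := dd_comm sW vt vy i p hp
    have a6 := dd_comm sW vt (vX P.q) i p hp
    have a7 := D.sFy.dd_vt i p hp
    have a8 := sφ.dd_vt i p hp
    have a9 := D.Fy_Wt i hp
    simp only [Pi.zero_apply] at a1 a2 a3 a7 a8
    simp only [a1, a2, a3, a4, a5, a6, a7, a8, a9, D.phu_dd hφ _ i hp, inner_add_left,
      inner_add_right, inner_smul_left, inner_smul_right, RCLike.conj_to_real, smul_eq_mul,
      inner_zero_left]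
    ring
  intro i p hp
  rw [mean_congr e i p hp,
    mean_add ((hφ.dd vy).smul (sT.inner (sW.dd vt))) (hφ.smul (sG.dd vt)) i p hp]
  have b1 := mean_smul_left (sφ.dd vy) (fun i p => ⟪D.T i p, dd vt D.W0 i p⟫) i p hp
  have b2 := mean_smul_left sφ (dd vt (fun i p => ⟪D.T i p, dd vy D.W0 i p⟫ +
    ⟪D.Fy i p, dd (vX P.q) D.W0 i p⟫)) i p hp
  have b3 := mean_dd_vt sG pG i p hp
  have b4 := D.mean_T_Wt i p hp
  simp only [Pi.zero_apply] at b1 b2 b3 b4 ⊢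
  rw [b1, b2, b3, b4, smul_eq_mul, smul_eq_mul]
  ring

end Vale.Agent.P205
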