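import Vale.Agent.P205.S.FrmM

/-!
The normal solver. Put g = f * r⁻¹ (weight 1, mean of weight 2 since r is slow),
t0 = -mean (g u0) / M0, t1 = -mean (g u1) / M1, t2 = -mean (g u2) / M2 with M0 = mean (u1^2 + u2^2),
Mk = 1 - mean uk^2 (y_invM0, 1, 2), and S = t0 u0 + t1 u1 + t2 u2. The solution is
v = x0 e0 + x1 e1 + x2 e2 with xk = (g - S) uk + tk. Then Σ uk xk = g (sum_sq), so inner_T gives f.
Classes: mean (g u0) = mean g - mean (g (1 - u0)) has weight 2, so t0 ∈ Y 0 t; t1, t2 ∈ Y 2 t;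
x0 = g u0 + t0 (u1^2 + u2^2) - (t1 u1 + t2 u2) u0 has weight 1, and so do x1, x2.
mean xk = 0 by mean_u01, mean_u02, mean_u12 (tk slow). If g1 = 0 then u1 = 0, t1 = 0, x1 = 0.
-/

open scoped Manifold ContDiff Topology RealInnerProductSpace
open Set Filter Metric Function

noncomputable section

namespace Vale.Agent.P205

variable {ι : Type} {P : Par ι} {K : Prop} {L : Loop} (R : Frm P K L)

theorem solve_mul {a b c : ℤ} {t : ι → ℝ} {u v : ι → E3 → ℝ} (hu : Y P a t u) (hv : Y P b 1 v)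
    (hc : c ≤ a + b) : Y P c t (fun i p => u i p * v i p) :=
  (hu.mul hv).mono hc 1 hu.1 fun i => by simp

theorem solve_mono {V : Type} [NormedAddCommGroup V] [NormedSpace ℝ V] {a c : ℤ} {t : ι → ℝ}
    {u : ι → E3 → V} (hu : Y P a t u) (hc : c ≤ a) : Y P c t u :=
  hu.mono hc 1 hu.1 fun i => by simp

theorem solve_so_mul {u v : ι → E3 → ℝ} (hu : So u) (hv : So v) :
    So (fun i p => u i p * v i p) := hu.smul hv

theorem solve_mean_mul {f : ι → E3 → ℝ} (hf : Slow f) (u : ι → E3 → ℝ) :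
    Eo (mean fun i p => f i p * u i p) (fun i p => f i p * mean u i p) := mean_smul_left hf u

theorem solve_mean_x {g u0 u1 u2 w t0 t1 t2 c : ι → E3 → ℝ} (hg : So g) (h0 : So u0) (h1 : So u1)
    (h2 : So u2) (hw : So w) (o0 : So t0) (o1 : So t1) (o2 : So t2) (oc : So c) (s0 : Slow t0)
    (s1 : Slow t1) (s2 : Slow t2) (sc : Slow c) (i : ι) {p : E3} (hp : p ∈ Om) :
    mean (fun i p => (g i p - (t0 i p * u0 i p + t1 i p * u1 i p + t2 i p * u2 i p)) * w i p +
      c i p) i p = mean (fun i p => g i p * w i p) i p -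
        (t0 i p * mean (fun i p => u0 i p * w i p) i p +
          t1 i p * mean (fun i p => u1 i p * w i p) i p +
          t2 i p * mean (fun i p => u2 i p * w i p) i p) + c i p := by
  have a0 := solve_so_mul o0 (solve_so_mul h0 hw)
  have a1 := solve_so_mul o1 (solve_so_mul h1 hw)
  have a2 := solve_so_mul o2 (solve_so_mul h2 hw)
  have ag := solve_so_mul hg hw
  have e : (fun i p => (g i p - (t0 i p * u0 i p + t1 i p * u1 i p + t2 i p * u2 i p)) * w i p +
      c i p) = fun i p => (g i p * w i p - (t0 i p * (u0 i p * w i p) +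
        t1 i p * (u1 i p * w i p) + t2 i p * (u2 i p * w i p))) + c i p := by
    funext i p; ring
  rw [e, mean_add (ag.sub ((a0.add a1).add a2)) oc i p hp]
  simp only []
  rw [mean_sub ag ((a0.add a1).add a2) i p hp]
  simp only []
  rw [mean_add (a0.add a1) a2 i p hp]
  simp only []
  rw [mean_add a0 a1 i p hp]
  simp only []
  rw [solve_mean_mul s0 _ i p hp, solve_mean_mul s1 _ i p hp, solve_mean_mul s2 _ i p hp,
    sc.mean_eq i p hp]

theorem solve_mean_v {x0 x1 x2 : ι → E3 → ℝ} {e0 e1 e2 : ι → E3 → E4} (h0 : So x0) (h1 : So x1)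
    (h2 : So x2) (o0 : So e0) (o1 : So e1) (o2 : So e2) (s0 : Slow e0) (s1 : Slow e1)
    (s2 : Slow e2) (m0 : Eo (mean x0) 0) (m1 : Eo (mean x1) 0) (m2 : Eo (mean x2) 0) :
    Eo (mean fun i p => x0 i p • e0 i p + x1 i p • e1 i p + x2 i p • e2 i p) 0 := by
  intro i p hp
  rw [mean_add ((h0.smul o0).add (h1.smul o1)) (h2.smul o2) i p hp]
  simp only []
  rw [mean_add (h0.smul o0) (h1.smul o1) i p hp]
  simp only []
  rw [mean_smul_right s0 i p hp, mean_smul_right s1 i p hp, mean_smul_right s2 i p hp]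
  simp only [m0 i p hp, m1 i p hp, m2 i p hp, Pi.zero_apply, zero_smul, add_zero]

/-- the scalar solver -/
theorem Frm.solve_scalar {t : ι → ℝ} {g : ι → E3 → ℝ} (hg : Y P 1 t g) (pg : Per g)
    (mg : Y P 2 t (mean g)) : ∃ x0 x1 x2 : ι → E3 → ℝ, Per x0 ∧ Per x1 ∧ Per x2 ∧
      Y P 1 t x0 ∧ Y P 1 t x1 ∧ Y P 1 t x2 ∧ Eo (mean x0) 0 ∧ Eo (mean x1) 0 ∧ Eo (mean x2) 0 ∧
      (∀ i, ∀ p ∈ Om, R.u0 i p * x0 i p + R.u1 i p * x1 i p + R.u2 i p * x2 i p = g i p) ∧
      (L.g1 = 0 → ∀ i, ∀ p ∈ Om, x1 i p = 0) := by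
  have y0 := R.y_u0
  have y1 := R.y_u1
  have y2 := R.y_u2
  have q0 : Per fun i p => g i p * R.u0 i p := pg.map₂ R.per_u0 fun _ a b => a * b
  have q1 : Per fun i p => g i p * R.u1 i p := pg.map₂ R.per_u1 fun _ a b => a * b
  have q2 : Per fun i p => g i p * R.u2 i p := pg.map₂ R.per_u2 fun _ a b => a * b
  have r0 : Per fun i p => R.u1 i p ^ 2 + R.u2 i p ^ 2 :=
    R.per_u1.map₂ R.per_u2 fun _ a b => a ^ 2 + b ^ 2
  have r1 : Per fun i p => R.u1 i p ^ 2 := R.per_u1.map fun _ a => a ^ 2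
  have r2 : Per fun i p => R.u2 i p ^ 2 := R.per_u2.map fun _ a => a ^ 2
  have n0 : Y P 2 t (mean fun i p => g i p * R.u0 i p) := by
    have b : Y P 2 t (fun i p => g i p * (1 - R.u0 i p)) :=
      solve_mul hg R.y_one_sub_u0 (by norm_num)
    refine (mg.sub b.mean).congr fun i p hp => ?_
    have e := mean_sub hg.so b.so i p hp
    simp only [] at e ⊢
    rw [← e]
    congr 1
    funext i p; ring
  have n1 : Y P 2 t (mean fun i p => g i p * R.u1 i p) := (solve_mul hg y1 (by norm_num)).mean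
  have n2 : Y P 2 t (mean fun i p => g i p * R.u2 i p) := (solve_mul hg y2 (by norm_num)).mean
  obtain ⟨t0, ht0⟩ : ∃ t0 : ι → E3 → ℝ, t0 = fun i p => -(mean (fun i p => g i p * R.u0 i p) i p *
    (mean (fun i p => R.u1 i p ^ 2 + R.u2 i p ^ 2) i p)⁻¹) := ⟨_, rfl⟩
  obtain ⟨t1, ht1⟩ : ∃ t1 : ι → E3 → ℝ, t1 = fun i p => -(mean (fun i p => g i p * R.u1 i p) i p *
    (1 - mean (fun i p => R.u1 i p ^ 2) i p)⁻¹) := ⟨_, rfl⟩
  obtain ⟨t2, ht2⟩ : ∃ t2 : ι → E3 → ℝ, t2 = fun i p => -(mean (fun i p => g i p * R.u2 i p) i p *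
    (1 - mean (fun i p => R.u2 i p ^ 2) i p)⁻¹) := ⟨_, rfl⟩
  have z0 : Y P 0 t t0 := ht0 ▸ (solve_mul n0 R.y_invM0.1 (by norm_num)).neg
  have z1 : Y P 2 t t1 := ht1 ▸ (solve_mul n1 R.y_invM1.1 (by norm_num)).neg
  have z2 : Y P 2 t t2 := ht2 ▸ (solve_mul n2 R.y_invM2.1 (by norm_num)).neg
  have s0 : Slow t0 := ht0 ▸ q0.slow_mean.map₂ r0.slow_mean fun _ a b => -(a * b⁻¹)
  have s1 : Slow t1 := ht1 ▸ q1.slow_mean.map₂ r1.slow_mean fun _ a b => -(a * (1 - b)⁻¹)
  have s2 : Slow t2 := ht2 ▸ q2.slow_mean.map₂ r2.slow_mean fun _ a b => -(a * (1 - b)⁻¹)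
  have yS : Y P 0 t fun i p => g i p - (t0 i p * R.u0 i p + t1 i p * R.u1 i p + t2 i p * R.u2 i p) :=
    (solve_mono hg (by norm_num)).sub (((solve_mul z0 y0 (by norm_num)).add
      (solve_mul z1 y1 (by norm_num))).add (solve_mul z2 y2 (by norm_num)))
  have pS : Per fun i p => g i p - (t0 i p * R.u0 i p + t1 i p * R.u1 i p + t2 i p * R.u2 i p) := by
    intro i p hp
    simp only [pg i p hp, s0.per i p hp, s1.per i p hp, s2.per i p hp, R.per_u0 i p hp,
      R.per_u1 i p hp, R.per_u2 i p hp]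
  have hx := fun {w c : ι → E3 → ℝ} (hw : So w) (oc : So c) (sc : Slow c) (i : ι) {p : E3}
    (hp : p ∈ Om) => solve_mean_x hg.so y0.so y1.so y2.so hw z0.so z1.so z2.so oc s0 s1 s2 sc i hp
  have c10 : (fun i p => R.u1 i p * R.u0 i p) = fun i p => R.u0 i p * R.u1 i p := by
    funext i p; ring
  have c20 : (fun i p => R.u2 i p * R.u0 i p) = fun i p => R.u0 i p * R.u2 i p := by
    funext i p; ring
  have c21 : (fun i p => R.u2 i p * R.u1 i p) = fun i p => R.u1 i p * R.u2 i p := by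
    funext i p; ring
  have c11 : (fun i p => R.u1 i p * R.u1 i p) = fun i p => R.u1 i p ^ 2 := by
    funext i p; ring
  have c22 : (fun i p => R.u2 i p * R.u2 i p) = fun i p => R.u2 i p ^ 2 := by
    funext i p; ring
  refine ⟨fun i p => (g i p - (t0 i p * R.u0 i p + t1 i p * R.u1 i p + t2 i p * R.u2 i p)) *
      R.u0 i p + t0 i p,
    fun i p => (g i p - (t0 i p * R.u0 i p + t1 i p * R.u1 i p + t2 i p * R.u2 i p)) *
      R.u1 i p + t1 i p,
    fun i p => (g i p - (t0 i p * R.u0 i p + t1 i p * R.u1 i p + t2 i p * R.u2 i p)) *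
      R.u2 i p + t2 i p, ?_, ?_, ?_, ?_, ?_, ?_, ?_, ?_, ?_, ?_, ?_⟩
  · exact (pS.map₂ R.per_u0 fun _ a b => a * b).map₂ s0.per fun _ a b => a + b
  · exact (pS.map₂ R.per_u1 fun _ a b => a * b).map₂ s1.per fun _ a b => a + b
  · exact (pS.map₂ R.per_u2 fun _ a b => a * b).map₂ s2.per fun _ a b => a + b
  · have b1 : Y P 1 t fun i p => g i p * R.u0 i p := solve_mul hg y0 (by norm_num)
    have b2 : Y P 1 t fun i p => t0 i p * R.u1 i p * R.u1 i p :=
      solve_mul (solve_mul z0 y1 (c := 1) (by norm_num)) y1 (by norm_num)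
    have b3 : Y P 1 t fun i p => t0 i p * R.u2 i p * R.u2 i p :=
      solve_mul (solve_mul z0 y2 (c := 1) (by norm_num)) y2 (by norm_num)
    have b4 : Y P 1 t fun i p => (t1 i p * R.u1 i p + t2 i p * R.u2 i p) * R.u0 i p :=
      solve_mul ((solve_mul z1 y1 (c := 1) (by norm_num)).add
        (solve_mul z2 y2 (by norm_num))) y0 (by norm_num)
    refine (((b1.add b2).add b3).sub b4).congr fun i p hp => ?_
    have e := R.sum_sq i hp
    simp only []
    linear_combination (-t0 i p) * e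
  · exact (solve_mul yS y1 (by norm_num)).add (solve_mono z1 (by norm_num))
  · exact (solve_mul yS y2 (by norm_num)).add (solve_mono z2 (by norm_num))
  · intro i p hp
    rw [hx y0.so z0.so s0 i hp, c10, c20, R.mean_u01 i p hp, R.mean_u02 i p hp]
    have e : mean (fun i p => R.u0 i p * R.u0 i p) i p =
        1 - mean (fun i p => R.u1 i p ^ 2 + R.u2 i p ^ 2) i p := by
      have so12 : So fun i p => R.u1 i p ^ 2 + R.u2 i p ^ 2 :=
        (c11 ▸ solve_so_mul y1.so y1.so).add (c22 ▸ solve_so_mul y2.so y2.so)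
      have e1 := mean_sub (Y.const (P := P) (1 : ℝ)).so so12 i p hp
      have e2 : Slow fun (_ : ι) (_ : E3) => (1 : ℝ) := fun _ _ _ _ => rfl
      simp only [e2.mean_eq i p hp] at e1
      rw [← e1]
      refine mean_congr (fun i p hp => ?_) i p hp
      have e := R.sum_sq i hp
      linear_combination e
    have h0 := (R.y_invM0.2 i p hp).ne'
    rw [e, ht0]
    simp only [Pi.zero_apply]
    field_simp
    ring
  · intro i p hp
    rw [hx y1.so z1.so s1 i hp, c21, c11, R.mean_u01 i p hp, R.mean_u12 i p hp]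
    have h0 := (R.y_invM1.2 i p hp).ne'
    rw [ht1]
    simp only [Pi.zero_apply]
    field_simp
    ring
  · intro i p hp
    rw [hx y2.so z2.so s2 i hp, c22, R.mean_u02 i p hp, R.mean_u12 i p hp]
    have h0 := (R.y_invM2.2 i p hp).ne'
    rw [ht2]
    simp only [Pi.zero_apply]
    field_simp
    ring
  · intro i p hp
    have e := R.sum_sq i hp
    simp only []
    linear_combination
      (g i p - (t0 i p * R.u0 i p + t1 i p * R.u1 i p + t2 i p * R.u2 i p)) * e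
  · intro h i p hp
    have e : t1 i p = 0 := by
      rw [ht1]
      simp only [R.u1_zero h, mean, mul_zero, intervalIntegral.integral_zero, zero_mul, neg_zero]
    simp only [R.u1_zero h, e, mul_zero, add_zero]

theorem Frm.solveN {t : ι → ℝ} {f : ι → E3 → ℝ} (hf : Y P 1 t f) (pf : Per f)
    (mf : Y P 2 t (mean f)) : ∃ v : ι → E3 → E4, Per v ∧ Y P 1 t v ∧ Eo (mean v) 0 ∧
      (∀ i, ∀ p ∈ Om, ⟪R.FX i p + R.lw i p, v i p⟫ = f i p) ∧
      (∀ i, ∀ p ∈ Om, ⟪R.Fy i p, v i p⟫ = 0) ∧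
      (K → ∀ i, ∀ p ∈ Om, ⟪dd vy R.Fy i p, v i p⟫ = 0) := by
  have yr : Y P 0 1 fun i p => (R.r i p)⁻¹ := R.y_r.inv0 R.lb_r
  have sr : Slow fun i p => (R.r i p)⁻¹ := R.slow_r.map fun _ a => a⁻¹
  have hg : Y P 1 t fun i p => (R.r i p)⁻¹ * f i p := yr.mul0 hf
  have pg : Per fun i p => (R.r i p)⁻¹ * f i p := sr.per.map₂ pf fun _ a b => a * b
  have mg : Y P 2 t (mean fun i p => (R.r i p)⁻¹ * f i p) :=
    (yr.mul0 mf).congr (solve_mean_mul sr f)
  obtain ⟨x0, x1, x2, p0, p1, p2, y0, y1, y2, m0, m1, m2, hs, h1⟩ := R.solve_scalar hg pg mg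
  refine ⟨fun i p => x0 i p • R.e0 i p + x1 i p • R.e1 i p + x2 i p • R.e2 i p, ?_, ?_, ?_, ?_, ?_,
    ?_⟩
  · intro i p hp
    simp only [p0 i p hp, p1 i p hp, p2 i p hp, R.s0.per i p hp, R.s1.per i p hp, R.s2.per i p hp]
  · exact ((y0.smul1 R.y0).add (y1.smul1 R.y1)).add (y2.smul1 R.y2)
  · exact solve_mean_v y0.so y1.so y2.so R.y0.so R.y1.so R.y2.so R.s0 R.s1 R.s2 m0 m1 m2
  · intro i p hp
    rw [R.inner_T i hp _ _ _ fun h => h1 h i p hp, hs i p hp]
    have h0 := (R.lb_r.pos i hp).ne'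
    field_simp
  · intro i p hp
    obtain ⟨a0, a1, a2⟩ := R.oy i p hp
    simp only [inner_add_right, inner_smul_right, a0, a1, a2, mul_zero, add_zero]
  · intro hK i p hp
    obtain ⟨a0, a2⟩ := (R.oyy hK).2 i p hp
    simp only [inner_add_right, inner_smul_right, a0, a2, h1 (R.oyy hK).1 i p hp, mul_zero,
      add_zero, zero_mul]

end Vale.Agent.P205
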