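import Vale.Agent.P205.S.Defs

/-!
Algebra of the class Y.
Om is open; on it iteratedFDeriv = iteratedFDerivWithin Om (iteratedFDerivWithin_of_isOpen).
τ ≥ 1, 0 < w ≤ 1 on Om (expNegInvGlue.pos_of_pos, exp ≤ 1), μ ≥ 1. To use finitely many orders at
once prove first Y.upto: one C, m valid for all orders i ≤ j. Y.bil: Leibniz bound
ContinuousLinearMap.norm_iteratedFDerivWithin_le_of_bilinear, zpow_add₀. Y.dd:
norm_iteratedFDeriv_fderiv and norm_iteratedFDeriv_clm_apply_const (within the open set).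
-/

open scoped Manifold ContDiff Topology RealInnerProductSpace
open Set Filter Metric Function

noncomputable section

namespace Vale.Agent.P205

variable {ι : Type} {P : Par ι} {V : Type} [NormedAddCommGroup V] [NormedSpace ℝ V]
  {V₂ : Type} [NormedAddCommGroup V₂] [NormedSpace ℝ V₂]
  {V₃ : Type} [NormedAddCommGroup V₃] [NormedSpace ℝ V₃]
  {a b : ℤ} {t t' : ι → ℝ}

theorem isOpen_Om : IsOpen Om := by
  exact isOpen_lt (continuous_fst.norm) continuous_const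

theorem mem_Om {p : E3} (hp : p ∈ Om) (θ : ℝ) : ((p.1, θ) : E3) ∈ Om := hp

theorem Par.one_le_tau (P : Par ι) (i : ι) {p : E3} (hp : p ∈ Om) : 1 ≤ P.tau i p := by
  have h1 : ‖p.1‖ < 1 := hp
  have h0 := norm_nonneg p.1
  have h2 : 0 < 1 - ‖p.1‖ ^ 2 := by nlinarith
  have h3 := P.hΛ i
  unfold Par.tau
  rw [le_div_iff₀ h2]
  nlinarith [sq_nonneg ‖p.1‖]

theorem Par.w_pos (P : Par ι) (i : ι) {p : E3} (hp : p ∈ Om) : 0 < P.w i p := by
  have h1 : ‖p.1‖ < 1 := hp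
  have h0 := norm_nonneg p.1
  have h2 : 0 < 1 - ‖p.1‖ ^ 2 := by nlinarith
  exact mul_pos (P.hs0 i) (expNegInvGlue.pos_of_pos h2)

theorem Par.w_le_one (P : Par ι) (i : ι) (p : E3) : P.w i p ≤ 1 := by
  have h1 : wt p.1 ≤ 1 := by
    unfold wt expNegInvGlue
    split_ifs with h
    · exact zero_le_one
    · rw [Real.exp_le_one_iff]
      have : 0 < 1 - ‖p.1‖ ^ 2 := not_le.mp h
      have := inv_pos.mpr this
      linarith
  have h0 : 0 ≤ wt p.1 := expNegInvGlue.nonneg _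
  unfold Par.w
  have := P.hs1 i
  have := P.hs0 i
  nlinarith

theorem Par.η_pos (P : Par ι) (i : ι) : 0 < P.η i := by
  exact inv_pos.mpr (lt_of_lt_of_le one_pos (P.hlam i))

theorem Par.η_le_one (P : Par ι) (i : ι) : P.η i ≤ 1 := by
  exact inv_le_one_of_one_le₀ (P.hlam i)

theorem Y.so {u : ι → E3 → V} (h : Y P a t u) : So u := h.2.1

theorem yb_at {u : E3 → V} (h : ContDiffOn ℝ ∞ u Om) {p : E3} (hp : p ∈ Om) :
    ContDiffAt ℝ ∞ u p := h.contDiffAt (isOpen_Om.mem_nhds hp)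

theorem yb_atn {u : E3 → V} (h : ContDiffOn ℝ ∞ u Om) {p : E3} (hp : p ∈ Om) (j : ℕ) :
    ContDiffAt ℝ j u p := (yb_at h hp).of_le (by exact_mod_cast le_top)

theorem yb_up {C C' : ℝ} {m m' : ℕ} (hC : 0 ≤ C) (hCC : C ≤ C') (hm : m ≤ m') (i : ι) {p : E3}
    (hp : p ∈ Om) (a : ℤ) {s : ℝ} (hs : 0 ≤ s) (k : ℕ) :
    C * P.tau i p ^ m * P.w i p ^ a * s * P.μ i ^ k ≤
      C' * P.tau i p ^ m' * P.w i p ^ a * s * P.μ i ^ k := by
  have h1 := P.one_le_tau i hp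
  have h2 := P.w_pos i hp
  have h3 := P.hμ i
  have h4 : P.tau i p ^ m ≤ P.tau i p ^ m' := pow_le_pow_right₀ h1 hm
  have h5 : 0 < P.w i p ^ a := zpow_pos h2 a
  have h6 : 0 ≤ C' := hC.trans hCC
  have h7 : 0 ≤ P.μ i := by linarith
  have h8 : 0 ≤ P.tau i p := by linarith
  gcongr

theorem yb_nonneg {C : ℝ} (m : ℕ) (hC : 0 ≤ C) (i : ι) {p : E3}
    (hp : p ∈ Om) (a : ℤ) {s : ℝ} (hs : 0 ≤ s) (k : ℕ) :
    0 ≤ C * P.tau i p ^ m * P.w i p ^ a * s * P.μ i ^ k := by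
  have h1 := P.one_le_tau i hp
  have h2 := P.w_pos i hp
  have h3 := P.hμ i
  have h5 : 0 < P.w i p ^ a := zpow_pos h2 a
  have h7 : 0 ≤ P.μ i := by linarith
  have h8 : 0 ≤ P.tau i p := by linarith
  positivity

theorem Y.upto {u : ι → E3 → V} (h : Y P a t u) (j : ℕ) : ∃ (C : ℝ) (m : ℕ), 0 ≤ C ∧
    ∀ k ≤ j, ∀ i, ∀ p ∈ Om,
      ‖iteratedFDeriv ℝ k (u i) p‖ ≤ C * P.tau i p ^ m * P.w i p ^ a * t i * P.μ i ^ k := by
  induction j with
  | zero =>
    obtain ⟨C, m, hC, hb⟩ := h.2.2 0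
    refine ⟨C, m, hC, fun k hk i p hp => ?_⟩
    obtain rfl : k = 0 := Nat.le_zero.mp hk
    exact hb i p hp
  | succ j ih =>
    obtain ⟨C, m, hC, hb⟩ := ih
    obtain ⟨C', m', hC', hb'⟩ := h.2.2 (j + 1)
    refine ⟨max C C', max m m', hC.trans (le_max_left _ _), fun k hk i p hp => ?_⟩
    rcases Nat.of_le_succ hk with hk | rfl
    · exact (hb k hk i p hp).trans
        (yb_up hC (le_max_left _ _) (le_max_left _ _) i hp a (h.1 i) k)
    · exact (hb' i p hp).trans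
        (yb_up hC' (le_max_right _ _) (le_max_right _ _) i hp a (h.1 i) _)

theorem Y.congr {u v : ι → E3 → V} (h : Y P a t u) (e : Eo v u) : Y P a t v := by
  refine ⟨h.1, fun i => (h.2.1 i).congr (fun p hp => e i p hp), fun j => ?_⟩
  obtain ⟨C, m, hC, hb⟩ := h.2.2 j
  refine ⟨C, m, hC, fun i p hp => ?_⟩
  have hev : v i =ᶠ[𝓝 p] u i := by
    filter_upwards [isOpen_Om.mem_nhds hp] with x hx using e i x hx
  rw [(hev.iteratedFDeriv ℝ j).eq_of_nhds]
  exact hb i p hp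

theorem Y.mono {u : ι → E3 → V} (h : Y P a t u) (hb : b ≤ a) (C : ℝ) (h0 : ∀ i, 0 ≤ t' i)
    (ht : ∀ i, t i ≤ C * t' i) : Y P b t' u := by
  refine ⟨h0, h.2.1, fun j => ?_⟩
  obtain ⟨C1, m, hC, hb1⟩ := h.2.2 j
  refine ⟨C1 * max C 0, m, mul_nonneg hC (le_max_right _ _), fun i p hp => ?_⟩
  refine (hb1 i p hp).trans ?_
  have h1 := P.one_le_tau i hp
  have h2 := P.w_pos i hp
  have h3 := P.hμ i
  have h4 : P.w i p ^ a ≤ P.w i p ^ b := zpow_le_zpow_right_of_le_one₀ h2 (P.w_le_one i p) hb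
  have h5 : t i ≤ max C 0 * t' i := (ht i).trans (mul_le_mul_of_nonneg_right (le_max_left _ _) (h0 i))
  have h6 := h.1 i
  have h7 : 0 ≤ P.μ i := by linarith
  have h8 : 0 ≤ P.tau i p := by linarith
  have h9 : 0 < P.w i p ^ b := zpow_pos h2 b
  calc C1 * P.tau i p ^ m * P.w i p ^ a * t i * P.μ i ^ j
      ≤ C1 * P.tau i p ^ m * P.w i p ^ b * (max C 0 * t' i) * P.μ i ^ j := by gcongr
    _ = _ := by ring

theorem Y.zero (h0 : ∀ i, 0 ≤ t i) : Y P a t (fun _ _ => (0 : V)) := by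
  refine ⟨h0, fun i => contDiffOn_const, fun j => ⟨0, 0, le_rfl, fun i p hp => ?_⟩⟩
  rw [iteratedFDeriv_fun_zero]
  simp

theorem Y.of_eo_zero {u : ι → E3 → V} (h0 : ∀ i, 0 ≤ t i) (e : Eo u 0) : Y P a t u := by
  exact (Y.zero h0).congr e

theorem Y.const (c : V) : Y P 0 1 (fun _ _ => c) := by
  refine ⟨fun _ => zero_le_one, fun i => contDiffOn_const, fun j => ⟨‖c‖, 0, norm_nonneg _,
    fun i p hp => ?_⟩⟩
  rcases Nat.eq_zero_or_pos j with rfl | hj
  · simp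
  · rw [iteratedFDeriv_const_of_ne hj.ne']
    simpa using yb_nonneg (P := P) 0 (norm_nonneg c) i hp 0 zero_le_one j

theorem Y.add {u v : ι → E3 → V} (hu : Y P a t u) (hv : Y P a t v) :
    Y P a t (fun i p => u i p + v i p) := by
  refine ⟨hu.1, fun i => (hu.2.1 i).add (hv.2.1 i), fun j => ?_⟩
  obtain ⟨C, m, hC, hb⟩ := hu.2.2 j
  obtain ⟨C', m', hC', hb'⟩ := hv.2.2 j
  refine ⟨C + C', max m m', add_nonneg hC hC', fun i p hp => ?_⟩
  have e : iteratedFDeriv ℝ j (fun p => u i p + v i p) p =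
      iteratedFDeriv ℝ j (u i) p + iteratedFDeriv ℝ j (v i) p :=
    iteratedFDeriv_add_apply (yb_atn (hu.2.1 i) hp j) (yb_atn (hv.2.1 i) hp j)
  rw [e]
  refine (norm_add_le _ _).trans ?_
  have h1 := (hb i p hp).trans (yb_up hC le_rfl (le_max_left m m') i hp a (hu.1 i) j)
  have h2 := (hb' i p hp).trans (yb_up hC' le_rfl (le_max_right m m') i hp a (hu.1 i) j)
  calc _ ≤ _ := add_le_add h1 h2
    _ = _ := by ring

theorem yb_clm {u : ι → E3 → V} (hu : Y P a t u) (L : V →L[ℝ] V₂) :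
    Y P a t (fun i p => L (u i p)) := by
  refine ⟨hu.1, fun i => L.contDiff.comp_contDiffOn (hu.2.1 i), fun j => ?_⟩
  obtain ⟨C, m, hC, hb⟩ := hu.2.2 j
  refine ⟨‖L‖ * C, m, mul_nonneg (norm_nonneg _) hC, fun i p hp => ?_⟩
  have h1 := L.norm_iteratedFDeriv_comp_left (yb_atn (hu.2.1 i) hp j) (n := j) le_rfl
  refine le_trans h1 ?_
  calc _ ≤ ‖L‖ * (C * P.tau i p ^ m * P.w i p ^ a * t i * P.μ i ^ j) :=
        mul_le_mul_of_nonneg_left (hb i p hp) (norm_nonneg _)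
    _ = _ := by ring

theorem Y.neg {u : ι → E3 → V} (hu : Y P a t u) : Y P a t (fun i p => -u i p) := by
  exact yb_clm hu (-ContinuousLinearMap.id ℝ V)

theorem Y.sub {u v : ι → E3 → V} (hu : Y P a t u) (hv : Y P a t v) :
    Y P a t (fun i p => u i p - v i p) := by
  simpa only [sub_eq_add_neg] using hu.add hv.neg

/-- Multiplication by a fixed constant. -/
theorem Y.smul_const {u : ι → E3 → V} (hu : Y P a t u) (c : ℝ) :
    Y P a t (fun i p => c • u i p) := by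
  exact yb_clm hu (c • ContinuousLinearMap.id ℝ V)

theorem Y.mul_const {u : ι → E3 → ℝ} (hu : Y P a t u) (c : ℝ) :
    Y P a t (fun i p => c * u i p) := hu.smul_const c

/-- Multiplication by a nonnegative constant depending on the index. -/
theorem Y.csmul {u : ι → E3 → V} (hu : Y P a t u) {c : ι → ℝ} (hc : ∀ i, 0 ≤ c i) :
    Y P a (fun i => c i * t i) (fun i p => c i • u i p) := by
  refine ⟨fun i => mul_nonneg (hc i) (hu.1 i), fun i => (hu.2.1 i).const_smul (c i), fun j => ?_⟩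
  obtain ⟨C, m, hC, hb⟩ := hu.2.2 j
  refine ⟨C, m, hC, fun i p hp => ?_⟩
  rw [iteratedFDeriv_const_smul_apply' (yb_atn (hu.2.1 i) hp j), norm_smul,
    Real.norm_of_nonneg (hc i)]
  calc _ ≤ c i * (C * P.tau i p ^ m * P.w i p ^ a * t i * P.μ i ^ j) :=
        mul_le_mul_of_nonneg_left (hb i p hp) (hc i)
    _ = _ := by ring

theorem Y.cmul {u : ι → E3 → ℝ} (hu : Y P a t u) {c : ι → ℝ} (hc : ∀ i, 0 ≤ c i) :
    Y P a (fun i => c i * t i) (fun i p => c i * u i p) := hu.csmul hc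

theorem Y.clm {u : ι → E3 → V} (hu : Y P a t u) (L : V →L[ℝ] V₂) :
    Y P a t (fun i p => L (u i p)) := yb_clm hu L

theorem Y.bil (B : V →L[ℝ] V₂ →L[ℝ] V₃) {u : ι → E3 → V} {v : ι → E3 → V₂} (hu : Y P a t u)
    (hv : Y P b t' v) : Y P (a + b) (fun i => t i * t' i) (fun i p => B (u i p) (v i p)) := by
  refine ⟨fun i => mul_nonneg (hu.1 i) (hv.1 i),
    fun i => (B.contDiff.comp_contDiffOn (hu.2.1 i)).clm_apply (hv.2.1 i), fun j => ?_⟩
  obtain ⟨C, m, hC, hb⟩ := hu.upto j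
  obtain ⟨C', m', hC', hb'⟩ := hv.upto j
  refine ⟨‖B‖ * (∑ k ∈ Finset.range (j + 1), (j.choose k : ℝ)) * (C * C'), m + m', by positivity,
    fun i p hp => ?_⟩
  have h1 := B.norm_iteratedFDerivWithin_le_of_bilinear (hu.2.1 i) (hv.2.1 i)
    isOpen_Om.uniqueDiffOn hp (n := j) (by exact_mod_cast le_top)
  rw [iteratedFDerivWithin_of_isOpen j isOpen_Om hp] at h1
  refine h1.trans ?_
  have hw := P.w_pos i hp
  have h2 : ∑ k ∈ Finset.range (j + 1), (j.choose k : ℝ) * ‖iteratedFDerivWithin ℝ k (u i) Om p‖ *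
        ‖iteratedFDerivWithin ℝ (j - k) (v i) Om p‖ ≤
      ∑ k ∈ Finset.range (j + 1), (j.choose k : ℝ) *
        (C * C' * P.tau i p ^ (m + m') * P.w i p ^ (a + b) * (t i * t' i) * P.μ i ^ j) := by
    refine Finset.sum_le_sum fun k hk => ?_
    have hkj : k ≤ j := Nat.lt_succ_iff.mp (Finset.mem_range.mp hk)
    rw [iteratedFDerivWithin_of_isOpen k isOpen_Om hp,
      iteratedFDerivWithin_of_isOpen (j - k) isOpen_Om hp, mul_assoc]
    refine mul_le_mul_of_nonneg_left ?_ (Nat.cast_nonneg _)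
    have h3 := mul_le_mul (hb k hkj i p hp) (hb' (j - k) (Nat.sub_le _ _) i p hp) (norm_nonneg _)
      (yb_nonneg m hC i hp a (hu.1 i) k)
    refine h3.trans (le_of_eq ?_)
    have h4 : P.μ i ^ j = P.μ i ^ k * P.μ i ^ (j - k) := by
      rw [← pow_add, Nat.add_sub_cancel' hkj]
    rw [zpow_add₀ hw.ne', pow_add, h4]
    ring
  refine (mul_le_mul_of_nonneg_left h2 (norm_nonneg B)).trans (le_of_eq ?_)
  rw [← Finset.sum_mul]
  ring

theorem Y.mul {u v : ι → E3 → ℝ} (hu : Y P a t u) (hv : Y P b t' v) :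
    Y P (a + b) (fun i => t i * t' i) (fun i p => u i p * v i p) := by
  exact Y.bil (ContinuousLinearMap.mul ℝ ℝ) hu hv

theorem Y.smul {u : ι → E3 → ℝ} {v : ι → E3 → V} (hu : Y P a t u) (hv : Y P b t' v) :
    Y P (a + b) (fun i => t i * t' i) (fun i p => u i p • v i p) := by
  exact Y.bil (ContinuousLinearMap.lsmul ℝ ℝ : ℝ →L[ℝ] V →L[ℝ] V) hu hv

theorem Y.inner {u v : ι → E3 → E4} (hu : Y P a t u) (hv : Y P b t' v) :
    Y P (a + b) (fun i => t i * t' i) (fun i p => ⟪u i p, v i p⟫) := by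
  exact Y.bil (innerSL ℝ : E4 →L[ℝ] E4 →L[ℝ] ℝ) hu hv

/-- Products with a factor of size one. -/
theorem Y.mul0 {u v : ι → E3 → ℝ} (hu : Y P 0 1 u) (hv : Y P a t v) :
    Y P a t (fun i p => u i p * v i p) := by
  simpa using hu.mul hv

theorem Y.smul0 {u : ι → E3 → ℝ} {v : ι → E3 → V} (hu : Y P 0 1 u) (hv : Y P a t v) :
    Y P a t (fun i p => u i p • v i p) := by
  simpa using hu.smul hv

theorem Y.smul1 {u : ι → E3 → ℝ} {v : ι → E3 → V} (hu : Y P a t u) (hv : Y P 0 1 v) :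
    Y P a t (fun i p => u i p • v i p) := by
  simpa using hu.smul hv

theorem Y.inner0 {u v : ι → E3 → E4} (hu : Y P 0 1 u) (hv : Y P a t v) :
    Y P a t (fun i p => ⟪u i p, v i p⟫) := by
  simpa using hu.inner hv

theorem Y.prod {u : ι → E3 → V} {v : ι → E3 → V₂} (hu : Y P a t u) (hv : Y P a t v) :
    Y P a t (fun i p => (u i p, v i p)) := by
  have h := (hu.clm (ContinuousLinearMap.inl ℝ V V₂)).add (hv.clm (ContinuousLinearMap.inr ℝ V V₂))
  simpa using h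

theorem Y.dd {u : ι → E3 → V} (hu : Y P a t u) (v : E3) :
    Y P a (fun i => P.μ i * t i) (dd v u) := by
  have hd : ∀ i, ContDiffOn ℝ ∞ (fderiv ℝ (u i)) Om := fun i =>
    (hu.2.1 i).fderiv_of_isOpen isOpen_Om (by simp)
  refine ⟨fun i => mul_nonneg (zero_le_one.trans (P.hμ i)) (hu.1 i),
    fun i => (hd i).clm_apply contDiffOn_const, fun j => ?_⟩
  obtain ⟨C, m, hC, hb⟩ := hu.2.2 (j + 1)
  refine ⟨‖v‖ * C, m, mul_nonneg (norm_nonneg _) hC, fun i p hp => ?_⟩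
  have h1 := norm_iteratedFDeriv_clm_apply_const (c := v) (yb_atn (hd i) hp j) (n := j) le_rfl
  rw [norm_iteratedFDeriv_fderiv] at h1
  refine le_trans h1 ?_
  calc _ ≤ ‖v‖ * (C * P.tau i p ^ m * P.w i p ^ a * t i * P.μ i ^ (j + 1)) :=
        mul_le_mul_of_nonneg_left (hb i p hp) (norm_nonneg _)
    _ = _ := by ring

end Vale.Agent.P205
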